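import Mathlib

/-!
# Row 89, chunk F2: volume of the ball of radius `√(d c)` in dimension `d²`

PROOF.  `EuclideanSpace.volume_closedBall` (dimension `D = d²`):
`vol = ρ^D π^{D/2} / Γ(D/2+1)`, `ρ² = d c`, and `Γ(x+1) ≥ x^x e^{-x}` for `x > 0`
(`Γ(x+1) = ∫_0^∞ t^x e^{-t} dt ≥ ∫_x^∞ x^x e^{-t} dt`).  So
`vol ≤ (π d c · 2e / d²)^{D/2} = exp (d² (½ log (2πe c) − ½ log d))`.
-/

set_option autoImplicit false

namespace Crest.Agent.FE

open MeasureTheory

theorem gamma_lower (x : ℝ) (hx : 0 < x) : Real.exp (x * Real.log x - x) ≤ Real.Gamma (x + 1) := by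
  rw [Real.Gamma_eq_integral (by linarith : 0 < x + 1)]
  have hint := Real.GammaIntegral_convergent (s := x + 1) (by linarith)
  have hint2 : IntegrableOn (fun y : ℝ => Real.exp (-y) * y ^ (x + 1 - 1)) (Set.Ioi x) :=
    hint.mono_set (Set.Ioi_subset_Ioi hx.le)
  have hexp : IntegrableOn (fun y : ℝ => Real.exp (-y)) (Set.Ioi x) := integrableOn_exp_neg_Ioi x
  calc Real.exp (x * Real.log x - x)
      = Real.exp (x * Real.log x) * ∫ y in Set.Ioi x, Real.exp (-y) := by
        rw [integral_exp_neg_Ioi, ← Real.exp_add]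
        congr 1
    _ = ∫ y in Set.Ioi x, Real.exp (x * Real.log x) * Real.exp (-y) := by
        rw [integral_const_mul]
    _ ≤ ∫ y in Set.Ioi x, Real.exp (-y) * y ^ (x + 1 - 1) := by
        refine setIntegral_mono_on (hexp.const_mul _) hint2 measurableSet_Ioi fun y hy => ?_
        have hy' : x < y := hy
        have hy0 : 0 < y := hx.trans hy'
        rw [mul_comm]
        refine mul_le_mul_of_nonneg_left ?_ (Real.exp_nonneg _)
        rw [add_sub_cancel_right, Real.rpow_def_of_pos hy0, mul_comm (Real.log y)]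
        refine Real.exp_le_exp.2 (mul_le_mul_of_nonneg_left ?_ hx.le)
        exact Real.log_le_log hx hy'.le
    _ ≤ ∫ y in Set.Ioi (0:ℝ), Real.exp (-y) * y ^ (x + 1 - 1) := by
        refine setIntegral_mono_set hint ?_ (Set.Ioi_subset_Ioi hx.le).eventuallyLE
        refine (ae_restrict_iff' measurableSet_Ioi).2 (Filter.Eventually.of_forall fun y hy => ?_)
        have hy' : (0:ℝ) < y := hy
        exact mul_nonneg (Real.exp_nonneg _) (Real.rpow_nonneg hy'.le _)

theorem ball_vol_le (d : ℕ) (hd : 1 ≤ d) (c : ℝ) (hc : 0 < c)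
    (x : EuclideanSpace ℝ (Fin d × Fin d)) :
    volume (Metric.closedBall x (Real.sqrt (d * c))) ≤ ENNReal.ofReal (Real.exp ((d : ℝ) ^ 2 *
      (1 / 2 * Real.log (2 * Real.pi * Real.exp 1 * c) - 1 / 2 * Real.log d))) := by
  have hd0 : (0:ℝ) < d := by exact_mod_cast hd
  have : Nonempty (Fin d) := ⟨⟨0, hd⟩⟩
  have hcard : Fintype.card (Fin d × Fin d) = d * d := by simp
  have hpi := Real.pi_pos
  rw [EuclideanSpace.volume_closedBall, hcard]
  have hD : ((d * d : ℕ) : ℝ) = (d:ℝ) ^ 2 := by push_cast; ring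
  have hX : (0:ℝ) < (d:ℝ) ^ 2 / 2 := by positivity
  have hdc : 0 < (d:ℝ) * c := by positivity
  have hρ : 0 < Real.sqrt (d * c) := Real.sqrt_pos.2 hdc
  rw [← ENNReal.ofReal_pow hρ.le, ← ENNReal.ofReal_mul (by positivity)]
  refine ENNReal.ofReal_le_ofReal ?_
  rw [hD]
  have hG := gamma_lower ((d:ℝ) ^ 2 / 2) hX
  have hGpos : 0 < Real.Gamma ((d:ℝ) ^ 2 / 2 + 1) := Real.Gamma_pos_of_pos (by linarith)
  have hsq : Real.sqrt (d * c) ^ (d * d) = Real.exp ((d:ℝ) ^ 2 / 2 * Real.log (d * c)) := by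
    rw [← Real.exp_log (pow_pos hρ (d * d)), Real.log_pow, Real.log_sqrt hdc.le, hD]
    congr 1; ring
  have hsq2 : Real.sqrt Real.pi ^ (d * d) = Real.exp ((d:ℝ) ^ 2 / 2 * Real.log Real.pi) := by
    rw [← Real.exp_log (pow_pos (Real.sqrt_pos.2 hpi) (d * d)), Real.log_pow,
      Real.log_sqrt hpi.le, hD]
    congr 1; ring
  rw [hsq, hsq2, ← mul_div_assoc, div_le_iff₀ hGpos]
  calc Real.exp ((d:ℝ) ^ 2 / 2 * Real.log (d * c)) * Real.exp ((d:ℝ) ^ 2 / 2 * Real.log Real.pi)
      = Real.exp ((d : ℝ) ^ 2 *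
        (1 / 2 * Real.log (2 * Real.pi * Real.exp 1 * c) - 1 / 2 * Real.log d)) *
        Real.exp ((d:ℝ) ^ 2 / 2 * Real.log ((d:ℝ) ^ 2 / 2) - (d:ℝ) ^ 2 / 2) := by
        rw [← Real.exp_add, ← Real.exp_add]
        congr 1
        have l1 : Real.log (d * c) = Real.log d + Real.log c := Real.log_mul hd0.ne' hc.ne'
        have l2 : Real.log (2 * Real.pi * Real.exp 1 * c)
            = Real.log 2 + Real.log Real.pi + 1 + Real.log c := by
          rw [Real.log_mul (by positivity) hc.ne', Real.log_mul (by positivity) (by positivity),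
            Real.log_mul (by norm_num) hpi.ne', Real.log_exp]
        have l3 : Real.log ((d:ℝ) ^ 2 / 2) = 2 * Real.log d - Real.log 2 := by
          rw [Real.log_div (by positivity) (by norm_num), Real.log_pow]
          norm_num
        rw [l1, l2, l3]
        ring
    _ ≤ _ := mul_le_mul_of_nonneg_left hG (Real.exp_nonneg _)

end Crest.Agent.FE
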