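import Crest.Agent.FE.Rel

/-!
# Row 89, chunk B3: the representation formula (pure combinatorics)

`F Q P` stands for `τ(a_Q X_P)`.

`spl P` lists all splittings `P = a ++ i :: b`; `TT μ N G P = Σ_{|u| < N} G(u) D_u(P)` by recursion.
-/

set_option autoImplicit false

namespace Crest.Agent.FE

section split

variable {α : Type*}

/-- all splittings `P = a ++ i :: b` -/
def spl : List α → List (List α × α × List α)
  | [] => []
  | x :: P => ([], x, P) :: (spl P).map fun y => (x :: y.1, y.2.1, y.2.2)

theorem spl_length {P : List α} {y : List α × α × List α} (h : y ∈ spl P) :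
    y.1.length < P.length ∧ y.2.2.length < P.length := by
  induction P generalizing y with
  | nil => simp [spl] at h
  | cons x P ih =>
    rw [spl, List.mem_cons, List.mem_map] at h
    rcases h with rfl | ⟨z, hz, rfl⟩
    · simp
    · have := ih hz
      simp only [List.length_cons]
      omega

theorem sum_spl {M : Type*} [AddCommMonoid M] (φ : List α → α → List α → M) (P : List α) :
    ∑ t : Fin P.length, φ (P.take t) P[t] (P.drop (t + 1)) =
      ((spl P).map fun y => φ y.1 y.2.1 y.2.2).sum := by
  induction P generalizing φ with
  | nil => simp [spl]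
  | cons x P ih =>
    have h := ih (fun a i b => φ (x :: a) i b)
    simp only [spl, List.map_cons, List.sum_cons, List.map_map, Function.comp_def]
    rw [← h]
    simp only [List.length_cons]
    rw [Fin.sum_univ_succ]
    simp

theorem spl_coassoc {M : Type*} [AddCommMonoid M]
    (h : List α → α → List α → α → List α → M) (P : List α) :
    ((spl P).map fun y => ((spl y.2.2).map fun z => h y.1 y.2.1 z.1 z.2.1 z.2.2).sum).sum =
      ((spl P).map fun z => ((spl z.1).map fun y => h y.1 y.2.1 y.2.2 z.2.1 z.2.2).sum).sum := by
  induction P generalizing h with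
  | nil => simp [spl]
  | cons x P ih =>
    have h' := ih (fun a i b j c => h (x :: a) i b j c)
    simp only [spl, List.map_cons, List.sum_cons, List.map_map, Function.comp_def, List.map_nil,
      List.sum_nil, zero_add]
    rw [h', ← List.sum_map_add]

end split

section TT

variable {α : Type*} (μ : List α → ℂ)

/-- `Σ_{|u| < N} G(u) D_u(P)` -/
def TT : ℕ → (List α → ℂ) → List α → ℂ
  | 0, _, _ => 0
  | N + 1, G, P => G [] * μ P +
      ((spl P).map fun y => μ y.1 * TT N (fun v => G (y.2.1 :: v)) y.2.2).sum

theorem TT_add (N : ℕ) (G G' : List α → ℂ) (P : List α) :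
    TT μ N (fun u => G u + G' u) P = TT μ N G P + TT μ N G' P := by
  induction N generalizing G G' P with
  | zero => simp [TT]
  | succ N ih =>
    simp only [TT]
    simp only [ih, mul_add, List.sum_map_add]
    ring

theorem TT_smul (N : ℕ) (c : ℂ) (G : List α → ℂ) (P : List α) :
    TT μ N (fun u => c * G u) P = c * TT μ N G P := by
  induction N generalizing G P with
  | zero => simp [TT]
  | succ N ih =>
    simp only [TT]
    simp only [ih]
    rw [mul_add, ← List.sum_map_mul_left, mul_assoc]
    congr 2
    refine List.map_congr_left fun y _ => ?_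
    ring

theorem TT_zero (N : ℕ) (P : List α) : TT μ N (fun _ => 0) P = 0 := by
  have := TT_smul μ N 0 (fun _ => 0) P
  simpa using this

theorem TT_sum {ι : Type*} (s : Finset ι) (N : ℕ) (G : ι → List α → ℂ) (P : List α) :
    TT μ N (fun u => ∑ i ∈ s, G i u) P = ∑ i ∈ s, TT μ N (G i) P := by
  classical
  induction s using Finset.induction_on with
  | empty => simp [TT_zero]
  | insert i s hi ih =>
    simp only [Finset.sum_insert hi]
    rw [TT_add, ih]

theorem TT_lsum {ι : Type*} (l : List ι) (N : ℕ) (G : ι → List α → ℂ) (P : List α) :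
    TT μ N (fun u => (l.map fun i => G i u).sum) P = (l.map fun i => TT μ N (G i) P).sum := by
  induction l with
  | nil => simp [TT_zero]
  | cons i l ih =>
    simp only [List.map_cons, List.sum_cons]
    rw [TT_add, ih]

theorem TT_stable {N N' : ℕ} (G : List α → ℂ) (P : List α) (h : P.length < N)
    (h' : P.length < N') : TT μ N G P = TT μ N' G P := by
  induction N generalizing N' G P with
  | zero => omega
  | succ N ih =>
    obtain _ | N' := N'
    · omega
    simp only [TT]
    congr 2
    refine List.map_congr_left fun y hy => ?_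
    have := (spl_length hy).2
    rw [ih (N' := N') _ _ (by omega) (by omega)]

theorem TT_split (N : ℕ) (f : List α → α → List α → ℂ) (P : List α) (h : P.length < N) :
    TT μ N (fun u => ((spl u).map fun y => f y.1 y.2.1 y.2.2).sum) P =
      ((spl P).map fun z => TT μ N (fun u' => TT μ N (fun u'' => f u' z.2.1 u'') z.2.2)
        z.1).sum := by
  induction N generalizing f P with
  | zero => omega
  | succ N ih =>
    have e1 : ∀ y ∈ spl P, μ y.1 * TT μ N (fun v => ((spl (y.2.1 :: v)).map
        fun y => f y.1 y.2.1 y.2.2).sum) y.2.2 =
        μ y.1 * TT μ N (fun v => f [] y.2.1 v) y.2.2 +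
          ((spl y.2.2).map fun z => μ y.1 * TT μ N (fun u' => TT μ N
            (fun u'' => f (y.2.1 :: u') z.2.1 u'') z.2.2) z.1).sum := by
      intro y hy
      have hl := (spl_length hy).2
      simp only [spl, List.map_cons, List.sum_cons, List.map_map, Function.comp_def]
      rw [TT_add, ih (fun a i b => f (y.2.1 :: a) i b) _ (by omega), mul_add,
        List.sum_map_mul_left]
    have e2 : ∀ z ∈ spl P, TT μ (N + 1) (fun u' => TT μ (N + 1) (fun u'' => f u' z.2.1 u'') z.2.2)
        z.1 = μ z.1 * TT μ N (fun v => f [] z.2.1 v) z.2.2 +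
          ((spl z.1).map fun y => μ y.1 * TT μ N (fun u' => TT μ N
            (fun u'' => f (y.2.1 :: u') z.2.1 u'') z.2.2) y.2.2).sum := by
      intro z hz
      have hl := (spl_length hz).2
      have hst : ∀ u', TT μ (N + 1) (fun u'' => f u' z.2.1 u'') z.2.2 =
          TT μ N (fun u'' => f u' z.2.1 u'') z.2.2 := fun u' =>
        TT_stable μ _ _ (by omega) (by omega)
      simp only [hst]
      rw [TT, mul_comm]
    have e3 : TT μ (N + 1) (fun u => ((spl u).map fun y => f y.1 y.2.1 y.2.2).sum) P =
        ((spl P).map fun y => μ y.1 * TT μ N (fun v => ((spl (y.2.1 :: v)).map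
        fun y => f y.1 y.2.1 y.2.2).sum) y.2.2).sum := by
      rw [TT]
      simp [spl]
    rw [e3, List.map_congr_left e1, List.map_congr_left e2, List.sum_map_add, List.sum_map_add,
      spl_coassoc (fun a i b j c => μ a * TT μ N (fun u' => TT μ N
            (fun u'' => f (i :: u') j u'') c) b) P]

end TT

theorem Dfun_eq_zero {α : Type*} [DecidableEq α] (μ : List α → ℂ) (u P : List α)
    (h : P.length < u.length) : Dfun μ u P = 0 := by
  induction u generalizing P with
  | nil => simp at h
  | cons i u ih =>
    rw [Dfun]
    refine Finset.sum_eq_zero fun t _ => ?_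
    split_ifs
    · rw [ih _ (by simp only [List.length_drop, List.length_cons] at h ⊢; have := t.2; omega),
        mul_zero]
    · rfl

theorem Dfun_cons {α : Type*} [DecidableEq α] (μ : List α → ℂ) (i : α) (u P : List α) :
    Dfun μ (i :: u) P = ((spl P).map fun y => if y.2.1 = i then μ y.1 * Dfun μ u y.2.2
      else 0).sum := by
  rw [Dfun]
  exact sum_spl (fun a j b => if j = i then μ a * Dfun μ u b else 0) P

/-- the finite sum over words is `TT` -/
theorem sum_words_eq_TT {α : Type*} [Fintype α] [DecidableEq α] (μ : List α → ℂ) (N : ℕ)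
    (G : List α → ℂ) (P : List α) :
    ∑ m ∈ Finset.range N, ∑ u : Fin m → α, G (List.ofFn u) * Dfun μ (List.ofFn u) P =
      TT μ N G P := by
  induction N generalizing G P with
  | zero => simp [TT]
  | succ N ih =>
    rw [Finset.sum_range_succ']
    have e0 : ∑ u : Fin 0 → α, G (List.ofFn u) * Dfun μ (List.ofFn u) P = G [] * μ P := by
      simp [Dfun]
    have e1 : ∀ m : ℕ, ∑ u : Fin (m + 1) → α, G (List.ofFn u) * Dfun μ (List.ofFn u) P =
        ((spl P).map fun y => μ y.1 * ∑ u : Fin m → α, G (y.2.1 :: List.ofFn u) *
          Dfun μ (List.ofFn u) y.2.2).sum := by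
      intro m
      rw [← (Fin.consEquiv (fun _ => α)).sum_comp, Fintype.sum_prod_type]
      have e2 : ∀ (i : α) (v : Fin m → α), List.ofFn (Fin.consEquiv (fun _ => α) (i, v)) =
          i :: List.ofFn v := by
        intro i v
        simp [Fin.consEquiv]
      simp only [e2, Dfun_cons]
      simp only [← List.sum_map_mul_left]
      rw [Finset.sum_comm]
      have e3 : ∀ (l : List (List α × α × List α)), ∑ v : Fin m → α, ∑ i : α,
          (l.map fun y => G (i :: List.ofFn v) * (if y.2.1 = i then μ y.1 *
            Dfun μ (List.ofFn v) y.2.2 else 0)).sum = (l.map fun y => μ y.1 *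
              ∑ u : Fin m → α, G (y.2.1 :: List.ofFn u) * Dfun μ (List.ofFn u) y.2.2).sum := by
        intro l
        induction l with
        | nil => simp
        | cons y l ihl =>
          simp only [List.map_cons, List.sum_cons, Finset.sum_add_distrib]
          rw [ihl]
          congr 1
          rw [Finset.mul_sum]
          refine Finset.sum_congr rfl fun v _ => ?_
          simp only [mul_ite, mul_zero, Finset.sum_ite_eq, Finset.mem_univ, if_true]
          ring
      exact e3 _
    rw [e0, Finset.sum_congr rfl fun m _ => e1 m, TT, add_comm]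
    congr 1
    simp only [← ih]
    generalize spl P = l
    induction l with
    | nil => simp
    | cons y l ihl =>
      simp only [List.map_cons, List.sum_cons, Finset.sum_add_distrib]
      rw [ihl, Finset.mul_sum]

theorem rep_formula {α β : Type*} [Fintype α] [DecidableEq α] [DecidableEq β]
    (words : α → List (List β)) (F : List β → List α → ℂ)
    (hSD : ∀ (j : β) (Q : List β) (P : List α), F (j :: Q) P =
      (∑ b : Fin Q.length, if Q[b] = j then (mom (Q.take b) : ℂ) * F (Q.drop (b + 1)) P else 0) +
      ∑ b : Fin P.length, ((words P[b]).map fun w => ∑ c : Fin w.length,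
        if w[c] = j then F (w.take c ++ Q) (P.take b) * F (w.drop (c + 1)) (P.drop (b + 1))
        else 0).sum)
    (Q : List β) (P : List α) (N : ℕ) (hN : P.length < N) :
    F Q P = ∑ m ∈ Finset.range N, ∑ u : Fin m → α,
      (CQ words Q (List.ofFn u) : ℂ) * Dfun (F []) (List.ofFn u) P := by
  rw [sum_words_eq_TT (F []) N (fun u => (CQ words Q u : ℂ)) P]
  -- strong induction on the length of `P`, then on the length of `Q`
  suffices H : ∀ p : ℕ, ∀ q : ℕ, ∀ (P : List α) (Q : List β), P.length = p → Q.length = q →
      P.length < N → F Q P = TT (F []) N (fun u => (CQ words Q u : ℂ)) P from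
    H _ _ P Q rfl rfl hN
  intro p
  induction p using Nat.strong_induction_on with
  | _ p ihp =>
  intro q
  induction q using Nat.strong_induction_on with
  | _ q ihq =>
  intro P Q hP hQ hlt
  cases Q with
  | nil =>
    obtain _ | N := N
    · omega
    have e : ∀ (i : α) (v : List α), ((CQ words ([] : List β) (i :: v) : ℝ) : ℂ) = 0 := by
      intro i v
      simp [CQ]
    rw [TT]
    simp only [e, TT_zero]
    simp [CQ]
  | cons j Q =>
    rw [hSD j Q P]
    have hCQ : ∀ u : List α, ((CQ words (j :: Q) u : ℝ) : ℂ) =
        (∑ t : Fin Q.length, if Q[t] = j then (mom (Q.take t) : ℂ) *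
          (CQ words (Q.drop (t + 1)) u : ℂ) else 0) +
        ((spl u).map fun y => ((words y.2.1).map fun w => ∑ b : Fin w.length,
          if w[b] = j then (CQ words (w.take b ++ Q) y.1 : ℂ) *
            (CQ words (w.drop (b + 1)) y.2.2 : ℂ) else 0).sum).sum := by
      intro u
      have h1 := sum_spl (fun a i b => ((words i).map fun w => ∑ c : Fin w.length,
          if w[c] = j then (CQ words (w.take c ++ Q) a : ℂ) *
            (CQ words (w.drop (c + 1)) b : ℂ) else 0).sum) u
      rw [← h1, CQ]
      push_cast
      congr 1
      · refine Finset.sum_congr rfl fun t _ => ?_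
        split_ifs <;> simp
      · refine Finset.sum_congr rfl fun t _ => ?_
        rw [← Complex.ofRealHom_eq_coe, map_list_sum, List.map_map]
        congr 1
        refine List.map_congr_left fun w _ => ?_
        simp only [Function.comp_apply, map_sum, Complex.ofRealHom_eq_coe]
        refine Finset.sum_congr rfl fun c _ => ?_
        split_ifs <;> simp
    simp only [hCQ]
    rw [TT_add, TT_sum]
    congr 1
    · refine Finset.sum_congr rfl fun t _ => ?_
      split_ifs with hj
      · rw [TT_smul]
        congr 1
        refine ihq (Q.drop (t + 1)).length ?_ P (Q.drop (t + 1)) hP rfl hlt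
        simp only [List.length_drop, List.length_cons] at hQ ⊢
        omega
      · rw [TT_zero]
    · rw [TT_split (F []) N (fun a i b => ((words i).map fun w => ∑ c : Fin w.length,
          if w[c] = j then (CQ words (w.take c ++ Q) a : ℂ) *
            (CQ words (w.drop (c + 1)) b : ℂ) else 0).sum) P hlt]
      rw [sum_spl (fun a i b => ((words i).map fun w => ∑ c : Fin w.length,
        if w[c] = j then F (w.take c ++ Q) a * F (w.drop (c + 1)) b else 0).sum) P]
      congr 1
      refine List.map_congr_left fun z hz => ?_
      obtain ⟨hz1, hz2⟩ := spl_length hz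
      have e1 : ∀ u' : List α, TT (F []) N (fun u'' => ((words z.2.1).map fun w =>
          ∑ c : Fin w.length, if w[c] = j then (CQ words (w.take c ++ Q) u' : ℂ) *
            (CQ words (w.drop (c + 1)) u'' : ℂ) else 0).sum) z.2.2 =
          ((words z.2.1).map fun w => ∑ c : Fin w.length, if w[c] = j then
            F (w.drop (c + 1)) z.2.2 * (CQ words (w.take c ++ Q) u' : ℂ) else 0).sum := by
        intro u'
        rw [TT_lsum]
        congr 1
        refine List.map_congr_left fun w _ => ?_
        rw [TT_sum]
        refine Finset.sum_congr rfl fun c _ => ?_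
        split_ifs
        · rw [TT_smul, ← ihp z.2.2.length (by omega) _ z.2.2 (w.drop (c + 1)) rfl rfl (by omega),
            mul_comm]
        · rw [TT_zero]
      simp only [e1]
      rw [TT_lsum]
      congr 1
      refine List.map_congr_left fun w _ => ?_
      rw [TT_sum]
      refine Finset.sum_congr rfl fun c _ => ?_
      split_ifs
      · rw [TT_smul, ← ihp z.1.length (by omega) _ z.1 (w.take c ++ Q) rfl rfl (by omega),
          mul_comm]
      · rw [TT_zero]

end Crest.Agent.FE
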