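import Crest.Agent.FE.Trace

/-!
# Row 89, chunk A4: standard semicircular moments; small moment facts

`mom (List.replicate (2 * m) l) = catalan m` and odd ones vanish: the recursion `mom` on a constant
list is the Catalan recursion `catalan_succ`/`catalan_succ'` (strong induction; the summands with
odd `t` vanish).  Nonnegativity of `mom` is immediate from the recursion.
`mom` of a list of odd length is zero: in the recursion one of `Q.take t`, `Q.drop (t+1)` has odd
length.
`v_i ≥ 2` for `inr`: `tau (y_i y_i) = Σ_{w, w' ∈ words} mom (w ++ w')` with `y = a_p a_q a_s + a_s a_q a_p`;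
`mom [p,q,s,s,q,p] ≥ 1` and `mom [s,q,p,p,q,s] ≥ 1` (in the recursion for `p :: [q,s,s,q,p]` the term
`t = 4` is `mom [q,s,s,q] * mom [] ≥ 1`, …), the two other terms are `≥ 0`.
-/

set_option autoImplicit false

namespace Crest.Agent.FE

open scoped InnerProductSpace ENNReal

theorem mom_nonneg {β : Type*} [DecidableEq β] (w : List β) : 0 ≤ mom w := by
  induction hn : w.length using Nat.strong_induction_on generalizing w with
  | _ n ih =>
    cases w with
    | nil => simp [mom]
    | cons j Q =>
      rw [mom]
      refine Finset.sum_nonneg fun t _ => ?_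
      have ht := t.2
      split_ifs
      · refine mul_nonneg (ih _ ?_ _ rfl) (ih _ ?_ _ rfl)
        · simp only [List.length_cons] at hn
          rw [List.length_take]
          omega
        · simp only [List.length_cons] at hn
          rw [List.length_drop]
          omega
      · exact le_rfl

theorem mom_odd {β : Type*} [DecidableEq β] (w : List β) (h : Odd w.length) : mom w = 0 := by
  induction hn : w.length using Nat.strong_induction_on generalizing w with
  | _ n ih =>
    cases w with
    | nil => simp at h
    | cons j Q =>
      rw [mom]
      refine Finset.sum_eq_zero fun t _ => ?_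
      have ht := t.2
      split_ifs
      · simp only [List.length_cons] at hn h
        rcases Nat.even_or_odd (t : ℕ) with he | ho
        · have : mom (Q.drop (t + 1)) = 0 := by
            refine ih _ ?_ _ ?_ rfl
            · rw [List.length_drop]; omega
            · rw [List.length_drop]
              rcases he with ⟨a, ha⟩
              rcases h with ⟨b, hb⟩
              exact ⟨b - a - 1, by omega⟩
          rw [this, mul_zero]
        · have : mom (Q.take t) = 0 := by
            refine ih _ ?_ _ ?_ rfl
            · rw [List.length_take]; omega
            · rw [List.length_take, min_eq_left ht.le]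
              exact ho
          rw [this, zero_mul]
      · rfl

theorem sum_range_even (f : ℕ → ℝ) (hf : ∀ i, f (2 * i + 1) = 0) (m : ℕ) :
    ∑ t ∈ Finset.range (2 * m + 1), f t = ∑ i ∈ Finset.range (m + 1), f (2 * i) := by
  induction m with
  | zero => simp
  | succ m ih =>
    rw [show 2 * (m + 1) + 1 = (2 * m + 1) + 1 + 1 by ring, Finset.sum_range_succ,
      Finset.sum_range_succ, ih, hf, Finset.sum_range_succ (fun i => f (2 * i)) (m + 1)]
    rw [show 2 * m + 1 + 1 = 2 * (m + 1) by ring]
    ring

theorem mom_replicate {β : Type*} [DecidableEq β] (l : β) (m : ℕ) :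
    mom (List.replicate (2 * m) l) = catalan m := by
  induction m using Nat.strong_induction_on with
  | _ m ih =>
    cases m with
    | zero => simp [mom]
    | succ m =>
      rw [show 2 * (m + 1) = (2 * m + 1) + 1 by ring, List.replicate_succ, mom]
      have e1 : ∑ t : Fin (List.replicate (2 * m + 1) l).length,
          (if (List.replicate (2 * m + 1) l)[t] = l then
            mom ((List.replicate (2 * m + 1) l).take t) *
              mom ((List.replicate (2 * m + 1) l).drop (t + 1)) else 0) =
          ∑ t : Fin (List.replicate (2 * m + 1) l).length,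
            (fun t : ℕ => mom (List.replicate t l) * mom (List.replicate (2 * m - t) l)) t := by
        refine Finset.sum_congr rfl fun t _ => ?_
        have ht := t.2
        simp only [List.length_replicate] at ht
        rw [if_pos (by simp), List.take_replicate, List.drop_replicate,
          min_eq_left ht.le]
        congr 3
        omega
      rw [e1, Fin.sum_univ_eq_sum_range
        (fun t : ℕ => mom (List.replicate t l) * mom (List.replicate (2 * m - t) l)),
        List.length_replicate, sum_range_even, catalan_succ]
      · push_cast
        rw [← Fin.sum_univ_eq_sum_range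
          (fun i : ℕ => mom (List.replicate (2 * i) l) * mom (List.replicate (2 * m - 2 * i) l))]
        refine Finset.sum_congr rfl fun i _ => ?_
        have hi := i.2
        rw [ih i (by omega), show 2 * m - 2 * (i : ℕ) = 2 * (m - i) by omega,
          ih (m - i) (by omega)]
      · intro i
        rw [mom_odd (List.replicate (2 * i + 1) l) (by rw [List.length_replicate]; exact ⟨i, rfl⟩),
          zero_mul]

/-- `mom` is invariant under injective relabelling. -/
theorem mom_map {β γ : Type*} [DecidableEq β] [DecidableEq γ] (f : β → γ)
    (hf : Function.Injective f) (w : List β) : mom (w.map f) = mom w := by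
  induction hn : w.length using Nat.strong_induction_on generalizing w with
  | _ n ih =>
    cases w with
    | nil => simp [mom]
    | cons j Q =>
      rw [List.map_cons, mom, mom]
      refine Fintype.sum_equiv (finCongr (by simp)) _ _ fun t => ?_
      have ht : (t : ℕ) < Q.length := by simpa using t.2
      simp only [List.length_cons] at hn
      simp only [Fin.getElem_fin, List.getElem_map, finCongr_apply, Fin.val_cast, hf.eq_iff]
      by_cases hc : Q[(t : ℕ)] = j
      · rw [if_pos hc, if_pos hc, ← List.map_take, ← List.map_drop,
          ih _ (by rw [List.length_take]; omega) (Q.take t) rfl,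
          ih _ (by rw [List.length_drop]; omega) (Q.drop (t + 1)) rfl]
      · rw [if_neg hc, if_neg hc]

theorem SA_semicircular (k n : ℕ) :
    Crest.OpAlg.IsStandardSemicircular (tau (LT k n)) (SA (k := k) (n := n)) := by
  refine ⟨fun i => gA_selfAdjoint _, fun i m => ⟨?_, ?_⟩⟩
  · have : (SA i : FA (LT k n)) ^ (2 * m) =
        ((List.replicate (2 * m) (Sum.inr (Sum.inr i) : LT k n)).map gA).prod := by
      rw [List.map_replicate, List.prod_replicate]
      rfl
    rw [this, tau_word, mom_replicate]
    simp
  · have : (SA i : FA (LT k n)) ^ (2 * m + 1) =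
        ((List.replicate (2 * m + 1) (Sum.inr (Sum.inr i) : LT k n)).map gA).prod := by
      rw [List.map_replicate, List.prod_replicate]
      rfl
    rw [this, tau_word, mom_odd _ (by rw [List.length_replicate]; exact ⟨m, rfl⟩)]
    simp

theorem mom_wrap {β : Type*} [DecidableEq β] (j : β) (W : List β) :
    mom W ≤ mom (j :: (W ++ [j])) := by
  rw [mom]
  have hW : W.length < (W ++ [j]).length := by simp
  have h := Finset.single_le_sum (f := fun t : Fin (W ++ [j]).length =>
    if (W ++ [j])[t] = j then mom ((W ++ [j]).take t) * mom ((W ++ [j]).drop (t + 1)) else 0)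
    (s := Finset.univ) (fun t _ => by
      split_ifs
      · exact mul_nonneg (mom_nonneg _) (mom_nonneg _)
      · exact le_rfl) (Finset.mem_univ (⟨W.length, hW⟩ : Fin (W ++ [j]).length))
  refine le_trans (le_of_eq ?_) h
  dsimp only
  rw [if_pos (by simp)]
  simp [mom]

theorem one_le_mom6 {β : Type*} [DecidableEq β] (a b c : β) : 1 ≤ mom [a, b, c, c, b, a] := by
  have h0 : mom ([] : List β) = 1 := by rw [mom]
  have h1 := mom_wrap c []
  have h2 := mom_wrap b [c, c]
  have h3 := mom_wrap a [b, c, c, b]
  simp only [List.nil_append, List.cons_append] at h1 h2 h3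
  linarith

theorem two_le_tau_yy {k n : ℕ} (words : Fin n → List (List (Fin k))) (i : Fin n) (p q s : Fin k)
    (hi : words i = [[p, q, s], [s, q, p]]) :
    2 ≤ (tau (LT k n) (yA words i * yA words i)).re := by
  have hy : yA words i * yA words i =
      (([Sum.inl p, Sum.inl q, Sum.inl s, Sum.inl p, Sum.inl q, Sum.inl s] : List (LT k n)).map gA).prod +
      (([Sum.inl p, Sum.inl q, Sum.inl s, Sum.inl s, Sum.inl q, Sum.inl p] : List (LT k n)).map gA).prod +
      (([Sum.inl s, Sum.inl q, Sum.inl p, Sum.inl p, Sum.inl q, Sum.inl s] : List (LT k n)).map gA).prod +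
      (([Sum.inl s, Sum.inl q, Sum.inl p, Sum.inl s, Sum.inl q, Sum.inl p] : List (LT k n)).map gA).prod := by
    rw [yA, hi, evalWords]
    simp only [List.map_cons, List.map_nil, List.prod_cons, List.prod_nil, List.sum_cons,
      List.sum_nil, mul_one, add_zero]
    noncomm_ring
  rw [hy, map_add, map_add, map_add, tau_word, tau_word, tau_word, tau_word]
  simp only [Complex.add_re, Complex.ofReal_re]
  have h1 := mom_nonneg ([Sum.inl p, Sum.inl q, Sum.inl s, Sum.inl p, Sum.inl q, Sum.inl s] : List (LT k n))
  have h2 := mom_nonneg ([Sum.inl s, Sum.inl q, Sum.inl p, Sum.inl s, Sum.inl q, Sum.inl p] : List (LT k n))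
  have h3 := one_le_mom6 (Sum.inl p : LT k n) (Sum.inl q) (Sum.inl s)
  have h4 := one_le_mom6 (Sum.inl s : LT k n) (Sum.inl q) (Sum.inl p)
  linarith

end Crest.Agent.FE
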