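import Crest.Agent.FE.Fock

/-!
# Row 89, chunk A2: moments, faithful tracial state, selfadjointness

All statements follow from `fockRel` (chunk A1).
-/

set_option autoImplicit false

namespace Crest.Agent.FE

open scoped InnerProductSpace ENNReal

section abstractFock

variable {I H : Type*} [DecidableEq I] [NormedAddCommGroup H] [InnerProductSpace ℂ H]
  [CompleteSpace H] {g r : I → H →L[ℂ] H} {Ω : H}

theorem FockRel.adj_word (h : FockRel g r Ω) (i : I) (Q : List I) :
    ContinuousLinearMap.adjoint (r i) ((Q.map g).prod Ω) =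
      ∑ t : Fin Q.length, if Q[t] = i then
        ⟪Ω, ((Q.drop (t + 1)).map g).prod Ω⟫_ℂ • ((Q.take t).map g).prod Ω else 0 := by
  induction Q with
  | nil =>
    simp [h.rΩ]
  | cons j Q ih =>
    refine Eq.trans ?_ (Fin.sum_univ_succ (n := Q.length) _).symm
    rw [List.map_cons, List.prod_cons, ContinuousLinearMap.mul_apply, h.comm, ih, map_sum, add_comm]
    congr 1
    · by_cases hij : i = j
      · subst hij
        simp
      · have : j ≠ i := fun h => hij h.symm
        simp [hij, this]
    · refine Finset.sum_congr rfl fun t _ => ?_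
      by_cases hij : Q[t] = i
      · have e1 : (j :: Q)[(t.succ : Fin (Q.length + 1))] = Q[t] := rfl
        have e2 : (j :: Q)[(t.succ : Fin (Q.length + 1))] = i := e1.trans hij
        rw [if_pos hij]
        refine Eq.trans ?_ (if_pos e2).symm
        rw [map_smul]
        rfl
      · have e1 : (j :: Q)[(t.succ : Fin (Q.length + 1))] = Q[t] := rfl
        have e2 : ¬ (j :: Q)[(t.succ : Fin (Q.length + 1))] = i := fun hh => hij (e1.symm.trans hh)
        rw [if_neg hij, map_zero]
        exact (if_neg e2).symm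

/-- moments of words from the Fock relations. -/
theorem FockRel.mom_eq {I H : Type*} [DecidableEq I] [NormedAddCommGroup H] [InnerProductSpace ℂ H]
    [CompleteSpace H] {g r : I → H →L[ℂ] H} {Ω : H} (h : FockRel g r Ω) (w : List I) :
    ⟪Ω, (w.map g).prod Ω⟫_ℂ = (mom w : ℂ) := by
  induction hn : w.length using Nat.strong_induction_on generalizing w with
  | _ n ih =>
  cases w with
  | nil =>
    simp [mom, inner_self_eq_norm_sq_to_K, h.normΩ]
  | cons j Q =>
    have hlen : Q.length < n := by rw [← hn]; simp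
    have e1 : ⟪Ω, ((j :: Q).map g).prod Ω⟫_ℂ =
        ⟪Ω, ContinuousLinearMap.adjoint (r j) ((Q.map g).prod Ω)⟫_ℂ := by
      rw [List.map_cons, List.prod_cons, ContinuousLinearMap.mul_apply,
        ContinuousLinearMap.adjoint_inner_right, ← h.gΩ j]
      conv_lhs => rw [← h.selfAdj j]
      rw [ContinuousLinearMap.adjoint_inner_right]
    rw [e1, h.adj_word, inner_sum, mom]
    push_cast
    refine Finset.sum_congr rfl fun t _ => ?_
    split_ifs with ht
    · rw [inner_smul_right, ih _ _ (Q.take t) rfl, ih _ _ (Q.drop (t + 1)) rfl]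
      · push_cast; ring
      · simp only [List.length_drop]; omega
      · simp only [List.length_take]; have := t.2; omega
    · simp

/-- the commutant generators `d_i = r_i + r_i^*`. -/
noncomputable def dop (r : I → H →L[ℂ] H) (i : I) : H →L[ℂ] H :=
  r i + ContinuousLinearMap.adjoint (r i)

theorem dop_selfAdj (r : I → H →L[ℂ] H) (i : I) :
    ContinuousLinearMap.adjoint (dop r i) = dop r i := by
  rw [dop, map_add, ContinuousLinearMap.adjoint_adjoint, add_comm]

theorem FockRel.g_r (h : FockRel g r Ω) (i j : I) (v : H) :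
    g j (r i v) = r i (g j v) + if i = j then ⟪Ω, v⟫_ℂ • Ω else 0 := by
  refine ext_inner_left ℂ fun u => ?_
  conv_lhs => rw [← h.selfAdj j]
  rw [ContinuousLinearMap.adjoint_inner_right, ← ContinuousLinearMap.adjoint_inner_left, h.comm,
    inner_add_left, inner_add_right]
  congr 1
  · conv_lhs => rw [← h.selfAdj j]
    rw [ContinuousLinearMap.adjoint_inner_left, ContinuousLinearMap.adjoint_inner_left]
  · split_ifs
    · rw [inner_smul_left, inner_smul_right, inner_conj_symm, mul_comm]
    · simp

theorem FockRel.comm_dop (h : FockRel g r Ω) (i j : I) : Commute (dop r i) (g j) := by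
  ext v
  simp only [dop, ContinuousLinearMap.mul_apply, ContinuousLinearMap.add_apply, map_add]
  rw [h.g_r, h.comm]
  abel

theorem FockRel.dopΩ (h : FockRel g r Ω) (i : I) : dop r i Ω = g i Ω := by
  rw [dop, ContinuousLinearMap.add_apply, h.rΩ, add_zero, h.gΩ]

/-- elements of the commutant of the generators commute with the generated star algebra -/
theorem FockRel.commute_adjoin (h : FockRel g r Ω) {x : H →L[ℂ] H}
    (hx : x ∈ StarAlgebra.adjoin ℂ (Set.range g)) :
    ∀ x' : H →L[ℂ] H, (∀ j, Commute x' (g j)) → Commute x' x := by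
  induction hx using StarAlgebra.adjoin_induction with
  | mem x hx =>
    obtain ⟨j, rfl⟩ := hx
    exact fun x' hx' => hx' j
  | algebraMap c => exact fun x' _ => (Algebra.commutes c x').symm
  | add x y _ _ hx hy => exact fun x' h' => (hx x' h').add_right (hy x' h')
  | mul x y _ _ hx hy => exact fun x' h' => (hx x' h').mul_right (hy x' h')
  | star x _ hx =>
    intro x' h'
    have h1 : ∀ j, Commute (star x') (g j) := by
      intro j
      have h2 := (h' j).star_star
      have h3 : star (g j) = g j := h.selfAdj j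
      rwa [h3] at h2
    have := (hx (star x') h1).star_star
    rwa [star_star] at this

theorem FockRel.commutant_star (h : FockRel g r Ω) {x' : H →L[ℂ] H}
    (h' : ∀ j, Commute x' (g j)) : ∀ j, Commute (star x') (g j) := by
  intro j
  have h2 := (h' j).star_star
  have h3 : star (g j) = g j := h.selfAdj j
  rwa [h3] at h2

/-- every element of the algebra has a partner in the commutant -/
theorem FockRel.partner (h : FockRel g r Ω) {x : H →L[ℂ] H}
    (hx : x ∈ StarAlgebra.adjoin ℂ (Set.range g)) :
    ∃ x' : H →L[ℂ] H, (∀ j, Commute x' (g j)) ∧ x Ω = x' Ω ∧ star x Ω = star x' Ω := by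
  induction hx using StarAlgebra.adjoin_induction with
  | mem x hx =>
    obtain ⟨j, rfl⟩ := hx
    refine ⟨dop r j, fun i => h.comm_dop j i, (h.dopΩ j).symm, ?_⟩
    have h1 : star (g j) = g j := h.selfAdj j
    have h2 : star (dop r j) = dop r j := dop_selfAdj r j
    rw [h1, h2]
    exact (h.dopΩ j).symm
  | algebraMap c =>
    exact ⟨algebraMap ℂ _ c, fun j => Algebra.commutes c _, rfl, rfl⟩
  | add x y _ _ hx hy =>
    obtain ⟨x', h1, h2, h3⟩ := hx
    obtain ⟨y', k1, k2, k3⟩ := hy
    refine ⟨x' + y', fun j => (h1 j).add_left (k1 j), ?_, ?_⟩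
    · rw [ContinuousLinearMap.add_apply, ContinuousLinearMap.add_apply, h2, k2]
    · rw [star_add, star_add, ContinuousLinearMap.add_apply, ContinuousLinearMap.add_apply, h3, k3]
  | mul x y hxm hym hx hy =>
    obtain ⟨x', h1, h2, h3⟩ := hx
    obtain ⟨y', k1, k2, k3⟩ := hy
    refine ⟨y' * x', fun j => (k1 j).mul_left (h1 j), ?_, ?_⟩
    · have c1 : Commute y' x := h.commute_adjoin hxm y' k1
      calc (x * y) Ω = x (y' Ω) := by rw [ContinuousLinearMap.mul_apply, k2]
        _ = (x * y') Ω := rfl
        _ = (y' * x) Ω := by rw [c1.eq]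
        _ = y' (x' Ω) := by rw [ContinuousLinearMap.mul_apply, h2]
        _ = (y' * x') Ω := rfl
    · have c1 : Commute (star x') (star y) :=
        h.commute_adjoin (star_mem hym) _ (h.commutant_star h1)
      calc star (x * y) Ω = star y (star x' Ω) := by
            rw [star_mul, ContinuousLinearMap.mul_apply, h3]
        _ = (star y * star x') Ω := rfl
        _ = (star x' * star y) Ω := by rw [c1.eq]
        _ = star x' (star y' Ω) := by rw [ContinuousLinearMap.mul_apply, k3]
        _ = star (y' * x') Ω := by rw [star_mul]; rfl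
  | star x _ hx =>
    obtain ⟨x', h1, h2, h3⟩ := hx
    refine ⟨star x', h.commutant_star h1, h3, ?_⟩
    rw [star_star, star_star, h2]

theorem FockRel.trace_adjoin (h : FockRel g r Ω) {x y : H →L[ℂ] H}
    (hx : x ∈ StarAlgebra.adjoin ℂ (Set.range g)) (hy : y ∈ StarAlgebra.adjoin ℂ (Set.range g)) :
    ⟪Ω, (x * y) Ω⟫_ℂ = ⟪Ω, (y * x) Ω⟫_ℂ := by
  obtain ⟨x', h1, h2, h3⟩ := h.partner hx
  have c1 : Commute x' y := h.commute_adjoin hy x' h1
  calc ⟪Ω, (x * y) Ω⟫_ℂ = ⟪star x Ω, y Ω⟫_ℂ := by
        rw [ContinuousLinearMap.mul_apply, ContinuousLinearMap.star_eq_adjoint,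
          ContinuousLinearMap.adjoint_inner_left]
    _ = ⟪star x' Ω, y Ω⟫_ℂ := by rw [h3]
    _ = ⟪Ω, (x' * y) Ω⟫_ℂ := by
        rw [ContinuousLinearMap.mul_apply, ContinuousLinearMap.star_eq_adjoint,
          ContinuousLinearMap.adjoint_inner_left]
    _ = ⟪Ω, (y * x') Ω⟫_ℂ := by rw [c1.eq]
    _ = ⟪Ω, (y * x) Ω⟫_ℂ := by
        rw [ContinuousLinearMap.mul_apply, ContinuousLinearMap.mul_apply, h2]

theorem FockRel.trace_closure (h : FockRel g r Ω) {x y : H →L[ℂ] H}
    (hx : x ∈ closure ((StarAlgebra.adjoin ℂ (Set.range g) : StarSubalgebra ℂ (H →L[ℂ] H)) :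
      Set (H →L[ℂ] H)))
    (hy : y ∈ closure ((StarAlgebra.adjoin ℂ (Set.range g) : StarSubalgebra ℂ (H →L[ℂ] H)) :
      Set (H →L[ℂ] H))) :
    ⟪Ω, (x * y) Ω⟫_ℂ = ⟪Ω, (y * x) Ω⟫_ℂ := by
  have hev : Continuous fun z : H →L[ℂ] H => z Ω := by fun_prop
  have hcl : ∀ a : H →L[ℂ] H, IsClosed {z : H →L[ℂ] H | ⟪Ω, (z * a) Ω⟫_ℂ = ⟪Ω, (a * z) Ω⟫_ℂ} := by
    intro a
    refine isClosed_eq ?_ ?_
    · exact (continuous_const.inner (hev.comp (continuous_mul_right a)))
    · exact (continuous_const.inner (hev.comp (continuous_mul_left a)))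
  have step1 : ∀ a ∈ StarAlgebra.adjoin ℂ (Set.range g), ⟪Ω, (x * a) Ω⟫_ℂ = ⟪Ω, (a * x) Ω⟫_ℂ := by
    intro a ha
    exact closure_minimal (fun z hz => h.trace_adjoin hz ha) (hcl a) hx
  have step2 := closure_minimal (fun z hz => (step1 z hz).symm) (hcl x) hy
  exact step2.symm

theorem FockRel.commute_closure (h : FockRel g r Ω) {x : H →L[ℂ] H}
    (hx : x ∈ closure ((StarAlgebra.adjoin ℂ (Set.range g) : StarSubalgebra ℂ (H →L[ℂ] H)) :
      Set (H →L[ℂ] H))) (i : I) : dop r i * x = x * dop r i := by
  have hcl : IsClosed {z : H →L[ℂ] H | dop r i * z = z * dop r i} :=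
    isClosed_eq (continuous_mul_left _) (continuous_mul_right _)
  exact closure_minimal (fun z hz => (h.commute_adjoin hz (dop r i) (h.comm_dop i)).eq) hcl hx

end abstractFock

theorem tau_word {I : Type} [DecidableEq I] (w : List I) :
    tau I (w.map gA).prod = (mom w : ℂ) := by
  rw [tau_apply, map_list_prod, List.map_map]
  exact (fockRel I).mom_eq w

theorem gA_selfAdjoint {I : Type} (i : I) : IsSelfAdjoint (gA i : FA I) := by
  refine rep_injective I ?_
  rw [map_star, rep_gA, gop, star_add, ContinuousLinearMap.star_eq_adjoint,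
    ContinuousLinearMap.star_eq_adjoint, ContinuousLinearMap.adjoint_adjoint, add_comm]

theorem norm_gA_le {I : Type} (i : I) : ‖(gA i : FA I)‖ ≤ 2 := by
  classical
  rw [← norm_rep, rep_gA]
  exact (fockRel I).norm_le i

theorem norm_tau_le {I : Type} [DecidableEq I] (x : FA I) : ‖tau I x‖ ≤ ‖x‖ := by
  rw [tau_apply, ← norm_rep]
  refine (norm_inner_le_norm _ _).trans ?_
  have h1 : ‖(vac : HF I)‖ = 1 := (fockRel I).normΩ
  rw [h1, one_mul]
  refine ((rep I x).le_opNorm _).trans ?_
  rw [h1, mul_one]

theorem tau_star_mul_self {I : Type} [DecidableEq I] (a : FA I) :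
    tau I (star a * a) = ((‖rep I a vac‖ ^ 2 : ℝ) : ℂ) := by
  rw [tau_apply, map_mul, map_star, ContinuousLinearMap.mul_apply,
    ContinuousLinearMap.star_eq_adjoint, ContinuousLinearMap.adjoint_inner_right,
    inner_self_eq_norm_sq_to_K]
  push_cast
  rfl

theorem bas_mem_of_invariant {I : Type} [DecidableEq I] (K : Submodule ℂ (HF I))
    (h0 : (vac : HF I) ∈ K) (h1 : ∀ i, ∀ v ∈ K, dop (rcr (I := I)) i v ∈ K) (w : List I) :
    bas w ∈ K := by
  have hF := fockRel I
  induction hn : w.length using Nat.strong_induction_on generalizing w with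
  | _ n ih =>
  rcases List.eq_nil_or_concat w with rfl | ⟨w', i, rfl⟩
  · exact h0
  · rw [List.concat_eq_append] at hn ⊢
    have hlen : w'.length < n := by rw [← hn]; simp
    have hw' : bas w' ∈ K := ih _ hlen w' rfl
    have e1 : (bas (w' ++ [i]) : HF I) = dop (rcr (I := I)) i (bas w') -
        ContinuousLinearMap.adjoint (rcr i) (bas w') := by
      rw [dop, ContinuousLinearMap.add_apply, add_sub_cancel_right, rcr_bas]
    rw [e1]
    refine K.sub_mem (h1 i _ hw') ?_
    rcases List.eq_nil_or_concat w' with rfl | ⟨w'', j, rfl⟩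
    · have : ContinuousLinearMap.adjoint (rcr i) (bas [] : HF I) = 0 := hF.rΩ i
      rw [this]
      exact K.zero_mem
    · rw [List.concat_eq_append] at hlen hw' ⊢
      rw [← rcr_bas, hF.rr]
      split_ifs
      · exact ih _ (lt_trans (by simp) hlen) w'' rfl
      · exact K.zero_mem

theorem eq_zero_of_bas {I : Type} [DecidableEq I] (x : HF I →L[ℂ] HF I)
    (h : ∀ w : List I, x (bas w) = 0) : x = 0 := by
  have h1 : ContinuousLinearMap.adjoint x = 0 := by
    ext z : 1
    ext w
    rw [← inner_bas_left, ContinuousLinearMap.adjoint_inner_right, h w]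
    simp
  have h2 := congrArg ContinuousLinearMap.adjoint h1
  rw [ContinuousLinearMap.adjoint_adjoint, map_zero] at h2
  exact h2

theorem tau_faithfulTracial (I : Type) [DecidableEq I] :
    Crest.OpAlg.IsFaithfulTracialState (tau I) := by
  have hF := fockRel I
  refine ⟨?_, ?_, ?_, ?_⟩
  · rw [tau_apply, map_one]
    have h1 : ‖(vac : HF I)‖ = 1 := hF.normΩ
    simp [inner_self_eq_norm_sq_to_K, h1]
  · intro a
    rw [tau_star_mul_self]
    exact ⟨Complex.ofReal_im _, by rw [Complex.ofReal_re]; positivity⟩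
  · intro a ha
    rw [tau_star_mul_self] at ha
    have h0 : rep I a vac = 0 := by
      have : ‖rep I a vac‖ ^ 2 = 0 := by exact_mod_cast ha
      exact norm_eq_zero.1 (pow_eq_zero_iff (two_ne_zero) |>.1 this)
    refine rep_injective I ?_
    rw [map_zero]
    refine eq_zero_of_bas _ fun w => ?_
    have hmem : ∀ w, bas w ∈ LinearMap.ker (rep I a : HF I →ₗ[ℂ] HF I) := by
      refine bas_mem_of_invariant _ ?_ ?_
      · exact LinearMap.mem_ker.2 h0
      · intro i v hv
        have hc := hF.commute_closure (rep_mem_closure a) i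
        have hv' : rep I a v = 0 := LinearMap.mem_ker.1 hv
        refine LinearMap.mem_ker.2 ?_
        have := congrArg (fun T : HF I →L[ℂ] HF I => T v) hc
        simp only [ContinuousLinearMap.mul_apply] at this
        rw [hv', map_zero] at this
        exact this.symm
    exact LinearMap.mem_ker.1 (hmem w)
  · intro a b
    rw [tau_apply, tau_apply, map_mul, map_mul]
    exact hF.trace_closure (rep_mem_closure a) (rep_mem_closure b)

end Crest.Agent.FE
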