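import Crest.Agent.FE.Rel
import Crest.Agent.FE.Trace
import Crest.Agent.FE.Semi

/-!
# Row 89, chunk B2: Schwinger–Dyson identity for `τ(a_Q X_P)`

Notation: `aw Q = a_{Q_1} ⋯ a_{Q_l}` (letters `inl`), `Xw P = X_{P_1}(s) ⋯` with
`X_i(s) = heatTuple (XA words t) SA s i = y_i + √t_i S'_i + √s S_i`.

PROOF of `sd_tau`.  In the Fock space `τ(a_j B) = ⟪Ω, a_j B Ω⟫ = ⟪a_j Ω, BΩ⟫ = ⟪r_j Ω, BΩ⟫ = ⟪Ω, r_j^* B Ω⟫`
(`r_j := rcr (inl j)`).  Move `r_j^*` to the right through `B = a_Q X_P` by `FockRel.comm`:
`r_j^* a_l = a_l r_j^* + δ_jl ⟪Ω,·⟫Ω`, `r_j^*` commutes with the noise letters, and through `a_w`: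
`r_j^* a_w v = a_w r_j^* v + Σ_b [w_b = j] ⟪Ω, a_{w.drop (b+1)} v⟫ a_{w.take b}Ω`, hence through `X_i`:
`r_j^* X_i v = X_i r_j^* v + Σ_{w ∈ words i} Σ_b [w_b = j] ⟪Ω, a_{w.drop (b+1)}v⟫ a_{w.take b}Ω`; finally
`r_j^*Ω = 0`.  Inductions on `Q`, then `P`.  The last factor is rewritten with the trace property
`τ(a_Q X_{take} a_{w.take b}) = τ(a_{w.take b} a_Q X_{take})` (`tau_faithfulTracial`), and `τ(a_{Q.take t})
= mom (Q.take t)` by `tau_word` and `mom_map`.
-/

set_option autoImplicit false

namespace Crest.Agent.FE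

open scoped InnerProductSpace ENNReal

/-- `a_Q`. -/
noncomputable def aw {k n : ℕ} (Q : List (Fin k)) : FA (LT k n) :=
  (Q.map fun j => (gA (Sum.inl j) : FA (LT k n))).prod

/-- `X_P(s)`. -/
noncomputable def Xw {k n : ℕ} (words : Fin n → List (List (Fin k))) (t : Fin n → ℝ) (s : ℝ)
    (P : List (Fin n)) : FA (LT k n) :=
  (P.map (Crest.OpAlg.heatTuple (XA words t) SA s)).prod

namespace RepSDAux

section abs

variable {k n : ℕ} {H : Type*} [NormedAddCommGroup H] [InnerProductSpace ℂ H] [CompleteSpace H]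
  {g r : LT k n → H →L[ℂ] H} {Ω : H}

/-- move `r_j^*` through a word of letters `inl`. -/
theorem adj_word (h : FockRel g r Ω) (j : Fin k) (Q : List (Fin k)) (v : H) :
    ContinuousLinearMap.adjoint (r (Sum.inl j)) ((Q.map fun l => g (Sum.inl l)).prod v) =
      (Q.map fun l => g (Sum.inl l)).prod (ContinuousLinearMap.adjoint (r (Sum.inl j)) v) +
      ∑ b : Fin Q.length, if Q[b] = j then
        ⟪Ω, ((Q.drop (b + 1)).map fun l => g (Sum.inl l)).prod v⟫_ℂ •
          ((Q.take b).map fun l => g (Sum.inl l)).prod Ω else 0 := by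
  induction Q with
  | nil => simp
  | cons a Q ih =>
    have e1 : (((a :: Q).map fun l => g (Sum.inl l)).prod : H →L[ℂ] H) v =
        g (Sum.inl a) ((Q.map fun l => g (Sum.inl l)).prod v) := by
      rw [List.map_cons, List.prod_cons]; rfl
    rw [e1, h.comm, ih, map_add, map_sum]
    have e2 : (((a :: Q).map fun l => g (Sum.inl l)).prod : H →L[ℂ] H)
        (ContinuousLinearMap.adjoint (r (Sum.inl j)) v) =
        g (Sum.inl a) ((Q.map fun l => g (Sum.inl l)).prod
          (ContinuousLinearMap.adjoint (r (Sum.inl j)) v)) := by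
      rw [List.map_cons, List.prod_cons]; rfl
    rw [e2]
    have e3 : (∑ b : Fin (a :: Q).length, if (a :: Q)[b] = j then
        ⟪Ω, (((a :: Q).drop (b + 1)).map fun l => g (Sum.inl l)).prod v⟫_ℂ •
          (((a :: Q).take b).map fun l => g (Sum.inl l)).prod Ω else 0) =
        (if a = j then ⟪Ω, (Q.map fun l => g (Sum.inl l)).prod v⟫_ℂ • Ω else 0) +
        ∑ b : Fin Q.length, g (Sum.inl a) (if Q[b] = j then
          ⟪Ω, ((Q.drop (b + 1)).map fun l => g (Sum.inl l)).prod v⟫_ℂ •
            ((Q.take b).map fun l => g (Sum.inl l)).prod Ω else 0) := by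
      have := Fin.sum_univ_succ (n := Q.length) (fun b : Fin (Q.length + 1) =>
        if (a :: Q)[(b : ℕ)]'(by simpa using b.2) = j then
        ⟪Ω, (((a :: Q).drop ((b : ℕ) + 1)).map fun l => g (Sum.inl l)).prod v⟫_ℂ •
          (((a :: Q).take (b : ℕ)).map fun l => g (Sum.inl l)).prod Ω else 0)
      refine Eq.trans this ?_
      congr 1
      refine Finset.sum_congr rfl fun b _ => ?_
      by_cases hb : Q[(b : ℕ)] = j
      · simp [hb, map_smul]
      · simp [hb]
    rw [e3]
    have e4 : (Sum.inl j : LT k n) = Sum.inl a ↔ a = j :=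
      ⟨fun h => (Sum.inl.inj h).symm, fun h => by rw [h]⟩
    by_cases haj : a = j
    · rw [if_pos (e4.2 haj), if_pos haj]
      abel
    · rw [if_neg (fun h => haj (e4.1 h)), if_neg haj]
      abel

omit [CompleteSpace H] in
theorem evalWords_apply {β : Type*} (a : β → H →L[ℂ] H) (ws : List (List β)) (v : H) :
    evalWords a ws v = (ws.map fun w => (w.map a).prod v).sum := by
  induction ws with
  | nil => simp [evalWords]
  | cons w ws ih =>
    simp only [evalWords, List.map_cons, List.sum_cons] at ih ⊢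
    rw [add_apply, ih]

/-- move `r_j^*` through `X_i`. -/
theorem adj_X (h : FockRel g r Ω) (words : Fin n → List (List (Fin k))) (t : Fin n → ℝ) (s : ℝ)
    (j : Fin k) (i : Fin n) (v : H) :
    ContinuousLinearMap.adjoint (r (Sum.inl j)) (Xop g words t s i v) =
      Xop g words t s i (ContinuousLinearMap.adjoint (r (Sum.inl j)) v) +
      ((words i).map fun w => ∑ c : Fin w.length, if w[c] = j then
        ⟪Ω, ((w.drop (c + 1)).map fun l => g (Sum.inl l)).prod v⟫_ℂ •
          ((w.take c).map fun l => g (Sum.inl l)).prod Ω else 0).sum := by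
  have hw : ∀ ws : List (List (Fin k)),
      ContinuousLinearMap.adjoint (r (Sum.inl j)) (evalWords (fun l => g (Sum.inl l)) ws v) =
      evalWords (fun l => g (Sum.inl l)) ws (ContinuousLinearMap.adjoint (r (Sum.inl j)) v) +
      (ws.map fun w => ∑ c : Fin w.length, if w[c] = j then
        ⟪Ω, ((w.drop (c + 1)).map fun l => g (Sum.inl l)).prod v⟫_ℂ •
          ((w.take c).map fun l => g (Sum.inl l)).prod Ω else 0).sum := by
    intro ws
    rw [evalWords_apply, evalWords_apply]
    induction ws with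
    | nil => simp
    | cons w ws ih =>
      rw [List.map_cons, List.sum_cons, map_add, ih, List.map_cons, List.sum_cons, List.map_cons,
        List.sum_cons, adj_word h j w v]
      abel
  have h1 : (if (Sum.inl j : LT k n) = Sum.inr (Sum.inl i) then ⟪Ω, v⟫_ℂ • Ω else 0) = 0 :=
    if_neg (by simp)
  have h2 : (if (Sum.inl j : LT k n) = Sum.inr (Sum.inr i) then ⟪Ω, v⟫_ℂ • Ω else 0) = 0 :=
    if_neg (by simp)
  simp only [Xop, add_apply, smul_apply, map_add,
    map_smul, hw, h.comm, h1, h2, add_zero]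
  abel

/-- move `r_j^*` through `X_P`. -/
theorem adj_Xp (h : FockRel g r Ω) (words : Fin n → List (List (Fin k))) (t : Fin n → ℝ) (s : ℝ)
    (j : Fin k) (P : List (Fin n)) :
    ContinuousLinearMap.adjoint (r (Sum.inl j)) ((P.map (Xop g words t s)).prod Ω) =
      ∑ b : Fin P.length, ((words P[b]).map fun w => ∑ c : Fin w.length, if w[c] = j then
        ⟪Ω, ((w.drop (c + 1)).map fun l => g (Sum.inl l)).prod
            (((P.drop (b + 1)).map (Xop g words t s)).prod Ω)⟫_ℂ •
          ((P.take b).map (Xop g words t s)).prod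
            (((w.take c).map fun l => g (Sum.inl l)).prod Ω) else 0).sum := by
  induction P with
  | nil => simpa using h.rΩ (Sum.inl j)
  | cons a P ih =>
    have e1 : (((a :: P).map (Xop g words t s)).prod : H →L[ℂ] H) Ω =
        Xop g words t s a ((P.map (Xop g words t s)).prod Ω) := by
      rw [List.map_cons, List.prod_cons]; rfl
    rw [e1, adj_X h, ih, map_sum]
    have := Fin.sum_univ_succ (n := P.length) (fun b : Fin (P.length + 1) =>
      ((words ((a :: P)[(b : ℕ)]'(by simpa using b.2))).map fun w =>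
        ∑ c : Fin w.length, if w[c] = j then
        ⟪Ω, ((w.drop (c + 1)).map fun l => g (Sum.inl l)).prod
            ((((a :: P).drop ((b : ℕ) + 1)).map (Xop g words t s)).prod Ω)⟫_ℂ •
          (((a :: P).take (b : ℕ)).map (Xop g words t s)).prod
            (((w.take c).map fun l => g (Sum.inl l)).prod Ω) else 0).sum)
    refine Eq.trans ?_ (Eq.symm this)
    rw [add_comm]
    congr 1
    refine Finset.sum_congr rfl fun b _ => ?_
    rw [map_list_sum, List.map_map]
    congr 1
    refine List.map_congr_left fun w _ => ?_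
    simp only [Function.comp_apply, map_sum]
    refine Finset.sum_congr rfl fun c _ => ?_
    by_cases hc : w[c] = j
    · simp only [hc, if_true, map_smul]
      rfl
    · simp only [hc, if_false, map_zero]

/-- the Schwinger–Dyson identity before using the trace property. -/
theorem sd_abs (h : FockRel g r Ω) (words : Fin n → List (List (Fin k))) (t : Fin n → ℝ) (s : ℝ)
    (j : Fin k) (Q : List (Fin k)) (P : List (Fin n)) :
    ⟪Ω, ((j :: Q).map fun l => g (Sum.inl l)).prod ((P.map (Xop g words t s)).prod Ω)⟫_ℂ =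
      (∑ b : Fin Q.length, if Q[b] = j then
        ⟪Ω, ((Q.take b).map fun l => g (Sum.inl l)).prod Ω⟫_ℂ *
          ⟪Ω, ((Q.drop (b + 1)).map fun l => g (Sum.inl l)).prod
            ((P.map (Xop g words t s)).prod Ω)⟫_ℂ else 0) +
      ∑ b : Fin P.length, ((words P[b]).map fun w => ∑ c : Fin w.length, if w[c] = j then
        ⟪Ω, (Q.map fun l => g (Sum.inl l)).prod (((P.take b).map (Xop g words t s)).prod
            (((w.take c).map fun l => g (Sum.inl l)).prod Ω))⟫_ℂ *
        ⟪Ω, ((w.drop (c + 1)).map fun l => g (Sum.inl l)).prod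
            (((P.drop (b + 1)).map (Xop g words t s)).prod Ω)⟫_ℂ else 0).sum := by
  set v : H := (P.map (Xop g words t s)).prod Ω with hv
  have e1 : (((j :: Q).map fun l => g (Sum.inl l)).prod : H →L[ℂ] H) v =
      g (Sum.inl j) ((Q.map fun l => g (Sum.inl l)).prod v) := by
    rw [List.map_cons, List.prod_cons]; rfl
  have e2 : ⟪Ω, g (Sum.inl j) ((Q.map fun l => g (Sum.inl l)).prod v)⟫_ℂ =
      ⟪Ω, ContinuousLinearMap.adjoint (r (Sum.inl j)) ((Q.map fun l => g (Sum.inl l)).prod v)⟫_ℂ := by
    rw [ContinuousLinearMap.adjoint_inner_right, ← h.gΩ, ← ContinuousLinearMap.adjoint_inner_right,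
      h.selfAdj]
  rw [e1, e2, adj_word h, inner_add_right, inner_sum]
  rw [add_comm]
  congr 1
  · refine Finset.sum_congr rfl fun b _ => ?_
    by_cases hb : Q[b] = j
    · simp only [hb, if_true, inner_smul_right]
      ring
    · simp only [hb, if_false, inner_zero_right]
  · rw [hv, adj_Xp h, map_sum, inner_sum]
    refine Finset.sum_congr rfl fun b _ => ?_
    rw [map_list_sum, List.map_map]
    have hin : ∀ l : List H, ⟪Ω, l.sum⟫_ℂ = (l.map fun x => ⟪Ω, x⟫_ℂ).sum := by
      intro l
      induction l with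
      | nil => simp
      | cons a l ih => simp [ih]
    rw [hin, List.map_map]
    congr 1
    refine List.map_congr_left fun w _ => ?_
    simp only [Function.comp_apply, map_sum, inner_sum]
    refine Finset.sum_congr rfl fun c _ => ?_
    by_cases hc : w[c] = j
    · simp only [hc, if_true, map_smul, inner_smul_right]
      ring
    · simp only [hc, if_false, map_zero, inner_zero_right]

end abs

end RepSDAux

open RepSDAux

theorem rep_heat {k n : ℕ} (words : Fin n → List (List (Fin k))) (t : Fin n → ℝ) (s : ℝ)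
    (i : Fin n) :
    rep (LT k n) (Crest.OpAlg.heatTuple (XA words t) SA s i) = Xop gop words t s i := by
  have h1 : rep (LT k n) (yA words i) =
      evalWords (fun j => gop (Sum.inl j : LT k n)) (words i) := by
    rw [yA, evalWords, map_list_sum, evalWords, List.map_map]
    congr 1
    refine List.map_congr_left fun w _ => ?_
    simp only [Function.comp_apply]
    rw [map_list_prod, List.map_map]
    rfl
  simp only [Crest.OpAlg.heatTuple, XA, SA, Xop, map_add, map_smul, h1, rep_gA]

theorem tau_aw {k n : ℕ} (Q : List (Fin k)) :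
    tau (LT k n) (aw Q) = (mom Q : ℂ) := by
  have h : (aw Q : FA (LT k n)) = ((Q.map Sum.inl).map (gA (I := LT k n))).prod := by
    rw [aw, List.map_map]
    rfl
  rw [h, tau_word, mom_map Sum.inl Sum.inl_injective]

namespace RepSDAux

theorem rep_aw {k n : ℕ} (Q : List (Fin k)) :
    rep (LT k n) (aw Q) = (Q.map fun l => gop (Sum.inl l : LT k n)).prod := by
  rw [aw, map_list_prod, List.map_map]
  rfl

theorem rep_Xw {k n : ℕ} (words : Fin n → List (List (Fin k))) (t : Fin n → ℝ) (s : ℝ)
    (P : List (Fin n)) :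
    rep (LT k n) (Xw words t s P) = (P.map (Xop gop words t s)).prod := by
  rw [Xw, map_list_prod, List.map_map]
  congr 1
  refine List.map_congr_left fun i _ => ?_
  exact rep_heat words t s i

theorem aw_append {k n : ℕ} (Q Q' : List (Fin k)) :
    (aw (Q ++ Q') : FA (LT k n)) = aw Q * aw Q' := by
  simp [aw]

end RepSDAux

theorem sd_tau {k n : ℕ} (words : Fin n → List (List (Fin k))) (t : Fin n → ℝ) (s : ℝ)
    (j : Fin k) (Q : List (Fin k)) (P : List (Fin n)) :
    tau (LT k n) (aw (j :: Q) * Xw words t s P) =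
      (∑ b : Fin Q.length, if Q[b] = j then
        (mom (Q.take b) : ℂ) * tau (LT k n) (aw (Q.drop (b + 1)) * Xw words t s P) else 0) +
      ∑ b : Fin P.length, ((words P[b]).map fun w => ∑ c : Fin w.length,
        if w[c] = j then
          tau (LT k n) (aw (w.take c ++ Q) * Xw words t s (P.take b)) *
            tau (LT k n) (aw (w.drop (c + 1)) * Xw words t s (P.drop (b + 1)))
        else 0).sum := by
  have h := sd_abs (fockRel (LT k n)) words t s j Q P
  have e1 : ∀ (Q : List (Fin k)) (P : List (Fin n)),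
      ⟪(vac : HF (LT k n)), (Q.map fun l => gop (Sum.inl l : LT k n)).prod
        ((P.map (Xop gop words t s)).prod vac)⟫_ℂ =
      tau (LT k n) (aw Q * Xw words t s P) := by
    intro Q P
    rw [tau_apply, map_mul, rep_aw, rep_Xw]
    rfl
  have e2 : ∀ (Q : List (Fin k)),
      ⟪(vac : HF (LT k n)), (Q.map fun l => gop (Sum.inl l : LT k n)).prod vac⟫_ℂ =
      (mom Q : ℂ) := by
    intro Q
    rw [← tau_aw (n := n), tau_apply, rep_aw]
  have e3 : ∀ (Q : List (Fin k)) (P : List (Fin n)) (Q' : List (Fin k)),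
      ⟪(vac : HF (LT k n)), (Q.map fun l => gop (Sum.inl l : LT k n)).prod
        ((P.map (Xop gop words t s)).prod ((Q'.map fun l => gop (Sum.inl l : LT k n)).prod vac))⟫_ℂ =
      tau (LT k n) (aw (Q' ++ Q) * Xw words t s P) := by
    intro Q P Q'
    have h1 : tau (LT k n) (aw (Q' ++ Q) * Xw words t s P) =
        tau (LT k n) ((aw Q * Xw words t s P) * aw Q') := by
      rw [aw_append, mul_assoc]
      exact (tau_faithfulTracial (LT k n)).2.2.2 _ _
    rw [h1, tau_apply, map_mul, map_mul, rep_aw, rep_Xw, rep_aw]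
    rfl
  simp only [e1, e2, e3] at h
  exact h

end Crest.Agent.FE
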