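import Crest.Agent.FE.FisherIneq
import Crest.Agent.FE.RepSD
import Crest.Agent.FE.Rep

/-!
# Row 89, chunk D3: the two upper bounds for one coordinate

`X_i(s) = heatTuple (XA words t) SA s i`, `θ_i = t_i + s > 0`, `C_i(u) = Σ_{w ∈ words i} CQ w u`.
PROOFS.  Use `fisher_ineq` with `π = rep`, `Ω = vac`, `τ = tau`, `θ = θ_i`.
* `fisher_termA`: `ζ = √θ_i R_i Ω` (`R = Rop rcr t s`), `hζ` is `R_inner` (for the XRel `xrel fockRel …`),
  `‖ζ‖² = θ_i`.
* `fisher_termB`: `ζ = X_iΩ − v_i`, `v_i = Σ_{m<N} Σ_{u : Fin m → Fin n} C_i(u) (√θ_u)^{-1} e_u`,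
  `θ_u = Π_l θ_{u_l}`.  By `eVec_inner`: `⟪v_i, X_PΩ⟫ = Σ_u C_i(u) D_u(P) = τ(y_i X_P)` for `|P| < N`
  (`rep_formula` with `F Q P = tau (aw Q * Xw P)`, `sd_tau`, linearity over `w ∈ words i`),
  and `√θ_i ⟪R_iΩ, X_PΩ⟫ = ⟪X_iΩ − y_iΩ, X_PΩ⟫ = ⟪X_iΩ, X_PΩ⟫ − τ(y_i X_P)` (`Rop_vac`), so
  `⟪X_iΩ − v_i, X_PΩ⟫ = √θ_i⟪R_iΩ, X_PΩ⟫ = θ_i (τ⊗τ)(∂_i P)`.
  `‖X_iΩ − v_i‖² = ‖X_iΩ‖² − 2 Re⟪v_i, X_iΩ⟫ + ‖v_i‖² = (θ_i + τ(y_i²)) − 2 τ(y_i X_i) + Σ_u C_i(u)²/θ_u`
  (orthonormality of the `e_u`), and `τ(y_i X_i) = τ(y_i²)` (`τ(y_i g) = 0` for a noise letter `g`: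
  `g Ω = r Ω`, `r^* y_i Ω = y_i r^*Ω = 0`), `τ(X_i²) = τ(y_i²) + θ_i`.
  (`y_i` selfadjoint: hypothesis `hsa`.)
-/

set_option autoImplicit false

namespace Crest.Agent.FE

open scoped InnerProductSpace ENNReal

theorem heat_selfAdjoint {k n : ℕ} (words : Fin n → List (List (Fin k)))
    (hsa : ∀ i, IsSelfAdjoint (yA (n := n) words i)) (t : Fin n → ℝ) (s : ℝ) (i : Fin n) :
    IsSelfAdjoint (Crest.OpAlg.heatTuple (XA words t) SA s i) := by
  unfold Crest.OpAlg.heatTuple XA SA
  refine IsSelfAdjoint.add (IsSelfAdjoint.add (hsa i) ?_) ?_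
  · refine IsSelfAdjoint.smul ?_ (gA_selfAdjoint _)
    rw [isSelfAdjoint_iff, RCLike.star_def, Complex.conj_ofReal]
  · refine IsSelfAdjoint.smul ?_ (gA_selfAdjoint _)
    rw [isSelfAdjoint_iff, RCLike.star_def, Complex.conj_ofReal]

/-- rep of evaluated words. -/
theorem rep_yA {k n : ℕ} (words : Fin n → List (List (Fin k))) (i : Fin n) :
    rep (LT k n) (yA words i) = evalWords (fun j => gop (Sum.inl j)) (words i) := by
  unfold yA evalWords
  rw [map_list_sum, List.map_map]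
  congr 1
  refine List.map_congr_left fun w _ => ?_
  simp only [Function.comp_apply]
  rw [map_list_prod, List.map_map]
  rfl

theorem rep_prod {k n : ℕ} (words : Fin n → List (List (Fin k))) (t : Fin n → ℝ) (s : ℝ)
    (P : List (Fin n)) :
    rep (LT k n) ((P.map (Crest.OpAlg.heatTuple (XA words t) SA s)).prod) =
      (P.map (Xop gop words t s)).prod := by
  rw [map_list_prod, List.map_map]
  congr 1
  refine List.map_congr_left fun i _ => ?_
  simp only [Function.comp_apply]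
  exact rep_heat words t s i

theorem tau_Xw {k n : ℕ} (words : Fin n → List (List (Fin k))) (t : Fin n → ℝ) (s : ℝ)
    (P : List (Fin n)) :
    tau (LT k n) ((P.map (Crest.OpAlg.heatTuple (XA words t) SA s)).prod) =
      ⟪(vac : HF (LT k n)), (P.map (Xop gop words t s)).prod vac⟫_ℂ := by
  rw [tau_apply, rep_prod]

theorem rep_wordEval {k n : ℕ} (words : Fin n → List (List (Fin k))) (t : Fin n → ℝ) (s : ℝ)
    (w : FreeMonoid (Fin n)) :
    rep (LT k n) (Crest.OpAlg.wordEval (Crest.OpAlg.heatTuple (XA words t) SA s) w) =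
      ((FreeMonoid.toList w).map (Xop gop words t s)).prod := by
  rw [← rep_prod]
  unfold Crest.OpAlg.wordEval
  rw [FreeMonoid.lift_apply]

theorem zeta_R {k n : ℕ} (words : Fin n → List (List (Fin k))) (t : Fin n → ℝ)
    (ht : ∀ i, 0 < t i) (s : ℝ) (hs : 0 < s) (i : Fin n) (P : List (Fin n)) :
    ⟪((Real.sqrt (t i + s) : ℝ) : ℂ) • Rop rcr t s i (vac : HF (LT k n)),
        (P.map (Xop gop words t s)).prod vac⟫_ℂ =
      ((t i + s : ℝ) : ℂ) * ∑ b : Fin P.length, if P[b] = i then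
        tau (LT k n) ((((P.take b).map (Crest.OpAlg.heatTuple (XA words t) SA s))).prod) *
          tau (LT k n) ((((P.drop (b + 1)).map (Crest.OpAlg.heatTuple (XA words t) SA s))).prod)
        else 0 := by
  have hθ : 0 ≤ t i + s := by have := ht i; linarith
  have hrel := xrel (fockRel (LT k n)) words t ht s hs.le
  rw [inner_smul_left, R_inner hrel, Complex.conj_ofReal, ← mul_assoc, ← Complex.ofReal_mul,
    Real.mul_self_sqrt hθ]
  simp only [tau_Xw]

theorem fisher_termA {k n : ℕ} (words : Fin n → List (List (Fin k)))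
    (hsa : ∀ i, IsSelfAdjoint (yA (n := n) words i)) (t : Fin n → ℝ) (ht : ∀ i, 0 < t i)
    (s : ℝ) (hs : 0 < s) (i : Fin n) (P : Crest.OpAlg.NCPoly n)
    (hP : Crest.OpAlg.polyStar P = P) :
    (2 * Crest.OpAlg.splitPairing (tau (LT k n)) (Crest.OpAlg.heatTuple (XA words t) SA s) i P -
      tau (LT k n) (Crest.OpAlg.polyEval (Crest.OpAlg.heatTuple (XA words t) SA s) P *
        Crest.OpAlg.polyEval (Crest.OpAlg.heatTuple (XA words t) SA s) P)).re ≤
      1 / (t i + s) := by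
  have hθ : 0 < t i + s := by have := ht i; linarith
  have hrel := xrel (fockRel (LT k n)) words t ht s hs.le
  refine (fisher_ineq (tau _) (rep _) vac (fun x => tau_apply x)
    (Crest.OpAlg.heatTuple (XA words t) SA s) (fun i => heat_selfAdjoint words hsa t s i) i P hP
    (((Real.sqrt (t i + s) : ℝ) : ℂ) • Rop rcr t s i vac) (t i + s) hθ ?_).trans ?_
  · intro w _
    rw [rep_wordEval, zeta_R words t ht s hs]
  · rw [norm_smul, norm_R_vac hrel, mul_one, Complex.norm_real, Real.norm_eq_abs, sq_abs,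
      Real.sq_sqrt hθ.le]
    apply le_of_eq
    field_simp

/-- `r^*` of a noise letter annihilates `y Ω`. -/
theorem radj_words_vac {k n : ℕ} {H : Type*} [NormedAddCommGroup H] [InnerProductSpace ℂ H]
    [CompleteSpace H] {g r : LT k n → H →L[ℂ] H} {Ω : H} (h : FockRel g r Ω) (x : Fin n ⊕ Fin n)
    (ws : List (List (Fin k))) :
    ContinuousLinearMap.adjoint (r (Sum.inr x)) (evalWords (fun j => g (Sum.inl j)) ws Ω) = 0 := by
  have h1 : ∀ w : List (Fin k), ContinuousLinearMap.adjoint (r (Sum.inr x))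
      ((w.map fun j => g (Sum.inl j)).prod Ω) = 0 := by
    intro w
    induction w with
    | nil => simpa using h.rΩ _
    | cons j w ih =>
      rw [List.map_cons, List.prod_cons, ContinuousLinearMap.mul_apply, h.comm, ih]
      simp
  induction ws with
  | nil => simp [evalWords]
  | cons w ws ih =>
    have : evalWords (fun j => g (Sum.inl j)) (w :: ws) =
        (w.map fun j => g (Sum.inl j)).prod + evalWords (fun j => g (Sum.inl j)) ws := by
      simp [evalWords]
    rw [this, ContinuousLinearMap.add_apply, map_add, h1, ih, add_zero]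

theorem Rop_inner_words {k n : ℕ} {H : Type*} [NormedAddCommGroup H] [InnerProductSpace ℂ H]
    [CompleteSpace H] {g r : LT k n → H →L[ℂ] H} {Ω : H} (h : FockRel g r Ω)
    (t : Fin n → ℝ) (s : ℝ) (i : Fin n) (ws : List (List (Fin k))) :
    ⟪Rop r t s i Ω, evalWords (fun j => g (Sum.inl j)) ws Ω⟫_ℂ = 0 := by
  unfold Rop
  rw [ContinuousLinearMap.smul_apply, ContinuousLinearMap.add_apply,
    ContinuousLinearMap.smul_apply, ContinuousLinearMap.smul_apply, inner_smul_left,
    inner_add_left, inner_smul_left, inner_smul_left,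
    ← ContinuousLinearMap.adjoint_inner_right, ← ContinuousLinearMap.adjoint_inner_right,
    radj_words_vac h, radj_words_vac h]
  simp

/-- the vector `X_i Ω = y_i Ω + √θ_i R_i Ω`: norm and pairing with `y_i Ω`. -/
theorem norm_XΩ {k n : ℕ} {H : Type*} [NormedAddCommGroup H] [InnerProductSpace ℂ H]
    [CompleteSpace H] {g r : LT k n → H →L[ℂ] H} {Ω : H} (h : FockRel g r Ω)
    (words : Fin n → List (List (Fin k)))
    (t : Fin n → ℝ) (ht : ∀ i, 0 < t i) (s : ℝ) (hs : 0 ≤ s) (i : Fin n) :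
    ‖Xop g words t s i Ω‖ ^ 2 =
      ‖evalWords (fun j => g (Sum.inl j)) (words i) Ω‖ ^ 2 + (t i + s) := by
  have hθ : 0 < t i + s := by have := ht i; linarith
  have h1 := Rop_vac h words t ht s hs i
  have h2 : Xop g words t s i Ω = evalWords (fun j => g (Sum.inl j)) (words i) Ω +
      ((Real.sqrt (t i + s) : ℝ) : ℂ) • Rop r t s i Ω := by rw [h1]; abel
  have h3 := norm_R_vac (xrel h words t ht s hs) i
  have h4 : ⟪evalWords (fun j => g (Sum.inl j)) (words i) Ω,
      ((Real.sqrt (t i + s) : ℝ) : ℂ) • Rop r t s i Ω⟫_ℂ = 0 := by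
    rw [inner_smul_right, ← inner_conj_symm, Rop_inner_words h]
    simp
  rw [h2, @norm_add_sq ℂ, h4, norm_smul, h3, Complex.norm_real, Real.norm_eq_abs, mul_one,
    sq_abs, Real.sq_sqrt hθ.le]
  simp

theorem inner_y_XΩ {k n : ℕ} {H : Type*} [NormedAddCommGroup H] [InnerProductSpace ℂ H]
    [CompleteSpace H] {g r : LT k n → H →L[ℂ] H} {Ω : H} (h : FockRel g r Ω)
    (words : Fin n → List (List (Fin k)))
    (t : Fin n → ℝ) (ht : ∀ i, 0 < t i) (s : ℝ) (hs : 0 ≤ s) (i : Fin n) :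
    ⟪evalWords (fun j => g (Sum.inl j)) (words i) Ω, Xop g words t s i Ω⟫_ℂ =
      ((‖evalWords (fun j => g (Sum.inl j)) (words i) Ω‖ ^ 2 : ℝ) : ℂ) := by
  have h1 := Rop_vac h words t ht s hs i
  have h2 : Xop g words t s i Ω = evalWords (fun j => g (Sum.inl j)) (words i) Ω +
      ((Real.sqrt (t i + s) : ℝ) : ℂ) • Rop r t s i Ω := by rw [h1]; abel
  have h4 : ⟪evalWords (fun j => g (Sum.inl j)) (words i) Ω,
      ((Real.sqrt (t i + s) : ℝ) : ℂ) • Rop r t s i Ω⟫_ℂ = 0 := by
    rw [inner_smul_right, ← inner_conj_symm, Rop_inner_words h]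
    simp
  rw [h2, inner_add_right, h4, add_zero, inner_self_eq_norm_sq_to_K]
  push_cast
  rfl

/-- for selfadjoint `x ∈ FA`: `τ(x z) = ⟪x Ω, z Ω⟫`. -/
theorem tau_sa_mul {I : Type} [DecidableEq I] (x z : FA I) (hx : IsSelfAdjoint x) :
    tau I (x * z) = ⟪rep I x vac, rep I z vac⟫_ℂ := by
  have h1 : ContinuousLinearMap.adjoint (rep I x) = rep I x := by
    have := hx.map (rep I)
    rwa [isSelfAdjoint_iff, ContinuousLinearMap.star_eq_adjoint] at this
  rw [tau_apply, map_mul, ContinuousLinearMap.mul_apply, ← ContinuousLinearMap.adjoint_inner_left,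
    h1]

theorem tau_yy {k n : ℕ} (words : Fin n → List (List (Fin k)))
    (hsa : ∀ i, IsSelfAdjoint (yA (n := n) words i)) (i : Fin n) :
    tau (LT k n) (yA words i * yA words i) =
      ((‖evalWords (fun j => gop (Sum.inl j)) (words i) (vac : HF (LT k n))‖ ^ 2 : ℝ) : ℂ) := by
  rw [tau_sa_mul _ _ (hsa i), rep_yA, inner_self_eq_norm_sq_to_K]
  push_cast
  rfl

theorem tau_heat_sq {k n : ℕ} (words : Fin n → List (List (Fin k)))
    (hsa : ∀ i, IsSelfAdjoint (yA (n := n) words i)) (t : Fin n → ℝ) (ht : ∀ i, 0 < t i)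
    (s : ℝ) (hs : 0 ≤ s) (i : Fin n) :
    tau (LT k n) (Crest.OpAlg.heatTuple (XA words t) SA s i *
      Crest.OpAlg.heatTuple (XA words t) SA s i) =
      (((tau (LT k n) (yA words i * yA words i)).re + (t i + s) : ℝ) : ℂ) := by
  rw [tau_sa_mul _ _ (heat_selfAdjoint words hsa t s i), rep_heat, tau_yy words hsa,
    Complex.ofReal_re, ← norm_XΩ (fockRel (LT k n)) words t ht s hs, inner_self_eq_norm_sq_to_K]
  push_cast
  rfl


/-- the coefficient `C_i(u)`. -/
noncomputable def Ci {k n : ℕ} (words : Fin n → List (List (Fin k))) (i : Fin n)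
    (u : List (Fin n)) : ℝ := ((words i).map fun w => CQ words w u).sum

/-- the approximating vector `v_i`. -/
noncomputable def vApp {k n : ℕ} {H : Type*} [NormedAddCommGroup H] [InnerProductSpace ℂ H]
    (R : Fin n → H →L[ℂ] H) (Ω : H) (c : Fin n → ℝ) (words : Fin n → List (List (Fin k)))
    (i : Fin n) (N : ℕ) : H :=
  ∑ x : (Σ m : Fin N, (Fin m → Fin n)),
    ((Ci words i (List.ofFn x.2) / ∏ l, c (x.2 l) : ℝ) : ℂ) • eVec R Ω (List.ofFn x.2)

theorem eVec_orth {n : ℕ} {H : Type*} [NormedAddCommGroup H] [InnerProductSpace ℂ H]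
    [CompleteSpace H] {X R : Fin n → H →L[ℂ] H} {c : Fin n → ℝ} {Ω : H} (h : XRel X R c Ω) (N : ℕ) :
    Orthonormal ℂ (fun x : (Σ m : Fin N, (Fin m → Fin n)) => eVec R Ω (List.ofFn x.2)) := by
  rw [orthonormal_iff_ite]
  rintro ⟨m, u⟩ ⟨m', u'⟩
  rw [eVec_orthonormal h]
  by_cases hh : List.ofFn u = List.ofFn u'
  · rw [if_pos hh, if_pos]
    rw [List.ofFn_inj'] at hh
    have h1 : (m : ℕ) = m' := congrArg Sigma.fst hh
    have h2 : m = m' := Fin.ext h1
    subst h2
    simpa using hh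
  · rw [if_neg hh, if_neg]
    intro hc
    apply hh
    cases hc
    rfl

theorem norm_vApp {k n : ℕ} {H : Type*} [NormedAddCommGroup H] [InnerProductSpace ℂ H]
    [CompleteSpace H] {X R : Fin n → H →L[ℂ] H} {c : Fin n → ℝ} {Ω : H} (h : XRel X R c Ω)
    (words : Fin n → List (List (Fin k))) (i : Fin n) (N : ℕ) :
    ‖vApp R Ω c words i N‖ ^ 2 = ∑ m ∈ Finset.range N, ∑ u : Fin m → Fin n,
      (Ci words i (List.ofFn u)) ^ 2 / ∏ l, c (u l) ^ 2 := by
  have h1 : ⟪vApp R Ω c words i N, vApp R Ω c words i N⟫_ℂ =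
      ((∑ x : (Σ m : Fin N, (Fin m → Fin n)),
        (Ci words i (List.ofFn x.2) / ∏ l, c (x.2 l)) ^ 2 : ℝ) : ℂ) := by
    unfold vApp
    rw [(eVec_orth h N).inner_sum]
    push_cast
    refine Finset.sum_congr rfl fun x _ => ?_
    simp only [map_div₀, map_prod, Complex.conj_ofReal]
    ring
  rw [inner_self_eq_norm_sq_to_K] at h1
  have h2 : ‖vApp R Ω c words i N‖ ^ 2 = ∑ x : (Σ m : Fin N, (Fin m → Fin n)),
        (Ci words i (List.ofFn x.2) / ∏ l, c (x.2 l)) ^ 2 := by
    refine Complex.ofReal_injective (Eq.trans ?_ h1)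
    push_cast
    rfl
  rw [h2, Fintype.sum_sigma, Finset.sum_range]
  refine Finset.sum_congr rfl fun m _ => Finset.sum_congr rfl fun u _ => ?_
  rw [div_pow, Finset.prod_pow]

theorem inner_vApp {k n : ℕ} {H : Type*} [NormedAddCommGroup H] [InnerProductSpace ℂ H]
    [CompleteSpace H] {X R : Fin n → H →L[ℂ] H} {c : Fin n → ℝ} {Ω : H} (h : XRel X R c Ω)
    (hc : ∀ i, c i ≠ 0)
    (words : Fin n → List (List (Fin k))) (i : Fin n) (N : ℕ) (P : List (Fin n)) :
    ⟪vApp R Ω c words i N, (P.map X).prod Ω⟫_ℂ = ∑ m ∈ Finset.range N, ∑ u : Fin m → Fin n,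
      (Ci words i (List.ofFn u) : ℂ) *
        Dfun (fun Q => ⟪Ω, (Q.map X).prod Ω⟫_ℂ) (List.ofFn u) P := by
  unfold vApp
  rw [sum_inner, Fintype.sum_sigma, Finset.sum_range]
  refine Finset.sum_congr rfl fun m _ => Finset.sum_congr rfl fun u _ => ?_
  simp only
  rw [inner_smul_left, eVec_inner h, Complex.conj_ofReal, ← mul_assoc]
  congr 1
  rw [List.map_ofFn, List.prod_ofFn]
  have h1 : (∏ l, c (u l)) ≠ 0 := Finset.prod_ne_zero_iff.2 fun l _ => hc _
  rw [← Complex.ofReal_mul]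
  congr 1
  simp only [Function.comp_apply]
  field_simp

theorem inner_vApp_eq {k n : ℕ} (words : Fin n → List (List (Fin k)))
    (hsa : ∀ i, IsSelfAdjoint (yA (n := n) words i)) (t : Fin n → ℝ) (ht : ∀ i, 0 < t i)
    (s : ℝ) (hs : 0 < s) (i : Fin n) (N : ℕ) (P : List (Fin n)) (hPN : P.length < N) :
    ⟪vApp (Rop rcr t s) (vac : HF (LT k n)) (fun i => Real.sqrt (t i + s)) words i N,
      (P.map (Xop gop words t s)).prod vac⟫_ℂ =
    ⟪evalWords (fun j => gop (Sum.inl j)) (words i) (vac : HF (LT k n)),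
      (P.map (Xop gop words t s)).prod vac⟫_ℂ := by
  have hrel := xrel (fockRel (LT k n)) words t ht s hs.le
  have hc : ∀ i, Real.sqrt (t i + s) ≠ 0 := fun i => by
    have := ht i
    exact (Real.sqrt_pos.2 (by linarith)).ne'
  rw [inner_vApp hrel hc, ← rep_yA, ← rep_prod, ← tau_sa_mul _ _ (hsa i)]
  have hF : (fun Q => ⟪(vac : HF (LT k n)), (Q.map (Xop gop words t s)).prod vac⟫_ℂ) =
      (fun P => tau (LT k n) (aw [] * Xw words t s P)) := by
    funext Q
    rw [← tau_Xw]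
    simp [aw, Xw]
  rw [hF]
  have h1 : yA words i * ((P.map (Crest.OpAlg.heatTuple (XA words t) SA s)).prod) =
      ((words i).map fun w => aw w * Xw words t s P).sum := by
    rw [List.sum_map_mul_right]
    rfl
  rw [h1, map_list_sum, List.map_map]
  have h2 : ∀ w, (tau (LT k n)) (aw w * Xw words t s P) = ∑ m ∈ Finset.range N,
      ∑ u : Fin m → Fin n, (CQ words w (List.ofFn u) : ℂ) *
        Dfun (fun P => tau (LT k n) (aw [] * Xw words t s P)) (List.ofFn u) P := fun w =>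
    rep_formula words (fun Q P => tau (LT k n) (aw Q * Xw words t s P))
      (fun j Q P => sd_tau words t s j Q P) w P N hPN
  have h3 : ∀ ws : List (List (Fin k)),
      (ws.map ((tau (LT k n)) ∘ fun w => aw w * Xw words t s P)).sum =
      ∑ m ∈ Finset.range N, ∑ u : Fin m → Fin n,
        (((ws.map fun w => CQ words w (List.ofFn u)).sum : ℝ) : ℂ) *
        Dfun (fun P => tau (LT k n) (aw [] * Xw words t s P)) (List.ofFn u) P := by
    intro ws
    induction ws with
    | nil => simp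
    | cons w ws ih =>
      rw [List.map_cons, List.sum_cons, ih, Function.comp_apply, h2, ← Finset.sum_add_distrib]
      refine Finset.sum_congr rfl fun m _ => ?_
      rw [← Finset.sum_add_distrib]
      refine Finset.sum_congr rfl fun u _ => ?_
      rw [List.map_cons, List.sum_cons]
      push_cast
      ring
  rw [h3]
  rfl

theorem fisher_termB {k n : ℕ} (words : Fin n → List (List (Fin k)))
    (hsa : ∀ i, IsSelfAdjoint (yA (n := n) words i)) (t : Fin n → ℝ) (ht : ∀ i, 0 < t i)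
    (s : ℝ) (hs : 0 < s) (i : Fin n) (P : Crest.OpAlg.NCPoly n)
    (hP : Crest.OpAlg.polyStar P = P) (N : ℕ) (hN : 2 ≤ N)
    (hPN : ∀ w ∈ P.coeff.support, (FreeMonoid.toList w).length < N) :
    (2 * Crest.OpAlg.splitPairing (tau (LT k n)) (Crest.OpAlg.heatTuple (XA words t) SA s) i P -
      tau (LT k n) (Crest.OpAlg.polyEval (Crest.OpAlg.heatTuple (XA words t) SA s) P *
        Crest.OpAlg.polyEval (Crest.OpAlg.heatTuple (XA words t) SA s) P)).re ≤
      ((t i + s) - (tau (LT k n) (yA words i * yA words i)).re +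
        ∑ m ∈ Finset.range N, ∑ u : Fin m → Fin n,
          ((words i).map fun w => CQ words w (List.ofFn u)).sum ^ 2 / ∏ l, (t (u l) + s)) /
        (t i + s) ^ 2 := by
  have hθ : 0 < t i + s := by have := ht i; linarith
  have hrel := xrel (fockRel (LT k n)) words t ht s hs.le
  refine (fisher_ineq (tau _) (rep _) vac (fun x => tau_apply x)
    (Crest.OpAlg.heatTuple (XA words t) SA s) (fun i => heat_selfAdjoint words hsa t s i) i P hP
    (Xop gop words t s i vac -
      vApp (Rop rcr t s) (vac : HF (LT k n)) (fun i => Real.sqrt (t i + s)) words i N)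
    (t i + s) hθ ?_).trans ?_
  · intro w hw
    rw [rep_wordEval, inner_sub_left, inner_vApp_eq words hsa t ht s hs i N _ (hPN w hw),
      ← inner_sub_left, ← Rop_vac (fockRel (LT k n)) words t ht s hs.le i,
      zeta_R words t ht s hs]
  · refine le_of_eq ?_
    congr 1
    have h1 : ⟪vApp (Rop rcr t s) (vac : HF (LT k n)) (fun i => Real.sqrt (t i + s)) words i N,
        Xop gop words t s i vac⟫_ℂ =
        ((‖evalWords (fun j => gop (Sum.inl j)) (words i) (vac : HF (LT k n))‖ ^ 2 : ℝ) : ℂ) := by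
      have := inner_vApp_eq words hsa t ht s hs i N [i] (by simp; omega)
      simp only [List.map_cons, List.map_nil, List.prod_cons, List.prod_nil, mul_one] at this
      rw [this, inner_y_XΩ (fockRel (LT k n)) words t ht s hs.le]
    rw [@norm_sub_sq ℂ, norm_XΩ (fockRel (LT k n)) words t ht s hs.le, norm_vApp hrel,
      ← inner_conj_symm, h1, tau_yy words hsa, Complex.ofReal_re, Complex.conj_ofReal]
    have h2 : ∀ u : ℝ, RCLike.re ((u : ℂ)) = u := fun u => Complex.ofReal_re u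
    rw [h2]
    have h3 : ∀ l, Real.sqrt (t l + s) ^ 2 = t l + s := fun l =>
      Real.sq_sqrt (by have := ht l; linarith)
    simp only [h3, Ci]
    ring

end Crest.Agent.FE
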