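import Crest.Agent.FE.HermCoords

/-!
# Row 89, chunk F4: microstates lie in a sheared product of balls

`shiftP e X i = 0` for `e i = inl _`, `= X_p X_q X_s + X_s X_q X_p` for `e i = inr (p,q,s)` (with `X_p :=
X (e.symm (inl p))`).  Suppose `τ((X_i − shiftP_i)²) = b_i` (real).
PROOF.  `(M_i − shift)² ` expands into at most 9 (= 1+2+2+4) words of length `≤ 6` with coefficients
`±1`, in any ring; so for a microstate `|tr_d((M_i − shift_i(M))²) − b_i| ≤ 9 ε` (`tr_d = d⁻¹ Tr`;
expand with `τ` and `matrixMoment` evaluated on the same words).  `M_i − shift_i(M)` is Hermitian with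
coordinates `a_i − coordsOf (shift_i(M))`, so `d⁻¹ ‖a_i − coordsOf(shift_i M)‖² ≤ b_i + 9 ε`
(`trace_hermitianOfCoords_sq`).
-/

set_option autoImplicit false

namespace Crest.Agent.FE

open Crest.OpAlg

/-- the shift polynomials. -/
def shiftP {A : Type*} [Ring A] {k n : ℕ} (e : Fin n ≃ IX k) (X : Fin n → A) (i : Fin n) : A :=
  match e i with
  | .inl _ => 0
  | .inr (p, q, s) => X (e.symm (.inl p)) * X (e.symm (.inl q)) * X (e.symm (.inl s)) +
      X (e.symm (.inl s)) * X (e.symm (.inl q)) * X (e.symm (.inl p))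

theorem shiftP_inl {A : Type*} [Ring A] {k n : ℕ} (e : Fin n ≃ IX k) (X : Fin n → A) (i : Fin n)
    {j : Fin k} (h : e i = .inl j) : shiftP e X i = 0 := by
  unfold shiftP
  rw [h]

theorem shiftP_inr {A : Type*} [Ring A] {k n : ℕ} (e : Fin n ≃ IX k) (X : Fin n → A) (i : Fin n)
    {p q s : Fin k} (h : e i = .inr (p, q, s)) : shiftP e X i =
      X (e.symm (.inl p)) * X (e.symm (.inl q)) * X (e.symm (.inl s)) +
      X (e.symm (.inl s)) * X (e.symm (.inl q)) * X (e.symm (.inl p)) := by
  unfold shiftP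
  rw [h]

theorem wordEval_ofList {A : Type*} [Ring A] [Algebra ℂ A] {n : ℕ} (X : Fin n → A)
    (w : List (Fin n)) : wordEval X (FreeMonoid.ofList w) = (w.map X).prod := by
  unfold wordEval
  rw [FreeMonoid.lift_apply, FreeMonoid.toList_ofList]

/-- expansion of `(X - (P Q S + S Q P))²` into nine words. -/
theorem expand9 {A : Type*} [Ring A] [Algebra ℂ A] (φ : A →ₗ[ℂ] ℂ) {n : ℕ} (X : Fin n → A)
    (i p q s : Fin n) :
    φ ((X i - (X p * X q * X s + X s * X q * X p)) * (X i - (X p * X q * X s + X s * X q * X p))) =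
      φ (wordEval X (FreeMonoid.ofList [i, i]))
      - φ (wordEval X (FreeMonoid.ofList [i, p, q, s]))
      - φ (wordEval X (FreeMonoid.ofList [i, s, q, p]))
      - φ (wordEval X (FreeMonoid.ofList [p, q, s, i]))
      - φ (wordEval X (FreeMonoid.ofList [s, q, p, i]))
      + φ (wordEval X (FreeMonoid.ofList [p, q, s, p, q, s]))
      + φ (wordEval X (FreeMonoid.ofList [p, q, s, s, q, p]))
      + φ (wordEval X (FreeMonoid.ofList [s, q, p, p, q, s]))
      + φ (wordEval X (FreeMonoid.ofList [s, q, p, s, q, p])) := by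
  simp only [wordEval_ofList, List.map_cons, List.map_nil, List.prod_cons, List.prod_nil, mul_one]
  rw [← map_sub, ← map_sub, ← map_sub, ← map_sub, ← map_add, ← map_add, ← map_add, ← map_add]
  congr 1
  noncomm_ring

/-- normalised trace as a linear map. -/
noncomputable def ntr (d : ℕ) : Matrix (Fin d) (Fin d) ℂ →ₗ[ℂ] ℂ :=
  (d : ℂ)⁻¹ • Matrix.traceLinearMap (Fin d) ℂ ℂ

theorem ntr_apply {d : ℕ} (M : Matrix (Fin d) (Fin d) ℂ) :
    ntr d M = (d : ℂ)⁻¹ * Matrix.trace M := rfl

theorem matrixTuple_isHermitian {n d : ℕ} (a : EuclideanSpace ℝ (Fin n × (Fin d × Fin d)))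
    (i : Fin n) : (matrixTuple a i).IsHermitian :=
  hermitianOfCoords_isHermitian _

theorem shiftP_isHermitian {k n d : ℕ} (e : Fin n ≃ IX k)
    (a : EuclideanSpace ℝ (Fin n × (Fin d × Fin d))) (i : Fin n) :
    (shiftP e (matrixTuple a) i).IsHermitian := by
  rcases h : e i with j | ⟨p, q, s⟩
  · rw [shiftP_inl e _ i h]
    exact Matrix.isHermitian_zero
  · rw [shiftP_inr e _ i h]
    have hp := matrixTuple_isHermitian a (e.symm (.inl p))
    have hq := matrixTuple_isHermitian a (e.symm (.inl q))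
    have hs := matrixTuple_isHermitian a (e.symm (.inl s))
    unfold Matrix.IsHermitian at *
    rw [Matrix.conjTranspose_add, Matrix.conjTranspose_mul, Matrix.conjTranspose_mul,
      Matrix.conjTranspose_mul, Matrix.conjTranspose_mul, hp, hq, hs, add_comm, Matrix.mul_assoc,
      Matrix.mul_assoc]

theorem micro_incl {A : Type*} [Ring A] [Algebra ℂ A] (τ : A →ₗ[ℂ] ℂ) {k n : ℕ}
    (e : Fin n ≃ IX k) (X : Fin n → A) (b : Fin n → ℝ)
    (hb : ∀ i, τ ((X i - shiftP e X i) * (X i - shiftP e X i)) = (b i : ℂ))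
    (R : ℝ) (d : ℕ) (hd : 1 ≤ d) (ε : ℝ) (hε : 0 < ε) :
    microstates τ X R 6 d ε ⊆ {a : EuclideanSpace ℝ (Fin n × (Fin d × Fin d)) | ∀ i,
      ‖(WithLp.toLp 2 fun j => a (i, j) : EuclideanSpace ℝ (Fin d × Fin d)) -
        coordsOf (shiftP e (matrixTuple a) i)‖ ≤ Real.sqrt (d * (b i + 9 * ε))} := by
  intro a ha i
  obtain ⟨-, hw⟩ := ha
  have hd0 : (0 : ℝ) < d := by exact_mod_cast hd
  have hw' : ∀ w : List (Fin n), w.length ≤ 6 →
      |(ntr d (wordEval (matrixTuple a) (FreeMonoid.ofList w))).re -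
        (τ (wordEval X (FreeMonoid.ofList w))).re| ≤ ε := by
    intro w hwl
    have h := hw (FreeMonoid.ofList w) (by rw [FreeMonoid.toList_ofList]; exact hwl)
    rw [← Complex.sub_re]
    exact (Complex.abs_re_le_norm _).trans h.le
  -- the trace identity
  have htr : (ntr d ((matrixTuple a i - shiftP e (matrixTuple a) i) *
      (matrixTuple a i - shiftP e (matrixTuple a) i))).re =
      (d : ℝ)⁻¹ * ‖(WithLp.toLp 2 fun j => a (i, j) : EuclideanSpace ℝ (Fin d × Fin d)) -
        coordsOf (shiftP e (matrixTuple a) i)‖ ^ 2 := by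
    have h1 : matrixTuple a i - shiftP e (matrixTuple a) i =
        hermitianOfCoords ((WithLp.toLp 2 fun j => a (i, j) : EuclideanSpace ℝ (Fin d × Fin d)) -
        coordsOf (shiftP e (matrixTuple a) i)) := by
      rw [hermitianOfCoords_sub, hermitianOfCoords_coordsOf _ (shiftP_isHermitian e a i)]
      rfl
    rw [h1, ntr_apply, trace_hermitianOfCoords_sq]
    rw [← Complex.ofReal_natCast, ← Complex.ofReal_inv, ← Complex.ofReal_mul, Complex.ofReal_re]
  have hkey : (ntr d ((matrixTuple a i - shiftP e (matrixTuple a) i) *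
      (matrixTuple a i - shiftP e (matrixTuple a) i))).re ≤ b i + 9 * ε := by
    have hbi : (τ ((X i - shiftP e X i) * (X i - shiftP e X i))).re = b i := by
      rw [hb i, Complex.ofReal_re]
    rw [← hbi]
    rcases h : e i with j | ⟨p, q, s⟩
    · rw [shiftP_inl e _ i h, shiftP_inl e _ i h, sub_zero, sub_zero]
      have h2 := hw' [i, i] (by simp)
      simp only [wordEval_ofList, List.map_cons, List.map_nil, List.prod_cons, List.prod_nil,
        mul_one] at h2
      have := (abs_le.mp h2).2
      linarith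
    · rw [shiftP_inr e _ i h, shiftP_inr e _ i h, expand9, expand9]
      simp only [Complex.add_re, Complex.sub_re]
      generalize e.symm (.inl p) = p'
      generalize e.symm (.inl q) = q'
      generalize e.symm (.inl s) = s'
      have h1 := abs_le.mp (hw' [i, i] (by simp))
      have h2 := abs_le.mp (hw' [i, p', q', s'] (by simp))
      have h3 := abs_le.mp (hw' [i, s', q', p'] (by simp))
      have h4 := abs_le.mp (hw' [p', q', s', i] (by simp))
      have h5 := abs_le.mp (hw' [s', q', p', i] (by simp))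
      have h6 := abs_le.mp (hw' [p', q', s', p', q', s'] (by simp))
      have h7 := abs_le.mp (hw' [p', q', s', s', q', p'] (by simp))
      have h8 := abs_le.mp (hw' [s', q', p', p', q', s'] (by simp))
      have h9 := abs_le.mp (hw' [s', q', p', s', q', p'] (by simp))
      linarith [h1.2, h2.1, h3.1, h4.1, h5.1, h6.2, h7.2, h8.2, h9.2]
  rw [htr, inv_mul_le_iff₀ hd0] at hkey
  exact Real.le_sqrt_of_sq_le hkey

theorem continuous_matrixTuple {n d : ℕ} (i : Fin n) :
    Continuous fun a : EuclideanSpace ℝ (Fin n × (Fin d × Fin d)) => matrixTuple a i := by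
  unfold matrixTuple
  refine continuous_hermitianOfCoords.comp ?_
  refine (PiLp.continuous_toLp 2 _).comp ?_
  refine continuous_pi (fun p => ?_)
  fun_prop

theorem shiftP_continuous {k n d : ℕ} (e : Fin n ≃ IX k) (i : Fin n) :
    Continuous fun a : EuclideanSpace ℝ (Fin n × (Fin d × Fin d)) =>
      coordsOf (shiftP e (matrixTuple a) i) := by
  refine continuous_coordsOf.comp ?_
  rcases h : e i with j | ⟨p, q, s⟩
  · simp only [shiftP_inl e _ i h]
    exact continuous_const
  · simp only [shiftP_inr e _ i h]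
    have hp := continuous_matrixTuple (n := n) (d := d) (e.symm (.inl p))
    have hq := continuous_matrixTuple (n := n) (d := d) (e.symm (.inl q))
    have hs := continuous_matrixTuple (n := n) (d := d) (e.symm (.inl s))
    exact ((hp.matrix_mul hq).matrix_mul hs).add ((hs.matrix_mul hq).matrix_mul hp)

end Crest.Agent.FE
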