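import Crest.Agent.FE.RepSD
import Crest.Agent.FE.MicroIncl
import Crest.Agent.FE.FisherUp

/-!
# Row 89, chunk H1: the numbers `b_i`

`words = wordsIX ∘ e`, `t = tt t0 ∘ e`, `X = XA words t`, `0 < t0 ≤ 1`.
* `e i = inl j`: `shiftP = 0`, `τ(X_i²) = τ((a_j + √t0 g)²) = 1 + t0` (`tau_word`, `mom`).
* `e i = inr w`: `X_i − Y_w(Z) = (Y_w(a) − Y_w(Z)) + g` with `g = gA (inr (inl i))` an own-noise letter
  that does not occur in `D := Y_w(a) − Y_w(Z)`, so `τ(gD) = τ(Dg) = 0`, `τ(g²) = 1` and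
  `τ((D+g)²) = 1 + τ(D²)`; `D` is selfadjoint, `0 ≤ τ(D²) ≤ ‖D‖²`.  With `Z_p = a_p + √t0 g_p`, `‖a_p‖ ≤ 2`,
  `‖Z_p‖ ≤ 4`, `‖Z_p − a_p‖ ≤ 2√t0`: `‖Z_pZ_qZ_s − a_pa_qa_s‖ ≤ 3·16·2√t0`, so `‖D‖ ≤ 192 √t0`,
  `‖D‖² ≤ 36864 t0`.
(`τ(gD) = 0`: `τ(gD) = ⟪g Ω, DΩ⟫ = ⟪rΩ, DΩ⟫ = ⟪Ω, r^*DΩ⟫ = ⟪Ω, D r^*Ω⟫ = 0`, because `r^*` for the letter `g`
commutes with all other letters: `FockRel.comm`; or by expanding into words and `mom` of a word in which
a letter occurs exactly once is 0.)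
-/

set_option autoImplicit false

namespace Crest.Agent.FE

open scoped InnerProductSpace ENNReal

/-- own-noise letter: `τ(g D) = 0` when the annihilation operator of the letter commutes with `D`. -/
theorem tau_noise_mul {I : Type} [DecidableEq I] (l : I) (D : FA I)
    (hD : ContinuousLinearMap.adjoint (rcr l) (rep I D vac) = 0) :
    tau I (gA l * D) = 0 := by
  rw [tau_sa_mul _ _ (gA_selfAdjoint _), rep_gA, (fockRel I).gΩ,
    ← ContinuousLinearMap.adjoint_inner_right, hD, inner_zero_right]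

/-- elements commuting with `r_l^*`. -/
def CommR {I : Type} (l : I) (D : FA I) : Prop :=
  ∀ v, ContinuousLinearMap.adjoint (rcr l) (rep I D v) = rep I D (ContinuousLinearMap.adjoint (rcr l) v)

theorem CommR.add {I : Type} {l : I} {D E : FA I} (h : CommR l D) (h' : CommR l E) :
    CommR l (D + E) := by
  intro v
  rw [map_add, ContinuousLinearMap.add_apply, map_add, h, h', ContinuousLinearMap.add_apply]

theorem CommR.sub {I : Type} {l : I} {D E : FA I} (h : CommR l D) (h' : CommR l E) :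
    CommR l (D - E) := by
  intro v
  rw [map_sub, ContinuousLinearMap.sub_apply, map_sub, h, h', ContinuousLinearMap.sub_apply]

theorem CommR.mul {I : Type} {l : I} {D E : FA I} (h : CommR l D) (h' : CommR l E) :
    CommR l (D * E) := by
  intro v
  rw [map_mul, ContinuousLinearMap.mul_apply, h, h', ContinuousLinearMap.mul_apply]

theorem CommR.smul {I : Type} {l : I} {D : FA I} (c : ℂ) (h : CommR l D) :
    CommR l (c • D) := by
  intro v
  rw [map_smul, ContinuousLinearMap.smul_apply, map_smul, h, ContinuousLinearMap.smul_apply]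

theorem commR_gA {I : Type} [DecidableEq I] {l l' : I} (h : l ≠ l') : CommR l (gA l') := by
  intro v
  rw [rep_gA, (fockRel I).comm, if_neg h, add_zero]

theorem CommR.tau_zero {I : Type} [DecidableEq I] {l : I} {D : FA I} (h : CommR l D) :
    tau I (gA l * D) = 0 := by
  refine tau_noise_mul l D ?_
  rw [h, (fockRel I).rΩ, map_zero]

theorem tau_gg {I : Type} [DecidableEq I] (l : I) : tau I (gA l * gA l) = 1 := by
  have := tau_word [l, l]
  simpa [mom] using this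

/-- `τ((D+g)²) = τ(D²) + 1`. -/
theorem tau_add_noise_sq {I : Type} [DecidableEq I] {l : I} {D : FA I} (h : CommR l D) (c : ℂ) :
    tau I ((D + c • gA l) * (D + c • gA l)) = tau I (D * D) + c ^ 2 := by
  have h1 := h.tau_zero
  have h2 : tau I (D * gA l) = 0 := by
    rw [(tau_faithfulTracial I).2.2.2, h1]
  have h3 : (D + c • gA l) * (D + c • gA l) =
      D * D + c • (D * gA l) + c • (gA l * D) + c ^ 2 • (gA l * gA l) := by
    rw [add_mul, mul_add, mul_add, mul_smul_comm, smul_mul_assoc, smul_mul_assoc, mul_smul_comm,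
      smul_smul, pow_two]
    abel
  rw [h3, map_add, map_add, map_add, map_smul, map_smul, map_smul, h1, h2, tau_gg]
  simp


theorem norm_prod3 {A : Type*} [NormedRing A] (a₁ a₂ a₃ z₁ z₂ z₃ : A) (δ : ℝ) (hδ : 0 ≤ δ)
    (ha₂ : ‖a₂‖ ≤ 4) (ha₃ : ‖a₃‖ ≤ 4) (hz₁ : ‖z₁‖ ≤ 4) (hz₂ : ‖z₂‖ ≤ 4)
    (h₁ : ‖a₁ - z₁‖ ≤ δ) (h₂ : ‖a₂ - z₂‖ ≤ δ) (h₃ : ‖a₃ - z₃‖ ≤ δ) :
    ‖a₁ * a₂ * a₃ - z₁ * z₂ * z₃‖ ≤ 48 * δ := by
  have e1 : a₁ * a₂ * a₃ - z₁ * z₂ * z₃ =
      (a₁ - z₁) * a₂ * a₃ + z₁ * (a₂ - z₂) * a₃ + z₁ * z₂ * (a₃ - z₃) := by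
    noncomm_ring
  rw [e1]
  have hm : ∀ x y z : A, ‖x * y * z‖ ≤ ‖x‖ * ‖y‖ * ‖z‖ := fun x y z =>
    (norm_mul_le _ _).trans (mul_le_mul_of_nonneg_right (norm_mul_le _ _) (norm_nonneg _))
  have b1 : ‖(a₁ - z₁) * a₂ * a₃‖ ≤ δ * 4 * 4 := (hm _ _ _).trans (by gcongr)
  have b2 : ‖z₁ * (a₂ - z₂) * a₃‖ ≤ 4 * δ * 4 := (hm _ _ _).trans (by gcongr)
  have b3 : ‖z₁ * z₂ * (a₃ - z₃)‖ ≤ 4 * 4 * δ := (hm _ _ _).trans (by gcongr)
  have := norm_add₃_le (a := (a₁ - z₁) * a₂ * a₃) (b := z₁ * (a₂ - z₂) * a₃)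
    (c := z₁ * z₂ * (a₃ - z₃))
  linarith

theorem bw_bound {k n : ℕ} (e : Fin n ≃ IX k) (t0 : ℝ) (ht0 : 0 < t0) (ht1 : t0 ≤ 1) (i : Fin n) :
    ∃ b : ℝ, tau (LT k n)
        ((XA (fun i => wordsIX (e i)) (fun i => tt t0 (e i)) i -
          shiftP e (XA (fun i => wordsIX (e i)) (fun i => tt t0 (e i))) i) *
        (XA (fun i => wordsIX (e i)) (fun i => tt t0 (e i)) i -
          shiftP e (XA (fun i => wordsIX (e i)) (fun i => tt t0 (e i))) i)) = (b : ℂ) ∧
      (∀ j, e i = Sum.inl j → b = 1 + t0) ∧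
      (∀ w, e i = Sum.inr w → 1 ≤ b ∧ b ≤ 1 + 36864 * t0) := by
  have hinl : ∀ (l : Fin n) (j : Fin k), e l = Sum.inl j →
      XA (fun i => wordsIX (e i)) (fun i => tt t0 (e i)) l =
        (gA (Sum.inl j) : FA (LT k n)) + ((Real.sqrt t0 : ℝ) : ℂ) • gA (Sum.inr (Sum.inl l)) := by
    intro l j h
    simp [XA, yA, h, wordsIX, evalWords, tt]
  rcases h : e i with j | ⟨p, q, s⟩
  · refine ⟨1 + t0, ?_, fun _ _ => rfl, fun w hw => by simp at hw⟩
    have h0 : shiftP e (XA (fun i => wordsIX (e i)) (fun i => tt t0 (e i))) i = 0 := by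
      simp [shiftP, h]
    rw [h0, sub_zero, hinl i j h, tau_add_noise_sq (commR_gA (by simp)), tau_gg,
      ← Complex.ofReal_pow, Real.sq_sqrt ht0.le]
    push_cast
    ring
  · set X : Fin n → FA (LT k n) := XA (fun i => wordsIX (e i)) (fun i => tt t0 (e i)) with hX
    set Z : Fin k → FA (LT k n) := fun p => X (e.symm (Sum.inl p)) with hZ
    set a : Fin k → FA (LT k n) := fun p => gA (Sum.inl p) with ha
    have hZeq : ∀ p, Z p = a p + ((Real.sqrt t0 : ℝ) : ℂ) •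
        (gA (Sum.inr (Sum.inl (e.symm (Sum.inl p)))) : FA (LT k n)) := by
      intro p
      exact hinl _ p (by simp)
    have hshift : shiftP e X i = Z p * Z q * Z s + Z s * Z q * Z p := by
      simp [shiftP, h, hZ]
    have hXi : X i = (a p * a q * a s + a s * a q * a p) +
        ((1 : ℂ)) • (gA (Sum.inr (Sum.inl i)) : FA (LT k n)) := by
      simp [hX, XA, yA, h, wordsIX, evalWords, tt, ha, mul_assoc]
    set D : FA (LT k n) := (a p * a q * a s + a s * a q * a p) -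
      (Z p * Z q * Z s + Z s * Z q * Z p) with hD
    have hsub : X i - shiftP e X i = D + ((1 : ℂ)) • gA (Sum.inr (Sum.inl i)) := by
      rw [hshift, hXi, hD]; abel
    have hca : ∀ p, CommR (Sum.inr (Sum.inl i)) (a p) := fun p => commR_gA (by simp)
    have hne : ∀ p, i ≠ e.symm (Sum.inl p) := by
      intro p hc
      rw [hc] at h
      simp at h
    have hcZ : ∀ p, CommR (Sum.inr (Sum.inl i)) (Z p) := fun p => by
      rw [hZeq]
      exact (hca p).add ((commR_gA (by simpa using hne p)).smul _)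
    have hcD : CommR (Sum.inr (Sum.inl i)) D :=
      ((((hca p).mul (hca q)).mul (hca s)).add (((hca s).mul (hca q)).mul (hca p))).sub
        ((((hcZ p).mul (hcZ q)).mul (hcZ s)).add (((hcZ s).mul (hcZ q)).mul (hcZ p)))
    have hasa : ∀ p, star (a p) = a p := fun p => (gA_selfAdjoint _).star_eq
    have hZsa : ∀ p, star (Z p) = Z p := fun p => by
      rw [hZeq, star_add, star_smul, hasa, (gA_selfAdjoint _).star_eq, RCLike.star_def,
        Complex.conj_ofReal]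
    have hDsa : IsSelfAdjoint D := by
      rw [isSelfAdjoint_iff, hD, star_sub, star_add, star_add, star_mul, star_mul, star_mul,
        star_mul, star_mul, star_mul, star_mul, star_mul]
      simp only [hasa, hZsa, mul_assoc]
      abel
    have hDD : tau (LT k n) (D * D) = ((‖rep (LT k n) D vac‖ ^ 2 : ℝ) : ℂ) := by
      rw [tau_sa_mul _ _ hDsa, inner_self_eq_norm_sq_to_K]
      push_cast
      rfl
    have hsq : 0 ≤ Real.sqrt t0 := Real.sqrt_nonneg _
    have hsq1 : Real.sqrt t0 ≤ 1 := by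
      rw [Real.sqrt_le_one]; exact ht1
    have hna : ∀ p, ‖a p‖ ≤ 2 := fun p => norm_gA_le _
    have hdiff : ∀ p, ‖a p - Z p‖ ≤ 2 * Real.sqrt t0 := by
      intro p
      rw [hZeq, sub_add_cancel_left, norm_neg, norm_smul, Complex.norm_real, Real.norm_eq_abs,
        abs_of_nonneg hsq, mul_comm]
      gcongr
      exact norm_gA_le _
    have hnZ : ∀ p, ‖Z p‖ ≤ 4 := by
      intro p
      have h1 := hdiff p
      have h2 := hna p
      have h3 : ‖Z p‖ ≤ ‖a p‖ + ‖a p - Z p‖ := by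
        have := norm_sub_le (a p) (a p - Z p)
        rwa [sub_sub_cancel] at this
      linarith
    have hna4 : ∀ p, ‖a p‖ ≤ 4 := fun p => (hna p).trans (by norm_num)
    have hnD : ‖D‖ ≤ 192 * Real.sqrt t0 := by
      have e1 : D = (a p * a q * a s - Z p * Z q * Z s) + (a s * a q * a p - Z s * Z q * Z p) := by
        rw [hD]; abel
      rw [e1]
      have b1 := norm_prod3 (a p) (a q) (a s) (Z p) (Z q) (Z s) (2 * Real.sqrt t0) (by positivity)
        (hna4 q) (hna4 s) (hnZ p) (hnZ q) (hdiff p) (hdiff q) (hdiff s)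
      have b2 := norm_prod3 (a s) (a q) (a p) (Z s) (Z q) (Z p) (2 * Real.sqrt t0) (by positivity)
        (hna4 q) (hna4 p) (hnZ s) (hnZ q) (hdiff s) (hdiff q) (hdiff p)
      have := norm_add_le (a p * a q * a s - Z p * Z q * Z s) (a s * a q * a p - Z s * Z q * Z p)
      linarith
    have hvac : ‖(vac : HF (LT k n))‖ = 1 := (fockRel (LT k n)).normΩ
    have hle : ‖rep (LT k n) D vac‖ ≤ 192 * Real.sqrt t0 := by
      refine ((rep (LT k n) D).le_opNorm vac).trans ?_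
      rw [hvac, mul_one]
      exact hnD
    have hle2 : ‖rep (LT k n) D vac‖ ^ 2 ≤ 36864 * t0 := by
      calc ‖rep (LT k n) D vac‖ ^ 2 ≤ (192 * Real.sqrt t0) ^ 2 :=
            pow_le_pow_left₀ (norm_nonneg _) hle 2
        _ = 36864 * t0 := by rw [mul_pow, Real.sq_sqrt ht0.le]; norm_num
    refine ⟨‖rep (LT k n) D vac‖ ^ 2 + 1, ?_, fun j hj => by simp at hj, fun w _ => ⟨?_, ?_⟩⟩
    · rw [hsub, tau_add_noise_sq hcD, hDD]
      push_cast
      ring
    · have := sq_nonneg ‖rep (LT k n) D vac‖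
      linarith
    · linarith

end Crest.Agent.FE
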