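import Crest.Agent.FE.GueGood

/-!
# Row 89, chunk G6: `χ(X) > −∞`

`X_i = evalWords a (words i) + √t_i b_i` where the joint moments of `(a,b)` are those of free
semicirculars (`mom`).
PROOF.  Let `R` bound `Σ_{w ∈ words i} 8^{|w|} + 8 √t_i` for all `i`.  Fix `m, ε`.  There are
polynomials (elements of `MonoidAlgebra ℂ (FreeMonoid (Fin k ⊕ Fin n))`) `f_P`, `|P| ≤ m`, with
`wordEval X P = lift (a,b) f_P` in every algebra; so if all words in a big finite set `W` have
`|tr_d(w(A,B)) − mom w| < δ` with `δ` small (depending on the coefficients of the `f_P`), then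
`|matrixMoment (X(A,B)) P − τ(X_P)| < ε` for all `|P| ≤ m`.  Use `gue_good` with `W`, `δ`: for large `d`
there is `A` (coordinates `a`) such that the set `𝒢` of coordinates `b` has
`vol ≥ ½ (2π/d)^{n d²/2}`; the affine map `b ↦ coordinates of (y_i(A) + √t_i B_i)_i =
(coordsOf (y_i(A)) + √t_i b_i)_i` maps `𝒢` into `Γ_R(X; m, d, ε)` and multiplies volumes by
`Π_i t_i^{d²/2}` (determinant of a diagonal linear map: `Measure.addHaar_image_linearMap`).  Hence
`d⁻² log vol Γ + (n/2) log d ≥ −d⁻² log 2 + (n/2) log (2π) + (1/2) Σ log t_i ≥ −C` with `C` independent of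
`m, ε`.  So `chiCutoff τ X R ≥ −C` and `chi ≥ −C > ⊥`.
-/

set_option autoImplicit false

namespace Crest.Agent.FE

open MeasureTheory ProbabilityTheory Filter Topology Crest.OpAlg

namespace CL

/-! ### Expansion of words in the `X_i` -/

/-- Evaluation of a list of coefficients and words. -/
def ev {A J : Type*} [Ring A] [Algebra ℂ A] (f : J → A) (L : List (ℂ × List J)) : A :=
  (L.map fun p => p.1 • (p.2.map f).prod).sum

/-- Formal product. -/
noncomputable def fmul {J : Type*} (L L' : List (ℂ × List J)) : List (ℂ × List J) :=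
  L.flatMap fun p => L'.map fun q => (p.1 * q.1, p.2 ++ q.2)

theorem ev_nil {A J : Type*} [Ring A] [Algebra ℂ A] (f : J → A) : ev f [] = 0 := rfl

theorem ev_cons {A J : Type*} [Ring A] [Algebra ℂ A] (f : J → A) (p : ℂ × List J)
    (L : List (ℂ × List J)) : ev f (p :: L) = p.1 • (p.2.map f).prod + ev f L := by
  simp [ev]

theorem ev_append {A J : Type*} [Ring A] [Algebra ℂ A] (f : J → A)
    (L L' : List (ℂ × List J)) : ev f (L ++ L') = ev f L + ev f L' := by
  simp [ev]

theorem ev_scale {A J : Type*} [Ring A] [Algebra ℂ A] (f : J → A) (p : ℂ × List J)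
    (L : List (ℂ × List J)) :
    ev f (L.map fun q => (p.1 * q.1, p.2 ++ q.2)) = (p.1 • (p.2.map f).prod) * ev f L := by
  induction L with
  | nil => simp [ev]
  | cons q L ih =>
    rw [List.map_cons, ev_cons, ih, ev_cons, mul_add]
    congr 1
    simp only [List.map_append, List.prod_append]
    rw [smul_mul_assoc, mul_smul_comm, smul_smul]

theorem ev_fmul {A J : Type*} [Ring A] [Algebra ℂ A] (f : J → A)
    (L L' : List (ℂ × List J)) : ev f (fmul L L') = ev f L * ev f L' := by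
  induction L with
  | nil => simp [fmul, ev]
  | cons p L ih =>
    have e : fmul (p :: L) L' = (L'.map fun q => (p.1 * q.1, p.2 ++ q.2)) ++ fmul L L' := by
      simp [fmul]
    rw [e, ev_append, ev_scale, ih, ev_cons, add_mul]

/-- The expansion of `X_i`. -/
noncomputable def xi {k n : ℕ} (words : Fin n → List (List (Fin k))) (s : Fin n → ℝ)
    (i : Fin n) : List (ℂ × List (Fin k ⊕ Fin n)) :=
  ((words i).map fun w => ((1 : ℂ), w.map Sum.inl)) ++ [((s i : ℂ), [Sum.inr i])]

/-- The expansion of a word in the `X_i`. -/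
noncomputable def xp {k n : ℕ} (words : Fin n → List (List (Fin k))) (s : Fin n → ℝ) :
    List (Fin n) → List (ℂ × List (Fin k ⊕ Fin n))
  | [] => [(1, [])]
  | i :: P => fmul (xi words s i) (xp words s P)

theorem ev_xi {A : Type*} [Ring A] [Algebra ℂ A] {k n : ℕ} (a : Fin k → A) (b : Fin n → A)
    (words : Fin n → List (List (Fin k))) (s : Fin n → ℝ) (i : Fin n) :
    ev (Sum.elim a b) (xi words s i) = evalWords a (words i) + (s i : ℂ) • b i := by
  rw [xi, ev_append]
  congr 1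
  · simp [ev, evalWords, Function.comp_def]
  · simp [ev]

theorem ev_xp {A : Type*} [Ring A] [Algebra ℂ A] {k n : ℕ} (a : Fin k → A) (b : Fin n → A)
    (words : Fin n → List (List (Fin k))) (s : Fin n → ℝ) (P : List (Fin n)) :
    ev (Sum.elim a b) (xp words s P) =
      (P.map fun i => evalWords a (words i) + (s i : ℂ) • b i).prod := by
  induction P with
  | nil => simp [xp, ev]
  | cons i P ih =>
    rw [xp, ev_fmul, ih, ev_xi, List.map_cons, List.prod_cons]

theorem map_ev {A J : Type*} [Ring A] [Algebra ℂ A] (φ : A →ₗ[ℂ] ℂ) (f : J → A)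
    (L : List (ℂ × List J)) :
    φ (ev f L) = (L.map fun p => p.1 * φ ((p.2.map f).prod)).sum := by
  induction L with
  | nil => simp [ev]
  | cons p L ih => rw [ev_cons, map_add, map_smul, ih]; simp

theorem list_bound {J : Type*} (f g : List J → ℂ) (δ : ℝ) (L : List (ℂ × List J))
    (h : ∀ p ∈ L, ‖f p.2 - g p.2‖ ≤ δ) :
    ‖(L.map fun p => p.1 * f p.2).sum - (L.map fun p => p.1 * g p.2).sum‖ ≤
      (L.map fun p => ‖p.1‖).sum * δ := by
  induction L with
  | nil => simp
  | cons p L ih =>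
    have h1 := h p (by simp)
    have h2 := ih (fun q hq => h q (by simp [hq]))
    simp only [List.map_cons, List.sum_cons]
    calc _ = ‖p.1 * (f p.2 - g p.2) + ((L.map fun p => p.1 * f p.2).sum -
            (L.map fun p => p.1 * g p.2).sum)‖ := by congr 1; ring
      _ ≤ ‖p.1 * (f p.2 - g p.2)‖ + _ := norm_add_le _ _
      _ ≤ ‖p.1‖ * δ + (L.map fun p => ‖p.1‖).sum * δ := by
        refine add_le_add ?_ h2
        rw [norm_mul]
        exact mul_le_mul_of_nonneg_left h1 (norm_nonneg _)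
      _ = _ := by ring

/-! ### Norm bounds -/

/-- The norm bound. -/
noncomputable def Rbd {k n : ℕ} (words : Fin n → List (List (Fin k))) (s : Fin n → ℝ)
    (i : Fin n) : ℝ :=
  ((words i).map fun w => (8 : ℝ) ^ w.length).sum + 8 * s i

theorem norm_word {d : ℕ} {J : Type*} (M : J → Matrix (Fin d) (Fin d) ℂ)
    (hM : ∀ j, ‖Matrix.toEuclideanCLM (n := Fin d) (𝕜 := ℂ) (M j)‖ ≤ 8) (w : List J) :
    ‖Matrix.toEuclideanCLM (n := Fin d) (𝕜 := ℂ) ((w.map M).prod)‖ ≤ 8 ^ w.length := by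
  induction w with
  | nil =>
    simp only [List.map_nil, List.prod_nil, List.length_nil, pow_zero, map_one]
    exact ContinuousLinearMap.norm_id_le
  | cons j w ih =>
    rw [List.map_cons, List.prod_cons, map_mul, List.length_cons, pow_succ']
    exact (norm_mul_le _ _).trans (mul_le_mul (hM j) ih (norm_nonneg _) (by norm_num))

theorem norm_evalWords {d k : ℕ} (M : Fin k → Matrix (Fin d) (Fin d) ℂ)
    (hM : ∀ j, ‖Matrix.toEuclideanCLM (n := Fin d) (𝕜 := ℂ) (M j)‖ ≤ 8)
    (ws : List (List (Fin k))) :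
    ‖Matrix.toEuclideanCLM (n := Fin d) (𝕜 := ℂ) (evalWords M ws)‖ ≤
      (ws.map fun w => (8 : ℝ) ^ w.length).sum := by
  unfold evalWords
  induction ws with
  | nil => simp
  | cons w ws ih =>
    rw [List.map_cons, List.sum_cons, map_add, List.map_cons, List.sum_cons]
    exact (norm_add_le _ _).trans (add_le_add (norm_word M hM w) ih)

/-! ### The affine map -/

/-- The diagonal linear map. -/
noncomputable def dmap {n d : ℕ} (s : Fin n → ℝ) :
    EuclideanSpace ℝ (Fin n × (Fin d × Fin d)) →ₗ[ℝ] EuclideanSpace ℝ (Fin n × (Fin d × Fin d)) :=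
  Matrix.toLin (EuclideanSpace.basisFun (Fin n × (Fin d × Fin d)) ℝ).toBasis
    (EuclideanSpace.basisFun (Fin n × (Fin d × Fin d)) ℝ).toBasis
    (Matrix.diagonal fun p => s p.1)

theorem dmap_apply {n d : ℕ} (s : Fin n → ℝ) (b : EuclideanSpace ℝ (Fin n × (Fin d × Fin d)))
    (p : Fin n × (Fin d × Fin d)) : (dmap s b) p = s p.1 * b p := by
  classical
  rw [dmap, Matrix.toLin_apply]
  have e : ∀ j, (Matrix.diagonal (fun p : Fin n × (Fin d × Fin d) => s p.1)).mulVec
      (⇑((EuclideanSpace.basisFun (Fin n × (Fin d × Fin d)) ℝ).toBasis.repr b)) j =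
      s j.1 * b j := by
    intro j
    rw [Matrix.mulVec_diagonal]
    simp
  simp only [e, OrthonormalBasis.coe_toBasis, EuclideanSpace.basisFun_apply]
  rw [WithLp.ofLp_sum, Finset.sum_apply, Finset.sum_eq_single p]
  · simp
  · intro q _ hq
    simp [Ne.symm hq]
  · intro h
    exact absurd (Finset.mem_univ _) h

theorem det_dmap {n d : ℕ} (s : Fin n → ℝ) :
    LinearMap.det (dmap (d := d) s) = ∏ i, s i ^ (d ^ 2) := by
  rw [dmap, LinearMap.det_toLin, Matrix.det_diagonal, Fintype.prod_prod_type]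
  refine Finset.prod_congr rfl (fun i _ => ?_)
  simp [sq]

theorem volume_affine {n d : ℕ} (s : Fin n → ℝ)
    (c : EuclideanSpace ℝ (Fin n × (Fin d × Fin d)))
    (S : Set (EuclideanSpace ℝ (Fin n × (Fin d × Fin d)))) :
    volume ((fun b => c + dmap s b) '' S) =
      ENNReal.ofReal |∏ i, s i ^ (d ^ 2)| * volume S := by
  have e : (fun b => c + dmap s b) '' S = (fun b => c + b) '' (dmap s '' S) := by
    rw [Set.image_image]
  rw [e, ← det_dmap, ← Measure.addHaar_image_linearMap]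
  simp

theorem matrixTuple_affine {n d : ℕ} (s : Fin n → ℝ) (Y : Fin n → Matrix (Fin d) (Fin d) ℂ)
    (hY : ∀ i, (Y i).IsHermitian) (b : EuclideanSpace ℝ (Fin n × (Fin d × Fin d))) (i : Fin n) :
    matrixTuple (WithLp.toLp 2 (fun p : Fin n × (Fin d × Fin d) => coordsOf (Y p.1) p.2)
      + dmap s b) i = Y i + (s i : ℂ) • matrixTuple b i := by
  have e : (WithLp.toLp 2 fun p => (WithLp.toLp 2
      (fun p : Fin n × (Fin d × Fin d) => coordsOf (Y p.1) p.2) + dmap s b) (i, p)) =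
      coordsOf (Y i) + s i • (WithLp.toLp 2 fun p => b (i, p)) := by
    ext p
    simp [dmap_apply]
  unfold matrixTuple
  rw [e, hermitianOfCoords_add, hermitianOfCoords_smul, hermitianOfCoords_coordsOf _ (hY i)]

theorem matrixMoment_eq {n d : ℕ} (M : Fin n → Matrix (Fin d) (Fin d) ℂ)
    (w : FreeMonoid (Fin n)) :
    matrixMoment M w = (d : ℂ)⁻¹ * Matrix.trace (((FreeMonoid.toList w).map M).prod) := by
  unfold matrixMoment wordEval
  rw [FreeMonoid.lift_apply]

/-- The normalised trace as a linear map. -/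
noncomputable def ntr (d : ℕ) : Matrix (Fin d) (Fin d) ℂ →ₗ[ℂ] ℂ :=
  (d : ℂ)⁻¹ • Matrix.traceLinearMap (Fin d) ℂ ℂ

theorem ntr_apply (d : ℕ) (M : Matrix (Fin d) (Fin d) ℂ) :
    ntr d M = (d : ℂ)⁻¹ * Matrix.trace M := by
  simp [ntr]

/-- Closeness of the moments of `(A,B)` implies closeness of the moments of the `X_i`. -/
theorem exists_W {A : Type*} [Ring A] [Algebra ℂ A] (τ : A →ₗ[ℂ] ℂ) {k n : ℕ}
    (a : Fin k → A) (b : Fin n → A)
    (hmom : ∀ w : List (Fin k ⊕ Fin n), τ ((w.map (Sum.elim a b)).prod) = (mom w : ℂ))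
    (words : Fin n → List (List (Fin k))) (s : Fin n → ℝ) (m : ℕ) (ε : ℝ) (hε : 0 < ε) :
    ∃ (W : Finset (List (Fin k ⊕ Fin n))) (δ : ℝ), 0 < δ ∧
      ∀ (d : ℕ) (MA : Fin k → Matrix (Fin d) (Fin d) ℂ) (MB : Fin n → Matrix (Fin d) (Fin d) ℂ),
        (∀ w ∈ W, ‖(d : ℂ)⁻¹ * Matrix.trace ((w.map (Sum.elim MA MB)).prod) - (mom w : ℂ)‖ < δ) →
        ∀ w : FreeMonoid (Fin n), (FreeMonoid.toList w).length ≤ m →
          ‖matrixMoment (fun i => evalWords MA (words i) + (s i : ℂ) • MB i) w -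
            τ (wordEval (fun i => evalWords a (words i) + (s i : ℂ) • b i) w)‖ < ε := by
  classical
  set Ps : Finset (List (Fin n)) := (List.finite_length_le (Fin n) m).toFinset with hPs
  set Cf : List (Fin n) → ℝ := fun P => ((xp words s P).map fun p => ‖p.1‖).sum with hCf
  have hCf0 : ∀ P, 0 ≤ Cf P := fun P => List.sum_nonneg (fun x hx => by
    obtain ⟨p, _, rfl⟩ := List.mem_map.1 hx
    exact norm_nonneg _)
  set Ct : ℝ := 1 + ∑ P ∈ Ps, Cf P with hCt
  have hCt0 : 0 < Ct := by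
    have : 0 ≤ ∑ P ∈ Ps, Cf P := Finset.sum_nonneg (fun P _ => hCf0 P)
    linarith
  refine ⟨Ps.biUnion fun P => ((xp words s P).map fun p => p.2).toFinset, ε / Ct,
    div_pos hε hCt0, ?_⟩
  intro d MA MB hW w hw
  have hwP : FreeMonoid.toList w ∈ Ps := by
    rw [hPs, Set.Finite.mem_toFinset]
    exact hw
  have e1 : matrixMoment (fun i => evalWords MA (words i) + (s i : ℂ) • MB i) w =
      ((xp words s (FreeMonoid.toList w)).map fun p => p.1 *
        (fun v => ntr d ((v.map (Sum.elim MA MB)).prod)) p.2).sum := by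
    rw [matrixMoment_eq, ← ntr_apply, ← ev_xp MA MB words s, map_ev]
  have e2 : τ (wordEval (fun i => evalWords a (words i) + (s i : ℂ) • b i) w) =
      ((xp words s (FreeMonoid.toList w)).map fun p => p.1 *
        (fun v => ((mom v : ℝ) : ℂ)) p.2).sum := by
    rw [wordEval, FreeMonoid.lift_apply, ← ev_xp a b words s, map_ev]
    simp only [hmom]
  rw [e1, e2]
  have h := list_bound (fun v => ntr d ((v.map (Sum.elim MA MB)).prod))
    (fun v => ((mom v : ℝ) : ℂ)) (ε / Ct) (xp words s (FreeMonoid.toList w)) (by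
      intro p hp
      simp only [ntr_apply]
      refine (hW p.2 ?_).le
      rw [Finset.mem_biUnion]
      exact ⟨_, hwP, List.mem_toFinset.2 (List.mem_map.2 ⟨p, hp, rfl⟩)⟩)
  refine lt_of_le_of_lt h ?_
  have h2 : Cf (FreeMonoid.toList w) ≤ ∑ P ∈ Ps, Cf P :=
    Finset.single_le_sum (fun P _ => hCf0 P) hwP
  have h3 : Cf (FreeMonoid.toList w) < Ct := by rw [hCt]; linarith
  calc Cf (FreeMonoid.toList w) * (ε / Ct) < Ct * (ε / Ct) :=
        mul_lt_mul_of_pos_right h3 (div_pos hε hCt0)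
    _ = ε := by field_simp

end CL

theorem chi_gt_bot {A : Type*} [Ring A] [Algebra ℂ A] (τ : A →ₗ[ℂ] ℂ) {k n : ℕ}
    (a : Fin k → A) (b : Fin n → A)
    (hmom : ∀ w : List (Fin k ⊕ Fin n), τ ((w.map (Sum.elim a b)).prod) = (mom w : ℂ))
    (words : Fin n → List (List (Fin k)))
    (hsa : ∀ (d : ℕ) (M : Fin k → Matrix (Fin d) (Fin d) ℂ), (∀ j, (M j).IsHermitian) →
      ∀ i, (evalWords M (words i)).IsHermitian)
    (t : Fin n → ℝ) (ht : ∀ i, 0 < t i) :
    ⊥ < chi τ (fun i => evalWords a (words i) + ((Real.sqrt (t i) : ℝ) : ℂ) • b i) := by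
  set s : Fin n → ℝ := fun i => Real.sqrt (t i) with hs
  have hs0 : ∀ i, 0 < s i := fun i => Real.sqrt_pos.2 (ht i)
  set R : ℝ := 1 + ∑ i, CL.Rbd words s i with hR
  have hRb0 : ∀ i, 0 ≤ CL.Rbd words s i := by
    intro i
    refine add_nonneg (List.sum_nonneg (fun x hx => ?_)) (mul_nonneg (by norm_num) (hs0 i).le)
    obtain ⟨w, _, rfl⟩ := List.mem_map.1 hx
    positivity
  have hR0 : 0 < R := by
    have : 0 ≤ ∑ i, CL.Rbd words s i := Finset.sum_nonneg (fun i _ => hRb0 i)
    linarith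
  have hRi : ∀ i, CL.Rbd words s i ≤ R := by
    intro i
    have := Finset.single_le_sum (f := CL.Rbd words s) (fun j _ => hRb0 j) (Finset.mem_univ i)
    linarith
  -- the constant
  set C : ℝ := - Real.log 2 + (n : ℝ) / 2 * Real.log (2 * Real.pi) + ∑ i, Real.log (s i) with hC
  refine lt_of_lt_of_le (EReal.bot_lt_coe C) ?_
  unfold chi
  refine le_iSup₂_of_le R hR0 ?_
  unfold chiCutoff
  refine le_iInf fun m => le_iInf fun ε => le_iInf fun hε => ?_
  refine le_limsup_of_frequently_le' (Eventually.frequently ?_)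
  obtain ⟨W, δ, hδ, hW⟩ := CL.exists_W τ a b hmom words s m ε hε
  filter_upwards [gue_good k n W δ hδ, eventually_ge_atTop 1] with d hd hd1
  obtain ⟨ca, hca⟩ := hd
  have hAherm : ∀ j, (matrixTuple ca j).IsHermitian := fun j => hermitianOfCoords_isHermitian _
  have hYherm := hsa d (matrixTuple ca) hAherm
  by_cases hA8 : ∀ j, ‖Matrix.toEuclideanCLM (n := Fin d) (𝕜 := ℂ) (matrixTuple ca j)‖ ≤ 8
  swap
  · -- impossible
    exfalso
    have he : {b : EuclideanSpace ℝ (Fin n × (Fin d × Fin d)) |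
          (∀ j, ‖Matrix.toEuclideanCLM (n := Fin d) (𝕜 := ℂ) (matrixTuple ca j)‖ ≤ 8) ∧
          (∀ i, ‖Matrix.toEuclideanCLM (n := Fin d) (𝕜 := ℂ) (matrixTuple b i)‖ ≤ 8) ∧
          ∀ w ∈ W, ‖(d : ℂ)⁻¹ * Matrix.trace
            ((w.map (Sum.elim (matrixTuple ca) (matrixTuple b))).prod) - (mom w : ℂ)‖ < δ} = ∅ := by
      ext b
      simp only [Set.mem_ofPred_eq, Set.mem_empty_iff_false, iff_false]
      exact fun h => hA8 h.1
    rw [he, measure_empty] at hca
    have h1 : (0 : ℝ) < 1 / 2 * Real.exp ((n : ℝ) * d ^ 2 / 2 * Real.log (2 * Real.pi / d)) := by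
      positivity
    exact absurd (ENNReal.ofReal_pos.2 h1) (not_lt.2 hca)
  -- the inclusion
  set G : Set (EuclideanSpace ℝ (Fin n × (Fin d × Fin d))) :=
    {b : EuclideanSpace ℝ (Fin n × (Fin d × Fin d)) |
          (∀ j, ‖Matrix.toEuclideanCLM (n := Fin d) (𝕜 := ℂ) (matrixTuple ca j)‖ ≤ 8) ∧
          (∀ i, ‖Matrix.toEuclideanCLM (n := Fin d) (𝕜 := ℂ) (matrixTuple b i)‖ ≤ 8) ∧
          ∀ w ∈ W, ‖(d : ℂ)⁻¹ * Matrix.trace
            ((w.map (Sum.elim (matrixTuple ca) (matrixTuple b))).prod) - (mom w : ℂ)‖ < δ} with hG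
  set c : EuclideanSpace ℝ (Fin n × (Fin d × Fin d)) :=
    WithLp.toLp 2 (fun p : Fin n × (Fin d × Fin d) =>
      coordsOf (evalWords (matrixTuple ca) (words p.1)) p.2) with hc
  have hincl : (fun b => c + CL.dmap s b) '' G ⊆
      microstates τ (fun i => evalWords a (words i) + ((Real.sqrt (t i) : ℝ) : ℂ) • b i) R m d ε := by
    rintro _ ⟨b', hb', rfl⟩
    have hM : matrixTuple (c + CL.dmap s b') =
        fun i => evalWords (matrixTuple ca) (words i) + (s i : ℂ) • matrixTuple b' i := by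
      funext i
      exact CL.matrixTuple_affine s (fun i => evalWords (matrixTuple ca) (words i)) hYherm b' i
    refine ⟨?_, ?_⟩
    · intro i
      rw [hM]
      simp only
      rw [map_add, map_smul]
      refine (norm_add_le _ _).trans (le_trans (add_le_add
        (CL.norm_evalWords (matrixTuple ca) hA8 (words i)) ?_) (hRi i))
      rw [norm_smul]
      have h1 : ‖((s i : ℝ) : ℂ)‖ = s i := by
        rw [Complex.norm_real, Real.norm_eq_abs, abs_of_pos (hs0 i)]
      rw [h1, mul_comm]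
      exact mul_le_mul_of_nonneg_right (hb'.2.1 i) (hs0 i).le
    · intro w hw
      rw [hM]
      exact hW d (matrixTuple ca) (matrixTuple b') hb'.2.2 w hw
  have hvol := measure_mono (μ := volume) hincl
  rw [CL.volume_affine] at hvol
  have hprod : 0 < ∏ i, s i ^ (d ^ 2) := Finset.prod_pos (fun i _ => pow_pos (hs0 i) _)
  rw [abs_of_pos hprod] at hvol
  have hdR : (0 : ℝ) < d := by exact_mod_cast hd1
  have hx : (0 : ℝ) < 1 / 2 * Real.exp ((n : ℝ) * d ^ 2 / 2 * Real.log (2 * Real.pi / d)) := by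
    positivity
  have hvol2 : ENNReal.ofReal ((∏ i, s i ^ (d ^ 2)) *
      (1 / 2 * Real.exp ((n : ℝ) * d ^ 2 / 2 * Real.log (2 * Real.pi / d)))) ≤
      volume (microstates τ (fun i => evalWords a (words i) +
        ((Real.sqrt (t i) : ℝ) : ℂ) • b i) R m d ε) := by
    rw [ENNReal.ofReal_mul hprod.le]
    exact le_trans (mul_le_mul_right hca _) hvol
  have hlog := ENNReal.log_le_log hvol2
  rw [ENNReal.log_ofReal_of_pos (mul_pos hprod hx)] at hlog
  have hlogval : Real.log ((∏ i, s i ^ (d ^ 2)) *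
      (1 / 2 * Real.exp ((n : ℝ) * d ^ 2 / 2 * Real.log (2 * Real.pi / d)))) =
      (d : ℝ) ^ 2 * (∑ i, Real.log (s i)) + (- Real.log 2 +
        (n : ℝ) * d ^ 2 / 2 * (Real.log (2 * Real.pi) - Real.log d)) := by
    rw [Real.log_mul hprod.ne' hx.ne', Real.log_mul (by norm_num) (Real.exp_pos _).ne',
      Real.log_exp, Real.log_prod (fun i _ => (pow_pos (hs0 i) _).ne'),
      Real.log_div (by positivity) hdR.ne', one_div, Real.log_inv]
    congr 1
    rw [Finset.mul_sum]
    refine Finset.sum_congr rfl (fun i _ => ?_)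
    rw [Real.log_pow]
    push_cast
    ring
  rw [hlogval] at hlog
  have hmul : ((((((d : ℝ) ^ 2)⁻¹ : ℝ) * ((d : ℝ) ^ 2 * (∑ i, Real.log (s i)) + (- Real.log 2 +
        (n : ℝ) * d ^ 2 / 2 * (Real.log (2 * Real.pi) - Real.log d)))) : ℝ) : EReal) ≤
      ((((d : ℝ) ^ 2)⁻¹ : ℝ) : EReal) * (volume (microstates τ (fun i => evalWords a (words i) +
        ((Real.sqrt (t i) : ℝ) : ℂ) • b i) R m d ε)).log := by
    rw [EReal.coe_mul]
    exact mul_le_mul_of_nonneg_left hlog (by exact_mod_cast (by positivity))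
  have hfin : (C : EReal) ≤ ((((((d : ℝ) ^ 2)⁻¹ : ℝ) * ((d : ℝ) ^ 2 * (∑ i, Real.log (s i)) +
      (- Real.log 2 + (n : ℝ) * d ^ 2 / 2 * (Real.log (2 * Real.pi) - Real.log d)))) : ℝ) : EReal) +
      (((n : ℝ) / 2 * Real.log d : ℝ) : EReal) := by
    rw [← EReal.coe_add, EReal.coe_le_coe_iff, hC]
    have hd2 : (1 : ℝ) ≤ (d : ℝ) ^ 2 := by
      have : (1 : ℝ) ≤ d := by exact_mod_cast hd1
      nlinarith
    have hl2 : 0 ≤ Real.log 2 := Real.log_nonneg (by norm_num)
    have e : (((d : ℝ) ^ 2)⁻¹) * ((d : ℝ) ^ 2 * (∑ i, Real.log (s i)) + (- Real.log 2 +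
        (n : ℝ) * d ^ 2 / 2 * (Real.log (2 * Real.pi) - Real.log d))) =
        (∑ i, Real.log (s i)) - Real.log 2 * ((d : ℝ) ^ 2)⁻¹ +
          (n : ℝ) / 2 * (Real.log (2 * Real.pi) - Real.log d) := by
      field_simp
      ring
    rw [e]
    have h3 : Real.log 2 * ((d : ℝ) ^ 2)⁻¹ ≤ Real.log 2 :=
      mul_le_of_le_one_right hl2 (inv_le_one_of_one_le₀ hd2)
    linarith
  exact hfin.trans (add_le_add hmul le_rfl)

end Crest.Agent.FE
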