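import Mathlib

/-!
# Row 89, chunk E: the integral (pure real analysis, no other file needed)

`F : ℝ → ℝ` measurable with `Σ 1/(t_i+s+v_i) ≤ F s ≤ Σ 1/(t_i+s)` for `s > 0` and
`F s ≤ Σ 1/(t_i+s) − r/(1+s)²` for `s ≥ T > 0`.  Then `n/(1+s) − F s` is integrable on `(0,∞)` with
integral `≥ Σ log t_i + r/(1+T)`.

PROOF.  `1/(1+s) − 1/(t+s) = (t−1)/((1+s)(t+s))` is integrable on `(0,∞)` (for `t > 0`) with integral
`[log ((1+s)/(t+s))]_0^∞ = log t` (`integral_Ioi_of_hasDerivAt_of_tendsto` /
`integrableOn_Ioi_deriv_of_nonneg'` …, or `integrableOn_Ioi_deriv_of_nonpos`).  The integrand lies between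
`Σ (1/(1+s) − 1/(t_i+s))` and `Σ (1/(1+s) − 1/(t_i+v_i+s))`: integrable by domination.  Lower bound:
the integrand is `≥ Σ (1/(1+s) − 1/(t_i+s)) + 1_{s ≥ T} r/(1+s)²`, `∫_T^∞ r/(1+s)² = r/(1+T)`.
-/

set_option autoImplicit false

namespace Crest.Agent.FE

open MeasureTheory Filter Topology

private lemma logDiff_tendsto (t : ℝ) (ht : 0 < t) :
    Tendsto (fun s : ℝ => Real.log (1 + s) - Real.log (t + s)) atTop (𝓝 0) := by
  have h1 : Tendsto (fun s : ℝ => (1 - t) / (t + s)) atTop (𝓝 0) :=
    Tendsto.const_div_atTop (tendsto_atTop_add_const_left _ t tendsto_id) _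
  have h2 : Tendsto (fun s : ℝ => Real.log (1 + (1 - t) / (t + s))) atTop (𝓝 (Real.log (1 + 0))) := by
    refine (Real.continuousAt_log (by norm_num)).tendsto.comp (h1.const_add 1)
  rw [add_zero, Real.log_one] at h2
  refine h2.congr' ?_
  filter_upwards [eventually_gt_atTop 0] with s hs
  have h3 : 1 + (1 - t) / (t + s) = (1 + s) / (t + s) := by
    field_simp
    ring
  rw [h3, Real.log_div (by positivity) (by positivity)]

private lemma logDiff_deriv (t : ℝ) (ht : 0 < t) (s : ℝ) (hs : 0 ≤ s) :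
    HasDerivAt (fun s : ℝ => Real.log (1 + s) - Real.log (t + s)) (1 / (1 + s) - 1 / (t + s)) s := by
  have h1 : HasDerivAt (fun s : ℝ => (1 : ℝ) + s) 1 s := (hasDerivAt_id s).const_add 1
  have h2 : HasDerivAt (fun s : ℝ => t + s) 1 s := (hasDerivAt_id s).const_add t
  exact (h1.log (by positivity)).sub (h2.log (by positivity))

private lemma logDiff_int (t : ℝ) (ht : 0 < t) :
    IntegrableOn (fun s : ℝ => 1 / (1 + s) - 1 / (t + s)) (Set.Ioi 0) := by
  rcases le_total 1 t with h | h
  · refine integrableOn_Ioi_deriv_of_nonneg' (g := fun s : ℝ => Real.log (1 + s) - Real.log (t + s))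
      (fun s hs => logDiff_deriv t ht s hs) (fun s hs => ?_) (logDiff_tendsto t ht)
    have hs' : (0:ℝ) < s := hs
    rw [sub_nonneg]
    exact one_div_le_one_div_of_le (by linarith) (by linarith)
  · refine integrableOn_Ioi_deriv_of_nonpos' (g := fun s : ℝ => Real.log (1 + s) - Real.log (t + s))
      (fun s hs => logDiff_deriv t ht s hs) (fun s hs => ?_) (logDiff_tendsto t ht)
    have hs' : (0:ℝ) < s := hs
    rw [sub_nonpos]
    exact one_div_le_one_div_of_le (by linarith) (by linarith)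

private lemma logDiff_integral (t : ℝ) (ht : 0 < t) :
    ∫ s in Set.Ioi (0:ℝ), (1 / (1 + s) - 1 / (t + s)) = Real.log t := by
  rw [integral_Ioi_of_hasDerivAt_of_tendsto'
      (f := fun s : ℝ => Real.log (1 + s) - Real.log (t + s))
      (fun s hs => logDiff_deriv t ht s hs) (logDiff_int t ht) (logDiff_tendsto t ht)]
  simp

private lemma tail_tendsto (r : ℝ) : Tendsto (fun s : ℝ => -(r / (1 + s))) atTop (𝓝 0) := by
  have h1 : Tendsto (fun s : ℝ => r / (1 + s)) atTop (𝓝 0) :=
    Tendsto.const_div_atTop (tendsto_atTop_add_const_left _ 1 tendsto_id) _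
  simpa using h1.neg

private lemma tail_deriv (r s : ℝ) (hs : 0 < 1 + s) :
    HasDerivAt (fun s : ℝ => -(r / (1 + s))) (r / (1 + s) ^ 2) s := by
  have h1 : HasDerivAt (fun s : ℝ => (1 : ℝ) + s) 1 s := (hasDerivAt_id s).const_add 1
  have h2 := ((h1.inv hs.ne').const_mul r).neg
  have e1 : (fun s : ℝ => -(r / (1 + s))) = -(fun y => r * (fun s : ℝ => 1 + s)⁻¹ y) := by
    funext y; simp [div_eq_mul_inv]
  have e2 : r / (1 + s) ^ 2 = -(r * (-1 / (1 + s) ^ 2)) := by ring
  rw [e1, e2]
  exact h2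

private lemma tail_int (r T : ℝ) (hr : 0 ≤ r) (hT : 0 < T) :
    IntegrableOn (fun s : ℝ => r / (1 + s) ^ 2) (Set.Ioi T) := by
  refine integrableOn_Ioi_deriv_of_nonneg' (g := fun s : ℝ => -(r / (1 + s)))
    (fun s hs => tail_deriv r s ?_) (fun s hs => by positivity) (tail_tendsto r)
  have : T ≤ s := hs
  linarith

private lemma tail_integral (r T : ℝ) (hr : 0 ≤ r) (hT : 0 < T) :
    ∫ s in Set.Ioi T, (r / (1 + s) ^ 2) = r / (1 + T) := by
  rw [integral_Ioi_of_hasDerivAt_of_tendsto' (f := fun s : ℝ => -(r / (1 + s)))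
    (fun s hs => tail_deriv r s (by have : T ≤ s := hs; linarith)) (tail_int r T hr hT)
    (tail_tendsto r)]
  ring

theorem chiStar_integral {n : ℕ} (F : ℝ → ℝ) (hF : Measurable F) (t v : Fin n → ℝ)
    (ht : ∀ i, 0 < t i) (hv : ∀ i, 0 ≤ v i) (r T : ℝ) (hr : 0 ≤ r) (hT : 0 < T)
    (hA : ∀ s, 0 < s → F s ≤ ∑ i, 1 / (t i + s))
    (hL : ∀ s, 0 < s → ∑ i, 1 / (t i + s + v i) ≤ F s)
    (hB : ∀ s, T ≤ s → F s ≤ (∑ i, 1 / (t i + s)) - r / (1 + s) ^ 2) :
    IntegrableOn (fun s : ℝ => (n : ℝ) / (1 + s) - F s) (Set.Ioi 0) ∧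
      (∑ i, Real.log (t i)) + r / (1 + T) ≤
        ∫ s in Set.Ioi (0 : ℝ), ((n : ℝ) / (1 + s) - F s) := by
  classical
  -- the lower function
  set G : ℝ → ℝ := fun s => ∑ i, (1 / (1 + s) - 1 / (t i + s)) with hG
  set U : ℝ → ℝ := fun s => ∑ i, (1 / (1 + s) - 1 / (t i + v i + s)) with hU
  set R : ℝ → ℝ := Set.indicator (Set.Ioi T) (fun s => r / (1 + s) ^ 2) with hR
  have hGint : IntegrableOn G (Set.Ioi 0) := by
    refine integrable_finsetSum _ fun i _ => logDiff_int (t i) (ht i)
  have hUint : IntegrableOn U (Set.Ioi 0) := by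
    refine integrable_finsetSum _ fun i _ => ?_
    exact logDiff_int (t i + v i) (by have := ht i; have := hv i; linarith)
  have hG_eq : ∀ s, G s = (n : ℝ) / (1 + s) - ∑ i, 1 / (t i + s) := by
    intro s
    simp only [hG, Finset.sum_sub_distrib, Finset.sum_const, Finset.card_univ, Fintype.card_fin,
      nsmul_eq_mul]
    ring
  have hU_eq : ∀ s, U s = (n : ℝ) / (1 + s) - ∑ i, 1 / (t i + s + v i) := by
    intro s
    simp only [hU, Finset.sum_sub_distrib, Finset.sum_const, Finset.card_univ, Fintype.card_fin,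
      nsmul_eq_mul]
    rw [mul_one_div]
    congr 1
    refine Finset.sum_congr rfl fun i _ => ?_
    congr 1
    ring
  have hlow : ∀ s, 0 < s → G s ≤ (n : ℝ) / (1 + s) - F s := by
    intro s hs
    rw [hG_eq]
    have := hA s hs
    linarith
  have hup : ∀ s, 0 < s → (n : ℝ) / (1 + s) - F s ≤ U s := by
    intro s hs
    rw [hU_eq]
    have := hL s hs
    linarith
  have hint : IntegrableOn (fun s : ℝ => (n : ℝ) / (1 + s) - F s) (Set.Ioi 0) := by
    have hdom : IntegrableOn (fun s => |G s| + |U s|) (Set.Ioi 0) := hGint.abs.add hUint.abs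
    refine Integrable.mono' hdom ?_ ?_
    · exact ((measurable_const.div (measurable_const.add measurable_id)).sub hF).aestronglyMeasurable
    · refine (ae_restrict_iff' measurableSet_Ioi).2 (Eventually.of_forall fun s hs => ?_)
      have h1 := hlow s hs
      have h2 := hup s hs
      rw [Real.norm_eq_abs, abs_le]
      constructor
      · have := neg_abs_le (G s)
        have := abs_nonneg (U s)
        linarith
      · have := le_abs_self (U s)
        have := abs_nonneg (G s)
        linarith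
  refine ⟨hint, ?_⟩
  have hRint : IntegrableOn R (Set.Ioi 0) := by
    have h1 : IntegrableOn (fun s : ℝ => r / (1 + s) ^ 2) (Set.Ioi T) := tail_int r T hr hT
    have h2 : Integrable R := by
      rw [hR, integrable_indicator_iff measurableSet_Ioi]
      exact h1
    exact h2.integrableOn
  have hGI : ∫ s in Set.Ioi (0:ℝ), G s = ∑ i, Real.log (t i) := by
    rw [hG, integral_finsetSum _ fun i _ => logDiff_int (t i) (ht i)]
    exact Finset.sum_congr rfl fun i _ => logDiff_integral (t i) (ht i)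
  have hRI : ∫ s in Set.Ioi (0:ℝ), R s = r / (1 + T) := by
    rw [hR, setIntegral_indicator measurableSet_Ioi, Set.Ioi_inter_Ioi, sup_eq_right.2 hT.le]
    exact tail_integral r T hr hT
  calc (∑ i, Real.log (t i)) + r / (1 + T)
      = ∫ s in Set.Ioi (0:ℝ), (G s + R s) := by
        rw [integral_add hGint hRint, hGI, hRI]
    _ ≤ ∫ s in Set.Ioi (0 : ℝ), ((n : ℝ) / (1 + s) - F s) := by
        refine setIntegral_mono_on (hGint.add hRint) hint measurableSet_Ioi fun s hs => ?_
        by_cases hsT : T < s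
        · have e1 : R s = r / (1 + s) ^ 2 := by
            rw [hR, Set.indicator_of_mem (show s ∈ Set.Ioi T from hsT)]
          have := hB s hsT.le
          rw [e1, hG_eq]
          linarith
        · have e1 : R s = 0 := by
            rw [hR, Set.indicator_of_notMem (show s ∉ Set.Ioi T from hsT)]
          rw [e1, add_zero]
          exact hlow s hs

end Crest.Agent.FE
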