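import Mathlib

/-!
# Row 89, chunk F3: volume of a sheared product of balls

`a : EuclideanSpace ℝ (Fin n × J)`, `a_i := (a (i, ·))`.  The centre `cen i a` depends only on the blocks
`a_l` with `¬ p l`, and is `0` for `¬ p i`.  Then
`vol {a | ∀ i, ‖a_i − cen i a‖ ≤ ρ i} ≤ Π_i vol (closedBall 0 (ρ i))`.

PROOF.  `EuclideanSpace ℝ (Fin n × J) ≃ (Fin n × J → ℝ) ≃ (Fin n → J → ℝ)` and split
`Fin n = {¬p} ⊕ {p}`.  Fubini: for a fixed first component `z` the slice is the product over `p i`
of the balls with centre `cen i z` — volume `Π_{p i} vol ball` (translation invariance,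
`Measure.pi_pi`) — and is empty unless `z` lies in the product of the balls for `¬ p i`.
-/

set_option autoImplicit false

namespace Crest.Agent.FE

open MeasureTheory

theorem shear_uncurry {n : ℕ} {J : Type} [Fintype J] :
    MeasurePreserving (fun (x : Fin n → J → ℝ) (q : Fin n × J) => x q.1 q.2) volume volume := by
  have hm : Measurable (fun (x : Fin n → J → ℝ) (q : Fin n × J) => x q.1 q.2) := by fun_prop
  refine ⟨hm, ?_⟩
  symm
  apply Measure.pi_eq
  intro s hs
  rw [Measure.map_apply hm (MeasurableSet.univ_pi hs)]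
  have h1 : (fun (x : Fin n → J → ℝ) (q : Fin n × J) => x q.1 q.2) ⁻¹' (Set.univ.pi s) =
      Set.univ.pi (fun i => Set.univ.pi fun j => s (i, j)) := by
    ext x
    simp only [Set.mem_preimage, Set.mem_univ_pi, Prod.forall]
  rw [h1, volume_pi_pi]
  simp_rw [volume_pi_pi]
  rw [Fintype.prod_prod_type]

/-- The map `(a_i)_i ↦ a` from blocks to the whole vector. -/
noncomputable def shearPsi {n : ℕ} {J : Type} [Fintype J] (x : Fin n → EuclideanSpace ℝ J) :
    EuclideanSpace ℝ (Fin n × J) := WithLp.toLp 2 fun q => x q.1 q.2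

theorem shearPsi_mp {n : ℕ} {J : Type} [Fintype J] :
    MeasurePreserving (shearPsi (n := n) (J := J)) volume volume := by
  have h1 : MeasurePreserving
      (fun (x : Fin n → EuclideanSpace ℝ J) (i : Fin n) => (WithLp.ofLp (x i) : J → ℝ))
      volume volume :=
    volume_preserving_pi (fun i => PiLp.volume_preserving_ofLp J)
  have h2 := (PiLp.volume_preserving_toLp (Fin n × J)).comp ((shear_uncurry (n := n) (J := J)).comp h1)
  exact h2

theorem shearPsi_cont {n : ℕ} {J : Type} [Fintype J] :
    Continuous (shearPsi (n := n) (J := J)) := by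
  unfold shearPsi
  fun_prop

theorem shear_vol {n : ℕ} {J : Type} [Fintype J] (p : Fin n → Prop) [DecidablePred p]
    (cen : Fin n → EuclideanSpace ℝ (Fin n × J) → EuclideanSpace ℝ J)
    (hcont : ∀ i, Continuous (cen i))
    (hdep : ∀ i a a', (∀ l, ¬ p l → ∀ j, a (l, j) = a' (l, j)) → cen i a = cen i a')
    (h0 : ∀ i, ¬ p i → ∀ a, cen i a = 0) (ρ : Fin n → ℝ) :
    volume {a : EuclideanSpace ℝ (Fin n × J) |
      ∀ i, ‖(WithLp.toLp 2 fun j => a (i, j) : EuclideanSpace ℝ J) - cen i a‖ ≤ ρ i} ≤
      ∏ i, volume (Metric.closedBall (0 : EuclideanSpace ℝ J) (ρ i)) := by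
  classical
  set S : Set (EuclideanSpace ℝ (Fin n × J)) := {a |
      ∀ i, ‖(WithLp.toLp 2 fun j => a (i, j) : EuclideanSpace ℝ J) - cen i a‖ ≤ ρ i} with hS
  have hSclosed : IsClosed S := by
    rw [hS, Set.ofPred_forall]
    refine isClosed_iInter fun i => ?_
    refine isClosed_le ?_ continuous_const
    refine Continuous.norm (Continuous.sub ?_ (hcont i))
    fun_prop
  have hSm : MeasurableSet S := hSclosed.measurableSet
  rw [← (shearPsi_mp (n := n) (J := J)).measure_preimage hSm.nullMeasurableSet]
  -- split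
  set e := MeasurableEquiv.piEquivPiSubtypeProd (fun _ : Fin n => EuclideanSpace ℝ J) p with he
  have hemp : MeasurePreserving e volume volume :=
    volume_preserving_piEquivPiSubtypeProd (fun _ : Fin n => EuclideanSpace ℝ J) p
  have hPm : MeasurableSet (shearPsi ⁻¹' S) := hSm.preimage shearPsi_mp.measurable
  rw [← (hemp.symm e).measure_preimage hPm.nullMeasurableSet]
  set T : Set (({i // p i} → EuclideanSpace ℝ J) × ({i // ¬ p i} → EuclideanSpace ℝ J)) :=
    e.symm ⁻¹' (shearPsi ⁻¹' S) with hT
  have hTm : MeasurableSet T := hPm.preimage e.symm.measurable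
  have hvol : (volume : Measure (({i // p i} → EuclideanSpace ℝ J) ×
      ({i // ¬ p i} → EuclideanSpace ℝ J))) = (volume : Measure _).prod (volume : Measure _) := rfl
  rw [hvol, Measure.prod_apply_symm hTm]
  -- the base
  set B : Set ({i // ¬ p i} → EuclideanSpace ℝ J) :=
    Set.univ.pi fun i => Metric.closedBall (0 : EuclideanSpace ℝ J) (ρ i) with hB
  have hBm : MeasurableSet B := MeasurableSet.univ_pi fun i => measurableSet_closedBall
  set C : ENNReal := ∏ i : {i // p i}, volume (Metric.closedBall (0 : EuclideanSpace ℝ J) (ρ i))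
    with hC
  set c : {i // p i} → ({i // ¬ p i} → EuclideanSpace ℝ J) → EuclideanSpace ℝ J :=
    fun i z => cen i (shearPsi (e.symm (fun _ => 0, z))) with hc
  have hesymm_p : ∀ u z (i : Fin n) (hi : p i), (e.symm (u, z)) i = u ⟨i, hi⟩ := by
    intro u z i hi
    simp [he, MeasurableEquiv.piEquivPiSubtypeProd, Equiv.piEquivPiSubtypeProd, hi]
  have hesymm_n : ∀ u z (i : Fin n) (hi : ¬ p i), (e.symm (u, z)) i = z ⟨i, hi⟩ := by
    intro u z i hi
    simp [he, MeasurableEquiv.piEquivPiSubtypeProd, Equiv.piEquivPiSubtypeProd, hi]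
  have hcen : ∀ u z (i : {i // p i}), cen i (shearPsi (e.symm (u, z))) = c i z := by
    intro u z i
    apply hdep
    intro l hl j
    show (e.symm (u, z)) l j = (e.symm (fun _ => 0, z)) l j
    rw [hesymm_n _ _ _ hl, hesymm_n _ _ _ hl]
  have hslice : ∀ z, volume ((fun u => (u, z)) ⁻¹' T) ≤ B.indicator (fun _ => C) z := by
    intro z
    by_cases hz : z ∈ B
    · rw [Set.indicator_of_mem hz]
      have hsub : (fun u => (u, z)) ⁻¹' T ⊆
          Set.univ.pi fun i : {i // p i} => Metric.closedBall (c i z) (ρ i) := by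
        intro u hu i _
        have h1 : shearPsi (e.symm (u, z)) ∈ S := hu
        have h2 := h1 i
        rw [hcen] at h2
        rw [mem_closedBall_iff_norm]
        have h3 : (WithLp.toLp 2 fun j => (shearPsi (e.symm (u, z))) ((i : Fin n), j) :
            EuclideanSpace ℝ J) = u i := by
          ext j
          show (e.symm (u, z)) i j = u i j
          rw [hesymm_p _ _ _ i.2]
        rw [h3] at h2
        exact h2
      refine (measure_mono hsub).trans ?_
      rw [volume_pi_pi]
      refine le_of_eq (Finset.prod_congr rfl fun i _ => ?_)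
      exact Measure.addHaar_closedBall_center _ _ _
    · rw [Set.indicator_of_notMem hz]
      have : (fun u => (u, z)) ⁻¹' T = ∅ := by
        rw [Set.eq_empty_iff_forall_notMem]
        intro u hu
        apply hz
        intro i _
        have h1 : shearPsi (e.symm (u, z)) ∈ S := hu
        have h2 := h1 i
        rw [h0 i i.2, sub_zero] at h2
        have h3 : (WithLp.toLp 2 fun j => (shearPsi (e.symm (u, z))) ((i : Fin n), j) :
            EuclideanSpace ℝ J) = z i := by
          ext j
          show (e.symm (u, z)) i j = z i j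
          rw [hesymm_n _ _ _ i.2]
        rw [h3] at h2
        rw [mem_closedBall_zero_iff]
        exact h2
      rw [this, measure_empty]
  calc ∫⁻ z, volume ((fun u => (u, z)) ⁻¹' T) ≤ ∫⁻ z, B.indicator (fun _ => C) z :=
        lintegral_mono hslice
    _ = C * volume B := by rw [lintegral_indicator hBm, setLIntegral_const]
    _ = ∏ i, volume (Metric.closedBall (0 : EuclideanSpace ℝ J) (ρ i)) := by
        rw [hB, volume_pi_pi, hC]
        exact Fintype.prod_subtype_mul_prod_subtype p
          (fun i => volume (Metric.closedBall (0 : EuclideanSpace ℝ J) (ρ i)))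

end Crest.Agent.FE
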