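import Crest.Agent.FE.MicroIncl
import Crest.Agent.FE.ShearVol
import Crest.Agent.FE.BallVol

/-!
# Row 89, chunk F5: the upper bound for `χ`

PROOF.  `chi = sup_R chiCutoff`; for fixed `R` and `ε > 0` bound the infimum by the member `m = 6`, `ε`:
for every `d ≥ 1` by `micro_incl`, `shear_vol` (`p i := (e i).isRight`, `cen i a = coordsOf (shiftP ..)`) and
`ball_vol_le` (`c = b_i + 9ε`): `vol ≤ Π_i exp (d² (½ log (2πe (b_i+9ε)) − ½ log d))`, hence
`d⁻² log vol + (n/2) log d ≤ Σ_i ½ log (2πe (b_i + 9ε))` (EReal; `ENNReal.log` monotone, `log` of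
`ofReal (exp x)` is `x`; if the volume is 0 the left side is `⊥`-ish and fine).  Take limsup, then the
infimum over `ε → 0` (`ge_of_tendsto`/`le_of_forall_pos_lt_add` and continuity of `log`).
-/

set_option autoImplicit false

namespace Crest.Agent.FE

open Crest.OpAlg MeasureTheory Filter

theorem coordsOf_zero {d : ℕ} : coordsOf (0 : Matrix (Fin d) (Fin d) ℂ) = 0 := by
  ext p
  simp [coordsOf]

theorem chi_upper_vol {A : Type*} [Ring A] [Algebra ℂ A] (τ : A →ₗ[ℂ] ℂ) {k n : ℕ}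
    (e : Fin n ≃ IX k) (X : Fin n → A) (b : Fin n → ℝ) (hb0 : ∀ i, 0 < b i)
    (hb : ∀ i, τ ((X i - shiftP e X i) * (X i - shiftP e X i)) = (b i : ℂ))
    (R ε : ℝ) (hε : 0 < ε) (d : ℕ) (hd : 1 ≤ d) :
    volume (microstates τ X R 6 d ε) ≤ ENNReal.ofReal (Real.exp ((d : ℝ) ^ 2 *
      ((∑ i, 1 / 2 * Real.log (2 * Real.pi * Real.exp 1 * (b i + 9 * ε))) -
        (n : ℝ) / 2 * Real.log d))) := by
  have h1 := measure_mono (μ := (volume : Measure (EuclideanSpace ℝ (Fin n × (Fin d × Fin d)))))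
    (micro_incl τ e X b hb R d hd ε hε)
  have h2 := shear_vol (n := n) (J := Fin d × Fin d) (fun i => (e i).isRight = true)
    (fun i a => coordsOf (shiftP e (matrixTuple a) i))
    (fun i => shiftP_continuous e i)
    (by
      intro i a a' haa
      have hl : ∀ q : Fin k, matrixTuple a (e.symm (.inl q)) = matrixTuple a' (e.symm (.inl q)) := by
        intro q
        unfold matrixTuple
        congr 1
        congr 1
        funext j
        exact haa _ (by simp) j
      show coordsOf (shiftP e (matrixTuple a) i) = coordsOf (shiftP e (matrixTuple a') i)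
      congr 1
      unfold shiftP
      rcases e i with q | ⟨p, q, s⟩
      · rfl
      · simp only [hl])
    (by
      intro i hi a
      show coordsOf (shiftP e (matrixTuple a) i) = 0
      unfold shiftP
      rcases hei : e i with q | ⟨p, q, s⟩
      · exact coordsOf_zero
      · exact absurd (by rw [hei]; rfl) hi)
    (fun i => Real.sqrt (d * (b i + 9 * ε)))
  have h3 : ∏ i : Fin n, volume (Metric.closedBall (0 : EuclideanSpace ℝ (Fin d × Fin d))
      (Real.sqrt (d * (b i + 9 * ε)))) ≤ ∏ i : Fin n, ENNReal.ofReal (Real.exp ((d : ℝ) ^ 2 *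
      (1 / 2 * Real.log (2 * Real.pi * Real.exp 1 * (b i + 9 * ε)) - 1 / 2 * Real.log d))) := by
    refine Finset.prod_le_prod' fun i _ => ?_
    exact ball_vol_le d hd _ (by have := hb0 i; positivity) _
  refine (h1.trans h2).trans (h3.trans (le_of_eq ?_))
  rw [← ENNReal.ofReal_prod_of_nonneg (fun i _ => (Real.exp_pos _).le), ← Real.exp_sum,
    ← Finset.mul_sum, Finset.sum_sub_distrib]
  congr 4
  simp
  ring

theorem chi_upper_d {A : Type*} [Ring A] [Algebra ℂ A] (τ : A →ₗ[ℂ] ℂ) {k n : ℕ}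
    (e : Fin n ≃ IX k) (X : Fin n → A) (b : Fin n → ℝ) (hb0 : ∀ i, 0 < b i)
    (hb : ∀ i, τ ((X i - shiftP e X i) * (X i - shiftP e X i)) = (b i : ℂ))
    (R ε : ℝ) (hε : 0 < ε) (d : ℕ) (hd : 1 ≤ d) :
    ((((d : ℝ) ^ 2)⁻¹ : ℝ) : EReal) * (volume (microstates τ X R 6 d ε)).log +
      (((n : ℝ) / 2 * Real.log d : ℝ) : EReal) ≤
    ((∑ i, 1 / 2 * Real.log (2 * Real.pi * Real.exp 1 * (b i + 9 * ε)) : ℝ) : EReal) := by
  have h1 := ENNReal.log_monotone (chi_upper_vol τ e X b hb0 hb R ε hε d hd)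
  rw [ENNReal.log_ofReal_of_pos (Real.exp_pos _), Real.log_exp] at h1
  have hd0 : (0 : ℝ) < (d : ℝ) ^ 2 := by
    have : (0 : ℝ) < d := by exact_mod_cast hd
    positivity
  have h2 : ((((d : ℝ) ^ 2)⁻¹ : ℝ) : EReal) * (volume (microstates τ X R 6 d ε)).log ≤
      ((((d : ℝ) ^ 2)⁻¹ : ℝ) : EReal) * (((d : ℝ) ^ 2 *
      ((∑ i, 1 / 2 * Real.log (2 * Real.pi * Real.exp 1 * (b i + 9 * ε))) -
        (n : ℝ) / 2 * Real.log d) : ℝ) : EReal) :=
    mul_le_mul_of_nonneg_left h1 (by exact_mod_cast (inv_pos.2 hd0).le)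
  rw [← EReal.coe_mul, ← mul_assoc, inv_mul_cancel₀ hd0.ne', one_mul] at h2
  calc _ ≤ (((∑ i, 1 / 2 * Real.log (2 * Real.pi * Real.exp 1 * (b i + 9 * ε))) -
        (n : ℝ) / 2 * Real.log d : ℝ) : EReal) + (((n : ℝ) / 2 * Real.log d : ℝ) : EReal) :=
        add_le_add_left h2 _
    _ = _ := by rw [← EReal.coe_add, sub_add_cancel]

theorem chi_upper {A : Type*} [Ring A] [Algebra ℂ A] (τ : A →ₗ[ℂ] ℂ) {k n : ℕ}
    (e : Fin n ≃ IX k) (X : Fin n → A) (b : Fin n → ℝ) (hb0 : ∀ i, 0 < b i)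
    (hb : ∀ i, τ ((X i - shiftP e X i) * (X i - shiftP e X i)) = (b i : ℂ)) :
    chi τ X ≤ ((∑ i, 1 / 2 * Real.log (2 * Real.pi * Real.exp 1 * b i) : ℝ) : EReal) := by
  unfold chi
  refine iSup₂_le fun R hR => ?_
  have key : ∀ ε : ℝ, 0 < ε → chiCutoff τ X R ≤
      ((∑ i, 1 / 2 * Real.log (2 * Real.pi * Real.exp 1 * (b i + 9 * ε)) : ℝ) : EReal) := by
    intro ε hε
    unfold chiCutoff
    refine (iInf_le _ 6).trans ((iInf₂_le ε hε).trans ?_)
    refine limsup_le_of_le (h := ?_)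
    filter_upwards [eventually_ge_atTop 1] with d hd
    exact chi_upper_d τ e X b hb0 hb R ε hε d hd
  have ht : Tendsto (fun ε : ℝ =>
      ((∑ i, 1 / 2 * Real.log (2 * Real.pi * Real.exp 1 * (b i + 9 * ε)) : ℝ) : EReal))
      (nhdsWithin 0 (Set.Ioi 0))
      (nhds ((∑ i, 1 / 2 * Real.log (2 * Real.pi * Real.exp 1 * b i) : ℝ) : EReal)) := by
    refine (continuous_coe_real_ereal.tendsto _).comp ?_
    refine tendsto_finsetSum _ fun i _ => ?_
    refine Tendsto.const_mul _ ?_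
    have hne : 2 * Real.pi * Real.exp 1 * b i ≠ 0 := by
      have := hb0 i
      have := Real.pi_pos
      positivity
    refine Tendsto.log ?_ hne
    have : Tendsto (fun ε : ℝ => 2 * Real.pi * Real.exp 1 * (b i + 9 * ε)) (nhds 0)
        (nhds (2 * Real.pi * Real.exp 1 * (b i + 9 * 0))) := by
      apply Continuous.tendsto
      fun_prop
    rw [mul_zero, add_zero] at this
    exact this.mono_left nhdsWithin_le_nhds
  refine ge_of_tendsto ht ?_
  filter_upwards [self_mem_nhdsWithin] with ε hε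
  exact key ε hε

end Crest.Agent.FE
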