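import Mathlib
import Crest.Prelude.Def_FreeEntropy
import Crest.Prelude.Def_CStarRep

/-!
# Row 89 (S0118): χ(X) ≤ χ*(X) − 1/2 with both finite — shared definitions

Everything below is shared by all chunks.  DO NOT EDIT (ask helper34).
-/

set_option autoImplicit false

namespace Crest.Agent.FE

open scoped InnerProductSpace ENNReal
open MeasureTheory

/-! ## Combinatorics -/

/-- moments of a free family of standard semicirculars: `mom w = τ(g_{w₁} ⋯ g_{w_m})`, by the
Schwinger–Dyson recursion. -/
noncomputable def mom {β : Type*} [DecidableEq β] : List β → ℝ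
  | [] => 1
  | j :: Q => ∑ t : Fin Q.length, if Q[t] = j then mom (Q.take t) * mom (Q.drop (t + 1)) else 0
termination_by Q => Q.length
decreasing_by
  all_goals simp [List.length_take, List.length_drop]

/-- `Dfun μ u P = Σ_{P = P₀ u₁ P₁ ⋯ u_m P_m} μ(P₀) ⋯ μ(P_m)`. -/
def Dfun {α : Type*} [DecidableEq α] (μ : List α → ℂ) : List α → List α → ℂ
  | [], P => μ P
  | i :: u, P => ∑ t : Fin P.length, if P[t] = i then μ (P.take t) * Dfun μ u (P.drop (t + 1)) else 0

/-- coefficients of the representation `τ(a_Q X_P) = Σ_u CQ Q u · D_u(P)`. -/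
noncomputable def CQ {α β : Type*} [DecidableEq β] (words : α → List (List β)) :
    List β → List α → ℝ
  | [], u => if u.length = 0 then 1 else 0
  | j :: Q, u =>
      (∑ t : Fin Q.length,
        if Q[t] = j then mom (Q.take t) * CQ words (Q.drop (t + 1)) u else 0) +
      ∑ t : Fin u.length, ((words u[t]).map fun w => ∑ b : Fin w.length,
        if w[b] = j then
          CQ words (w.take b ++ Q) (u.take t) * CQ words (w.drop (b + 1)) (u.drop (t + 1))
        else 0).sum
termination_by Q u => (u.length, Q.length)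
decreasing_by
  · refine Prod.Lex.right _ ?_
    simp only [List.length_drop, List.length_cons]
    omega
  · refine Prod.Lex.left _ _ ?_
    have := t.2
    simp only [List.length_take]
    omega
  · refine Prod.Lex.left _ _ ?_
    have := t.2
    simp only [List.length_drop]
    omega

/-- index type of the tuple `X`. -/
abbrev IX (k : ℕ) : Type := Fin k ⊕ (Fin k × Fin k × Fin k)

/-- the words of the polynomial `y_i`: `a_j` for `inl j`, `a_p a_q a_s + a_s a_q a_p` for
`inr (p,q,s)`. -/
def wordsIX {k : ℕ} : IX k → List (List (Fin k))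
  | .inl j => [[j]]
  | .inr (p, q, s) => [[p, q, s], [s, q, p]]

/-- variances of the own noise. -/
noncomputable def tt {k : ℕ} (t0 : ℝ) : IX k → ℝ
  | .inl _ => t0
  | .inr _ => 1

/-- `Σ_w w(a)` over the words `w` in a list. -/
def evalWords {A β : Type*} [Ring A] (a : β → A) (ws : List (List β)) : A :=
  (ws.map fun w => (w.map a).prod).sum

/-! ## Norms of the coefficients -/

/-- `cNorm words m l = (Σ_{|Q| = l} Σ_{|u| = m} CQ(Q,u)²)^{1/2}`. -/
noncomputable def cNorm {α β : Type*} [Fintype α] [Fintype β] [DecidableEq β]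
    (words : α → List (List β)) (m l : ℕ) : ℝ :=
  Real.sqrt (∑ Q : Fin l → β, ∑ u : Fin m → α, CQ words (List.ofFn Q) (List.ofFn u) ^ 2)

/-! ## The abstract Fock relations -/

/-- The relations between the semicirculars `g i` (left) and the right creation operators `r i`
on the full Fock space that the proof uses. -/
structure FockRel {I H : Type*} [DecidableEq I] [NormedAddCommGroup H] [InnerProductSpace ℂ H]
    [CompleteSpace H] (g r : I → H →L[ℂ] H) (Ω : H) : Prop where
  normΩ : ‖Ω‖ = 1
  selfAdj : ∀ i, ContinuousLinearMap.adjoint (g i) = g i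
  norm_le : ∀ i, ‖g i‖ ≤ 2
  gΩ : ∀ i, g i Ω = r i Ω
  rΩ : ∀ i, ContinuousLinearMap.adjoint (r i) Ω = 0
  rr : ∀ i j v, ContinuousLinearMap.adjoint (r i) (r j v) = if i = j then v else 0
  comm : ∀ i j v, ContinuousLinearMap.adjoint (r i) (g j v) =
    g j (ContinuousLinearMap.adjoint (r i) v) + if i = j then ⟪Ω, v⟫_ℂ • Ω else 0

/-! ## The full Fock space -/

/-- the full Fock space `ℓ²(words in I)`. -/
abbrev HF (I : Type) : Type := lp (fun _ : List I => ℂ) 2

/-- the basis vector of a word. -/
noncomputable def bas {I : Type} [DecidableEq I] (w : List I) : HF I := lp.single 2 w 1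

/-- the vacuum. -/
noncomputable def vac {I : Type} [DecidableEq I] : HF I := bas []

/-- `pull f x = x ∘ f`, a contraction on `ℓ²(words)` for injective `f` (zero otherwise). -/
noncomputable def pull {I : Type} (f : List I → List I) (hf : Function.Injective f) :
    HF I →L[ℂ] HF I :=
  LinearMap.mkContinuous
    { toFun := fun x => ⟨fun w => x (f w), by
        have h := lp.memℓp x
        rw [memℓp_gen_iff (by norm_num)] at h
        exact (memℓp_gen_iff (by norm_num)).2 (h.comp_injective hf)⟩
      map_add' := fun x y => by ext w; rfl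
      map_smul' := fun c x => by ext w; rfl } 1 (by
    intro x
    rw [one_mul]
    refine lp.norm_le_of_tsum_le (by norm_num) (norm_nonneg _) ?_
    have h := lp.memℓp x
    rw [memℓp_gen_iff (by norm_num)] at h
    rw [lp.norm_rpow_eq_tsum (by norm_num) x]
    exact tsum_comp_le_tsum_of_inj h (fun i => by positivity) hf)

/-- left creation operator `w ↦ i w`. -/
noncomputable def lcr {I : Type} (i : I) : HF I →L[ℂ] HF I :=
  ContinuousLinearMap.adjoint (pull (fun w => i :: w) (fun _ _ h => (List.cons.inj h).2))

/-- right creation operator `w ↦ w i`. -/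
noncomputable def rcr {I : Type} (i : I) : HF I →L[ℂ] HF I :=
  ContinuousLinearMap.adjoint (pull (fun w => w ++ [i]) (fun _ _ h => List.append_cancel_right h))

/-- the semicircular operator `g_i = l_i + l_i^*`. -/
noncomputable def gop {I : Type} (i : I) : HF I →L[ℂ] HF I :=
  lcr i + ContinuousLinearMap.adjoint (lcr i)

/-- the C*-algebra generated by the semicirculars. -/
noncomputable def FAsub (I : Type) : StarSubalgebra ℂ (HF I →L[ℂ] HF I) :=
  (StarAlgebra.adjoin ℂ (Set.range (gop (I := I)))).topologicalClosure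

instance FAsub_isClosed (I : Type) : IsClosed ((FAsub I : StarSubalgebra ℂ (HF I →L[ℂ] HF I)) :
    Set (HF I →L[ℂ] HF I)) :=
  StarSubalgebra.isClosed_topologicalClosure _

/-- the C*-algebra generated by the semicirculars (as a type). -/
def FA (I : Type) : Type := ↥(FAsub I)

noncomputable instance FA_cstar (I : Type) : CStarAlgebra (FA I) :=
  StarSubalgebra.cstarAlgebra (FAsub I)

/-- the inclusion `FA I → B(HF I)` as a star homomorphism. -/
noncomputable def rep (I : Type) : FA I →⋆ₐ[ℂ] (HF I →L[ℂ] HF I) where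
  toFun x := x.1
  map_one' := rfl
  map_mul' _ _ := rfl
  map_zero' := rfl
  map_add' _ _ := rfl
  commutes' _ := rfl
  map_star' _ := rfl

theorem rep_injective (I : Type) : Function.Injective (rep I) := fun _ _ h => Subtype.ext h

theorem norm_rep (I : Type) (x : FA I) : ‖rep I x‖ = ‖x‖ := rfl

theorem rep_mem_closure {I : Type} (x : FA I) :
    rep I x ∈ closure ((StarAlgebra.adjoin ℂ (Set.range (gop (I := I))) :
      StarSubalgebra ℂ (HF I →L[ℂ] HF I)) : Set (HF I →L[ℂ] HF I)) := x.2

/-- the vacuum state. -/
noncomputable def tau (I : Type) [DecidableEq I] : FA I →ₗ[ℂ] ℂ where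
  toFun x := ⟪(vac : HF I), rep I x vac⟫_ℂ
  map_add' x y := by
    rw [map_add, ContinuousLinearMap.add_apply, inner_add_right]
  map_smul' c x := by
    rw [map_smul, ContinuousLinearMap.smul_apply, inner_smul_right]
    rfl

theorem tau_apply {I : Type} [DecidableEq I] (x : FA I) :
    tau I x = ⟪(vac : HF I), rep I x vac⟫_ℂ := rfl

/-- the semicirculars as elements of the C*-algebra. -/
noncomputable def gA {I : Type} (i : I) : FA I :=
  (⟨gop i, StarSubalgebra.le_topologicalClosure _ (StarAlgebra.subset_adjoin ℂ _ ⟨i, rfl⟩)⟩ :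
    ↥(FAsub I))

theorem rep_gA {I : Type} (i : I) : rep I (gA i) = gop i := rfl

/-! ## The example -/

/-- letters: `inl j` for `a_j`, `inr (inl i)` for the own noise, `inr (inr i)` for the path
noise. -/
abbrev LT (k n : ℕ) : Type := Fin k ⊕ (Fin n ⊕ Fin n)

/-- `y_i = Σ_{w ∈ words i} a_w`. -/
noncomputable def yA {k n : ℕ} (words : Fin n → List (List (Fin k))) (i : Fin n) : FA (LT k n) :=
  evalWords (fun j => gA (Sum.inl j)) (words i)

/-- `X_i = y_i + √t_i S'_i`. -/
noncomputable def XA {k n : ℕ} (words : Fin n → List (List (Fin k))) (t : Fin n → ℝ) (i : Fin n) :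
    FA (LT k n) :=
  yA words i + ((Real.sqrt (t i) : ℝ) : ℂ) • gA (Sum.inr (Sum.inl i))

/-- the path noise. -/
noncomputable def SA {k n : ℕ} (i : Fin n) : FA (LT k n) := gA (Sum.inr (Sum.inr i))

end Crest.Agent.FE
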