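import Crest.Agent.FE.Defs

/-!
# Row 89, chunk D1: the abstract inequality behind the upper bounds for the free Fisher information

`τ x = ⟪Ω, π x Ω⟫`, `X` selfadjoint, `P` a formally selfadjoint polynomial (`polyStar P = P`), `ζ ∈ H`
with `⟪ζ, X_w Ω⟫ = θ (τ⊗τ)(∂_i w)` for all words `w` of `P`.
PROOF.  By linearity `⟪ζ, P(X)Ω⟫ = θ · splitPairing τ X i P`.  `P(X)` is selfadjoint
(`star (wordEval X w) = wordEval X (reverse w)`), so `τ(P(X)²) = ‖P(X)Ω‖²`.  Then
`Re(2 splitPairing − τ(P²)) = 2 Re⟪ζ/θ, PΩ⟫ − ‖PΩ‖² ≤ ‖ζ/θ‖²`.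
-/

set_option autoImplicit false

namespace Crest.Agent.FE

open scoped InnerProductSpace ENNReal

theorem polyEval_eq_sum {A : Type*} [Ring A] [Algebra ℂ A] {n : ℕ} (X : Fin n → A)
    (P : Crest.OpAlg.NCPoly n) :
    Crest.OpAlg.polyEval X P = P.coeff.sum fun w c => c • Crest.OpAlg.wordEval X w := by
  unfold Crest.OpAlg.polyEval Crest.OpAlg.wordEval
  rw [MonoidAlgebra.lift_apply]

theorem wordEval_toList {A : Type*} [Ring A] {n : ℕ} (X : Fin n → A)
    (w : FreeMonoid (Fin n)) :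
    Crest.OpAlg.wordEval X w = ((FreeMonoid.toList w).map X).prod := by
  unfold Crest.OpAlg.wordEval
  rw [FreeMonoid.lift_apply]

theorem star_wordEval {A : Type*} [CStarAlgebra A] {n : ℕ} (X : Fin n → A)
    (hX : ∀ i, IsSelfAdjoint (X i)) (w : FreeMonoid (Fin n)) :
    star (Crest.OpAlg.wordEval X w) =
      Crest.OpAlg.wordEval X (FreeMonoid.toList.symm (FreeMonoid.toList w).reverse) := by
  rw [wordEval_toList, wordEval_toList, Equiv.apply_symm_apply]
  generalize FreeMonoid.toList w = l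
  induction l with
  | nil => simp
  | cons i l ih =>
    rw [List.map_cons, List.prod_cons, star_mul, ih, (hX i).star_eq, List.reverse_cons,
      List.map_append, List.prod_append]
    simp

theorem star_polyEval {A : Type*} [CStarAlgebra A] {n : ℕ} (X : Fin n → A)
    (hX : ∀ i, IsSelfAdjoint (X i)) (P : Crest.OpAlg.NCPoly n) :
    star (Crest.OpAlg.polyEval X P) = Crest.OpAlg.polyEval X (Crest.OpAlg.polyStar P) := by
  have h1 : Crest.OpAlg.polyEval X (Crest.OpAlg.polyStar P) = P.coeff.sum fun w c =>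
      (starRingEnd ℂ c) • Crest.OpAlg.wordEval X
        (FreeMonoid.toList.symm (FreeMonoid.toList w).reverse) := by
    unfold Crest.OpAlg.polyStar Crest.OpAlg.polyEval
    rw [Finsupp.sum, map_sum, Finsupp.sum]
    refine Finset.sum_congr rfl fun w _ => ?_
    rw [MonoidAlgebra.lift_single]
    rfl
  rw [h1, polyEval_eq_sum, Finsupp.sum, star_sum, Finsupp.sum]
  refine Finset.sum_congr rfl fun w _ => ?_
  rw [star_smul, star_wordEval X hX]
  rfl

theorem fisher_ineq {A H : Type*} [CStarAlgebra A] [NormedAddCommGroup H] [InnerProductSpace ℂ H]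
    [CompleteSpace H] (τ : A →ₗ[ℂ] ℂ) (π : A →⋆ₐ[ℂ] (H →L[ℂ] H)) (Ω : H)
    (hτ : ∀ x, τ x = ⟪Ω, π x Ω⟫_ℂ) {n : ℕ} (X : Fin n → A) (hX : ∀ i, IsSelfAdjoint (X i))
    (i : Fin n) (P : Crest.OpAlg.NCPoly n) (hP : Crest.OpAlg.polyStar P = P)
    (ζ : H) (θ : ℝ) (hθ : 0 < θ)
    (hζ : ∀ w ∈ P.coeff.support, ⟪ζ, π (Crest.OpAlg.wordEval X w) Ω⟫_ℂ =
      (θ : ℂ) * ∑ k : Fin (FreeMonoid.toList w).length, if (FreeMonoid.toList w)[k] = i then
        τ ((((FreeMonoid.toList w).take k).map X).prod) *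
          τ ((((FreeMonoid.toList w).drop (k + 1)).map X).prod) else 0) :
    (2 * Crest.OpAlg.splitPairing τ X i P -
      τ (Crest.OpAlg.polyEval X P * Crest.OpAlg.polyEval X P)).re ≤ ‖ζ‖ ^ 2 / θ ^ 2 := by
  set p := Crest.OpAlg.polyEval X P with hp
  set v := π p Ω with hv
  -- linearity
  have h1 : ⟪ζ, v⟫_ℂ = (θ : ℂ) * Crest.OpAlg.splitPairing τ X i P := by
    rw [hv, hp, polyEval_eq_sum, Finsupp.sum, map_sum]
    rw [show (∑ w ∈ P.coeff.support, π (P.coeff w • Crest.OpAlg.wordEval X w)) Ω =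
      ∑ w ∈ P.coeff.support, P.coeff w • (π (Crest.OpAlg.wordEval X w) Ω) from ?_]
    · rw [inner_sum]
      unfold Crest.OpAlg.splitPairing
      rw [Finsupp.sum, Finset.mul_sum]
      refine Finset.sum_congr rfl fun w hw => ?_
      rw [inner_smul_right, hζ w hw]
      have e : ∑ k ∈ Finset.range (FreeMonoid.toList w).length,
          (if (FreeMonoid.toList w)[k]? = some i then
            τ (Crest.OpAlg.wordEval X (FreeMonoid.toList.symm ((FreeMonoid.toList w).take k))) *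
              τ (Crest.OpAlg.wordEval X
                (FreeMonoid.toList.symm ((FreeMonoid.toList w).drop (k + 1))))
          else 0) = ∑ k : Fin (FreeMonoid.toList w).length, if (FreeMonoid.toList w)[k] = i then
        τ ((((FreeMonoid.toList w).take k).map X).prod) *
          τ ((((FreeMonoid.toList w).drop (k + 1)).map X).prod) else 0 := by
        rw [Finset.sum_range]
        refine Finset.sum_congr rfl fun k _ => ?_
        simp only [wordEval_toList, Equiv.apply_symm_apply]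
        have : ((FreeMonoid.toList w)[(k : ℕ)]? = some i) ↔ (FreeMonoid.toList w)[k] = i := by
          rw [List.getElem?_eq_getElem k.2]
          simp
        simp only [this]
      rw [e]
      ring
    · rw [ContinuousLinearMap.sum_apply]
      refine Finset.sum_congr rfl fun w _ => ?_
      rw [map_smul]
      rfl
  have hsa : star p = p := by
    rw [hp, star_polyEval X hX, hP]
  have h2 : τ (p * p) = ((‖v‖ ^ 2 : ℝ) : ℂ) := by
    rw [hτ, map_mul]
    have h3 : ContinuousLinearMap.adjoint (π p) = π p := by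
      have := map_star π p
      rw [hsa] at this
      rw [← ContinuousLinearMap.star_eq_adjoint]
      exact this.symm
    have h4 : ⟪Ω, (π p * π p) Ω⟫_ℂ = ⟪π p Ω, π p Ω⟫_ℂ := by
      nth_rewrite 3 [← h3]
      rw [ContinuousLinearMap.adjoint_inner_left]
      rfl
    rw [h4, ← hv, inner_self_eq_norm_sq_to_K]
    push_cast
    rfl
  have hθ' : (θ : ℂ) ≠ 0 := by exact_mod_cast hθ.ne'
  have h5 : Crest.OpAlg.splitPairing τ X i P = ⟪ζ, v⟫_ℂ / (θ : ℂ) := by
    rw [h1]; field_simp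
  rw [h2, h5, Complex.sub_re, Complex.ofReal_re]
  have h6 : (2 * (⟪ζ, v⟫_ℂ / (θ : ℂ))).re = 2 * (⟪ζ, v⟫_ℂ).re / θ := by
    rw [show (2 : ℂ) * (⟪ζ, v⟫_ℂ / (θ : ℂ)) = ((2 / θ : ℝ) : ℂ) * ⟪ζ, v⟫_ℂ by push_cast; ring,
      Complex.re_ofReal_mul]
    ring
  rw [h6]
  have h7 : (⟪ζ, v⟫_ℂ).re ≤ ‖ζ‖ * ‖v‖ :=
    (Complex.re_le_norm _).trans (norm_inner_le_norm _ _)
  have h8 : 2 * (⟪ζ, v⟫_ℂ).re / θ ≤ 2 * (‖ζ‖ / θ) * ‖v‖ := by
    rw [div_le_iff₀ hθ]
    have : 2 * (‖ζ‖ / θ) * ‖v‖ * θ = 2 * (‖ζ‖ * ‖v‖) := by field_simp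
    rw [this]
    linarith
  have h9 : ‖ζ‖ ^ 2 / θ ^ 2 = (‖ζ‖ / θ) ^ 2 := by rw [div_pow]
  rw [h9]
  nlinarith [sq_nonneg (‖ζ‖ / θ - ‖v‖)]

end Crest.Agent.FE
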