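import Crest.Agent.FE.Defs

/-!
# Row 89, chunk D2: lower bound and measurability of the free Fisher information

* lower bound: test polynomials `P_i = (1/b_i) x_i` (a single letter), `b_i = τ(X_i²)`:
  `2 (τ⊗τ)(∂_i P_i) − τ(P_i²) = 2/b_i − b_i/b_i² = 1/b_i`.
* measurability: for every fixed `P` the function
  `s ↦ ofReal (Re Σ_i (2 splitPairing τ (X+√s S) i (P i) − τ((P i)(X+√s S)²)))` is continuous
  (`s ↦ X + √s S` is continuous, so are products and the continuous functional `τ`); a supremum of
  continuous functions is lower semicontinuous (`lowerSemicontinuous_iSup`,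
  `LowerSemicontinuous.measurable`).
-/

set_option autoImplicit false

namespace Crest.Agent.FE

open scoped InnerProductSpace ENNReal

theorem fisher_lower {A : Type*} [Ring A] [Algebra ℂ A] (τ : A →ₗ[ℂ] ℂ) (hτ1 : τ 1 = 1) {n : ℕ}
    (X : Fin n → A) (b : Fin n → ℝ) (hb : ∀ i, 0 < b i) (hXb : ∀ i, τ (X i * X i) = (b i : ℂ)) :
    ENNReal.ofReal (∑ i, 1 / b i) ≤ Crest.OpAlg.freeFisher τ X := by
  set P : Fin n → Crest.OpAlg.NCPoly n := fun i =>
    MonoidAlgebra.single (FreeMonoid.of i) (((1 / b i : ℝ)) : ℂ) with hP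
  have hstar : ∀ i, Crest.OpAlg.polyStar (P i) = P i := by
    intro i
    simp only [hP, Crest.OpAlg.polyStar]
    rw [MonoidAlgebra.coeff_single, Finsupp.sum_single_index]
    · simp
    · simp
  have h1 : ∀ i, Crest.OpAlg.splitPairing τ X i (P i) = (((1 / b i : ℝ)) : ℂ) := by
    intro i
    simp only [hP, Crest.OpAlg.splitPairing]
    rw [MonoidAlgebra.coeff_single, Finsupp.sum_single_index]
    · simp [Crest.OpAlg.wordEval, hτ1]
    · simp
  have h2 : ∀ i, τ (Crest.OpAlg.polyEval X (P i) * Crest.OpAlg.polyEval X (P i)) =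
      (((1 / b i : ℝ)) : ℂ) := by
    intro i
    have e : Crest.OpAlg.polyEval X (P i) = (((1 / b i : ℝ)) : ℂ) • X i := by
      simp [hP, Crest.OpAlg.polyEval, MonoidAlgebra.lift_single]
    rw [e, smul_mul_smul_comm, map_smul, hXb, smul_eq_mul]
    have h0 : (b i : ℂ) ≠ 0 := by exact_mod_cast (hb i).ne'
    push_cast
    field_simp
  refine le_trans (le_of_eq ?_) (le_iSup₂ (f := fun (P : Fin n → Crest.OpAlg.NCPoly n)
    (_ : ∀ i, Crest.OpAlg.polyStar (P i) = P i) =>
    ENNReal.ofReal (∑ i, (2 * Crest.OpAlg.splitPairing τ X i (P i) -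
      τ (Crest.OpAlg.polyEval X (P i) * Crest.OpAlg.polyEval X (P i)))).re) P hstar)
  congr 1
  simp only [h1, h2]
  rw [Complex.re_sum]
  refine Finset.sum_congr rfl fun i _ => ?_
  have : (2 * (((1 / b i : ℝ)) : ℂ) - (((1 / b i : ℝ)) : ℂ)) = (((1 / b i : ℝ)) : ℂ) := by ring
  rw [this, Complex.ofReal_re]

private theorem fl_word_cont {A : Type*} [CStarAlgebra A] {n : ℕ} (X S : Fin n → A)
    (w : List (Fin n)) :
    Continuous fun s : ℝ => Crest.OpAlg.wordEval (Crest.OpAlg.heatTuple X S s)
      (FreeMonoid.toList.symm w) := by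
  induction w with
  | nil =>
    have : (fun s : ℝ => Crest.OpAlg.wordEval (Crest.OpAlg.heatTuple X S s)
      (FreeMonoid.toList.symm ([] : List (Fin n)))) = fun _ => (1 : A) := by
      funext s
      exact map_one (FreeMonoid.lift (Crest.OpAlg.heatTuple X S s))
    rw [this]
    exact continuous_const
  | cons a w ih =>
    have : (fun s : ℝ => Crest.OpAlg.wordEval (Crest.OpAlg.heatTuple X S s)
      (FreeMonoid.toList.symm (a :: w))) = fun s => Crest.OpAlg.heatTuple X S s a *
        Crest.OpAlg.wordEval (Crest.OpAlg.heatTuple X S s) (FreeMonoid.toList.symm w) := by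
      funext s
      have h := map_mul (FreeMonoid.lift (Crest.OpAlg.heatTuple X S s)) (FreeMonoid.of a)
        (FreeMonoid.toList.symm w)
      rw [FreeMonoid.lift_eval_of] at h
      exact h
    rw [this]
    refine Continuous.mul ?_ ih
    unfold Crest.OpAlg.heatTuple
    exact continuous_const.add
      ((Complex.continuous_ofReal.comp Real.continuous_sqrt).smul continuous_const)

theorem fisher_measurable {A : Type*} [CStarAlgebra A] (τ : A →ₗ[ℂ] ℂ) (hτ : Continuous τ) {n : ℕ}
    (X S : Fin n → A) :
    Measurable fun s : ℝ => Crest.OpAlg.freeFisher τ (Crest.OpAlg.heatTuple X S s) := by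
  apply LowerSemicontinuous.measurable
  unfold Crest.OpAlg.freeFisher
  refine lowerSemicontinuous_iSup fun P => lowerSemicontinuous_iSup fun _ => ?_
  refine Continuous.lowerSemicontinuous ?_
  refine ENNReal.continuous_ofReal.comp (Complex.continuous_re.comp ?_)
  refine continuous_finsetSum _ fun i _ => ?_
  have hW := fun w : List (Fin n) => hτ.comp (fl_word_cont X S w)
  refine Continuous.sub (continuous_const.mul ?_) ?_
  · unfold Crest.OpAlg.splitPairing Finsupp.sum
    refine continuous_finsetSum _ fun w _ => continuous_const.mul ?_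
    refine continuous_finsetSum _ fun k _ => ?_
    split_ifs
    · exact (hW _).mul (hW _)
    · exact continuous_const
  · have hE : Continuous fun s : ℝ => Crest.OpAlg.polyEval (Crest.OpAlg.heatTuple X S s) (P i) := by
      unfold Crest.OpAlg.polyEval
      simp only [MonoidAlgebra.lift_apply, Finsupp.sum]
      refine continuous_finsetSum _ fun w _ => Continuous.const_smul ?_ _
      exact fl_word_cont X S (FreeMonoid.toList w)
    exact hτ.comp (hE.mul hE)

end Crest.Agent.FE
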