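import Mathlib

/-!
# Row 89, chunk C2: the majorant (pure real analysis, no other file needed)

Let `c : ℕ → ℕ → ℝ` be nonnegative with `c m 0 = [m = 0]`, `c 0 1 = 0` and
`c m (l+1) ≤ κ² Σ_{b<l} c 0 b · c m (l-1-b)
  + κ² Σ_{b<m} (2(c b l · c (m-1-b) 2 + c b (l+1) · c (m-1-b) 1 + c b (l+2) · c (m-1-b) 0) + c b l · c (m-1-b) 0)`,
`κ ≥ 1`.  Then `c m l ≤ (4κ)^l (48κ³)^m catalan m`.

PROOF.  `m = 0`: `c 0 l ≤ (2κ)^l`: for `l = 2h` even `c 0 (2h) ≤ κ^{2h} catalan h ≤ (2κ)^{2h}`, for odd `l`,
`c 0 l = 0` (strong induction: `c 0 (l+1) ≤ κ² Σ_{b<l} c 0 b c 0 (l-1-b)`; `catalan_succ`,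
`catalan ≤ 4^h`; alternatively find any other induction proving `c 0 l ≤ (2κ)^l`).
`m ≥ 1`: induction on `(m,l)` lexicographically.  `c m 0 = 0`.  For `l+1`, with `K = 4κ`, `L = 48κ³`:
first sum `≤ κ² Σ_b (2κ)^b K^{l-1-b} L^m cat_m ≤ 2κ² K^{l-1} L^m cat_m = K^{l+1} L^m cat_m / 8` (empty if `l = 0`);
second sum `≤ κ² Σ_{b<m} cat_b cat_{m-1-b} L^{m-1} (6 K^{l+2} + K^l) = cat_m L^m K^{l+1} (6κ²K + κ²/K)/L
= cat_m L^m K^{l+1} (1/2 + 1/(192 κ²))` (`catalan_succ`).  Total `≤ (1/8+1/2+1/192) < 1`.
-/

set_option autoImplicit false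

namespace Crest.Agent.FE

theorem sum_range_even_odd (f : ℕ → ℝ) (l : ℕ) :
    ∑ b ∈ Finset.range (2 * l + 1), f b =
      ∑ i ∈ Finset.range (l + 1), f (2 * i) + ∑ i ∈ Finset.range l, f (2 * i + 1) := by
  induction l with
  | zero => simp
  | succ n ih =>
    rw [show 2 * (n + 1) + 1 = 2 * n + 1 + 1 + 1 by ring, Finset.sum_range_succ,
      Finset.sum_range_succ, ih, Finset.sum_range_succ (fun i => f (2 * i)) (n + 1),
      Finset.sum_range_succ (fun i => f (2 * i + 1)) n]
    have : 2 * (n + 1) = 2 * n + 1 + 1 := by ring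
    rw [this]
    ring

theorem catalan_succ_range (n : ℕ) :
    (catalan (n + 1) : ℝ) = ∑ i ∈ Finset.range (n + 1), (catalan i : ℝ) * catalan (n - i) := by
  rw [catalan_succ]
  push_cast
  rw [Finset.sum_range (fun i => (catalan i : ℝ) * (catalan (n - i) : ℝ))]

theorem catalan_le_four_pow (n : ℕ) : (catalan n : ℝ) ≤ 4 ^ n := by
  have h1 : catalan n ≤ 4 ^ n := by
    rw [catalan_eq_centralBinom_div]
    calc n.centralBinom / (n + 1) ≤ n.centralBinom := Nat.div_le_self _ _
      _ ≤ 2 ^ (2 * n) := Nat.choose_le_two_pow _ _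
      _ = 4 ^ n := by rw [pow_mul]; norm_num
  exact_mod_cast h1

theorem norm_majorant_zero (κ : ℝ) (hκ : 1 ≤ κ) (c : ℕ → ℝ) (hc : ∀ l, 0 ≤ c l)
    (h0 : c 0 = 1) (h01 : c 1 = 0)
    (hrec : ∀ l, c (l + 1) ≤ κ ^ 2 * (∑ b ∈ Finset.range l, c b * c (l - 1 - b)))
    (l : ℕ) : c l ≤ (2 * κ) ^ l := by
  have key : ∀ h : ℕ, c (2 * h) ≤ κ ^ (2 * h) * catalan h ∧ c (2 * h + 1) = 0 := by
    intro h
    induction h using Nat.strong_induction_on with
    | _ h ih =>
      rcases h with _ | h
      · simp [h0, h01]
      · constructor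
        · have h2 := hrec (2 * h + 1)
          have e1 : 2 * (h + 1) = 2 * h + 1 + 1 := by ring
          rw [e1]
          refine h2.trans ?_
          rw [sum_range_even_odd]
          have hodd : ∑ i ∈ Finset.range h, c (2 * i + 1) * c (2 * h + 1 - 1 - (2 * i + 1)) = 0 := by
            apply Finset.sum_eq_zero
            intro i hi
            rw [(ih i (by have := Finset.mem_range.1 hi; omega)).2, zero_mul]
          rw [hodd, add_zero, catalan_succ_range]
          have : κ ^ (2 * h + 1 + 1) = κ ^ 2 * κ ^ (2 * h) := by rw [← pow_add]; congr 1; ring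
          rw [this, mul_assoc]
          apply mul_le_mul_of_nonneg_left _ (by positivity)
          rw [Finset.mul_sum]
          apply Finset.sum_le_sum
          intro i hi
          have hi' : i ≤ h := by have := Finset.mem_range.1 hi; omega
          have e2 : 2 * h + 1 - 1 - 2 * i = 2 * (h - i) := by omega
          rw [e2]
          have b1 := (ih i (by omega)).1
          have b2 := (ih (h - i) (by omega)).1
          calc c (2 * i) * c (2 * (h - i))
              ≤ (κ ^ (2 * i) * catalan i) * (κ ^ (2 * (h - i)) * catalan (h - i)) :=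
                mul_le_mul b1 b2 (hc _) (by positivity)
            _ = κ ^ (2 * h) * (catalan i * catalan (h - i)) := by
                have : κ ^ (2 * h) = κ ^ (2 * i) * κ ^ (2 * (h - i)) := by
                  rw [← pow_add]; congr 1; omega
                rw [this]; ring
        · have h2 := hrec (2 * (h + 1))
          apply le_antisymm _ (hc _)
          refine h2.trans ?_
          have : ∑ b ∈ Finset.range (2 * (h + 1)), c b * c (2 * (h + 1) - 1 - b) = 0 := by
            apply Finset.sum_eq_zero
            intro b hb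
            have hb' := Finset.mem_range.1 hb
            rcases Nat.even_or_odd' b with ⟨i, hi | hi⟩
            · -- b even, complementary odd
              have e3 : 2 * (h + 1) - 1 - b = 2 * (h - i) + 1 := by omega
              rw [e3, (ih (h - i) (by omega)).2, mul_zero]
            · rw [hi, (ih i (by omega)).2, zero_mul]
          rw [this, mul_zero]
  rcases Nat.even_or_odd' l with ⟨h, rfl | rfl⟩
  · refine (key h).1.trans ?_
    calc κ ^ (2 * h) * (catalan h : ℝ) ≤ κ ^ (2 * h) * 4 ^ h :=
          mul_le_mul_of_nonneg_left (catalan_le_four_pow h) (by positivity)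
      _ = (2 * κ) ^ (2 * h) := by
          rw [mul_pow, pow_mul 2 2 h]; norm_num; ring
  · rw [(key h).2]; positivity

theorem norm_majorant (κ : ℝ) (hκ : 1 ≤ κ) (c : ℕ → ℕ → ℝ) (hc : ∀ m l, 0 ≤ c m l)
    (h0 : ∀ m, c m 0 = if m = 0 then 1 else 0) (h01 : c 0 1 = 0)
    (hrec : ∀ m l, c m (l + 1) ≤ κ ^ 2 * (∑ b ∈ Finset.range l, c 0 b * c m (l - 1 - b)) +
      κ ^ 2 * ∑ b ∈ Finset.range m,
        (2 * (c b l * c (m - 1 - b) 2 + c b (l + 1) * c (m - 1 - b) 1 +
          c b (l + 2) * c (m - 1 - b) 0) + c b l * c (m - 1 - b) 0))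
    (m l : ℕ) : c m l ≤ (4 * κ) ^ l * (48 * κ ^ 3) ^ m * catalan m := by
  have hz : ∀ l, c 0 l ≤ (2 * κ) ^ l := by
    apply norm_majorant_zero κ hκ (c 0) (hc 0) (by simp [h0]) h01
    intro l
    have := hrec 0 l
    simpa using this
  have hκ0 : 0 < κ := by linarith
  have hL1 : 1 ≤ 48 * κ ^ 3 := by
    have : 1 ≤ κ ^ 3 := one_le_pow₀ hκ
    linarith
  set K : ℝ := 4 * κ with hK
  set L : ℝ := 48 * κ ^ 3 with hL
  have hKpos : 0 < K := by positivity
  have hLpos : 0 < L := by positivity
  induction m using Nat.strong_induction_on generalizing l with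
  | _ m ihm =>
    rcases m with _ | m
    · simp only [pow_zero, mul_one, catalan_zero, Nat.cast_one]
      refine (hz l).trans ?_
      apply pow_le_pow_left₀ (by positivity)
      rw [hK]; linarith
    · induction l using Nat.strong_induction_on with
      | _ l ihl =>
        rcases l with _ | l
        · rw [h0, if_neg (Nat.succ_ne_zero m)]; positivity
        · refine (hrec (m + 1) l).trans ?_
          set T : ℝ := K ^ (l + 1) * L ^ (m + 1) * catalan (m + 1) with hT
          have hT0 : 0 ≤ T := by positivity
          -- first sum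
          have hfirst : κ ^ 2 * (∑ b ∈ Finset.range l, c 0 b * c (m + 1) (l - 1 - b)) ≤ T / 8 := by
            rcases l with _ | l
            · simp; positivity
            · have s1 : ∑ b ∈ Finset.range (l + 1), c 0 b * c (m + 1) (l + 1 - 1 - b) ≤
                  ∑ b ∈ Finset.range (l + 1),
                    (1 / 2 : ℝ) ^ b * (K ^ l * L ^ (m + 1) * catalan (m + 1)) := by
                apply Finset.sum_le_sum
                intro b hb
                have hb' := Finset.mem_range.1 hb
                have e : l + 1 - 1 - b = l - b := by omega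
                rw [e]
                calc c 0 b * c (m + 1) (l - b)
                    ≤ (2 * κ) ^ b * (K ^ (l - b) * L ^ (m + 1) * catalan (m + 1)) :=
                      mul_le_mul (hz b) (ihl (l - b) (by omega)) (hc _ _) (by positivity)
                  _ = (1 / 2 : ℝ) ^ b * (K ^ l * L ^ (m + 1) * catalan (m + 1)) := by
                      have h1 : K ^ l = K ^ b * K ^ (l - b) := by
                        rw [← pow_add]; congr 1; omega
                      have h2 : (2 * κ) ^ b = (1 / 2 : ℝ) ^ b * K ^ b := by
                        rw [← mul_pow]; congr 1; rw [hK]; ring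
                      rw [h1, h2]; ring
              have s2 : ∑ b ∈ Finset.range (l + 1), (1 / 2 : ℝ) ^ b ≤ 2 := by
                have := sum_geometric_two_le (l + 1)
                simpa using this
              rw [← Finset.sum_mul] at s1
              have s3 : ∑ b ∈ Finset.range (l + 1), c 0 b * c (m + 1) (l + 1 - 1 - b) ≤
                  2 * (K ^ l * L ^ (m + 1) * catalan (m + 1)) :=
                s1.trans (mul_le_mul_of_nonneg_right s2 (by positivity))
              calc κ ^ 2 * ∑ b ∈ Finset.range (l + 1), c 0 b * c (m + 1) (l + 1 - 1 - b)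
                  ≤ κ ^ 2 * (2 * (K ^ l * L ^ (m + 1) * catalan (m + 1))) :=
                    mul_le_mul_of_nonneg_left s3 (by positivity)
                _ = T / 8 := by
                    rw [hT, pow_succ K (l + 1), pow_succ K l, hK]; ring
          -- second sum
          have hsecond : κ ^ 2 * ∑ b ∈ Finset.range (m + 1),
              (2 * (c b l * c (m + 1 - 1 - b) 2 + c b (l + 1) * c (m + 1 - 1 - b) 1 +
                c b (l + 2) * c (m + 1 - 1 - b) 0) + c b l * c (m + 1 - 1 - b) 0) ≤
                (3 / 4) * T := by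
            have s1 : ∑ b ∈ Finset.range (m + 1),
              (2 * (c b l * c (m + 1 - 1 - b) 2 + c b (l + 1) * c (m + 1 - 1 - b) 1 +
                c b (l + 2) * c (m + 1 - 1 - b) 0) + c b l * c (m + 1 - 1 - b) 0) ≤
              ∑ b ∈ Finset.range (m + 1), ((catalan b : ℝ) * catalan (m - b)) *
                (L ^ m * (6 * K ^ (l + 2) + K ^ l)) := by
              apply Finset.sum_le_sum
              intro b hb
              have hb' := Finset.mem_range.1 hb
              have e : m + 1 - 1 - b = m - b := by omega
              rw [e]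
              have hLm : L ^ m = L ^ b * L ^ (m - b) := by
                rw [← pow_add]; congr 1; omega
              have P : ∀ i j, c b i * c (m - b) j ≤
                  ((catalan b : ℝ) * catalan (m - b)) * (L ^ m * K ^ (i + j)) := by
                intro i j
                calc c b i * c (m - b) j
                    ≤ (K ^ i * L ^ b * catalan b) * (K ^ j * L ^ (m - b) * catalan (m - b)) :=
                      mul_le_mul (ihm b (by omega) i) (ihm (m - b) (by omega) j) (hc _ _)
                        (by positivity)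
                  _ = _ := by rw [hLm, pow_add]; ring
              have p1 := P l 2
              have p2 := P (l + 1) 1
              have p3 := P (l + 2) 0
              have p4 := P l 0
              have e2 : l + 1 + 1 = l + 2 := rfl
              rw [e2] at p2
              rw [add_zero] at p3 p4
              calc 2 * (c b l * c (m - b) 2 + c b (l + 1) * c (m - b) 1 +
                    c b (l + 2) * c (m - b) 0) + c b l * c (m - b) 0
                  ≤ 2 * (((catalan b : ℝ) * catalan (m - b)) * (L ^ m * K ^ (l + 2)) +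
                      ((catalan b : ℝ) * catalan (m - b)) * (L ^ m * K ^ (l + 2)) +
                      ((catalan b : ℝ) * catalan (m - b)) * (L ^ m * K ^ (l + 2))) +
                      ((catalan b : ℝ) * catalan (m - b)) * (L ^ m * K ^ l) := by linarith
                _ = _ := by ring
            rw [← Finset.sum_mul, ← catalan_succ_range] at s1
            have s2 : κ ^ 2 * (6 * K ^ (l + 2) + K ^ l) ≤ (3 / 4) * (K ^ (l + 1) * L) := by
              have hKl : 0 ≤ K ^ l := by positivity
              have e1 : κ ^ 2 * (6 * K ^ (l + 2) + K ^ l) = K ^ l * (96 * κ ^ 4 + κ ^ 2) := by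
                rw [pow_add K l 2, hK]; ring
              have e2 : (3 / 4) * (K ^ (l + 1) * L) = K ^ l * (144 * κ ^ 4) := by
                rw [pow_succ K l, hK, hL]; ring
              rw [e1, e2]
              apply mul_le_mul_of_nonneg_left _ hKl
              have : κ ^ 2 ≤ κ ^ 4 := pow_le_pow_right₀ hκ (by norm_num)
              nlinarith [this, pow_pos hκ0 4]
            calc κ ^ 2 * ∑ b ∈ Finset.range (m + 1),
              (2 * (c b l * c (m + 1 - 1 - b) 2 + c b (l + 1) * c (m + 1 - 1 - b) 1 +
                c b (l + 2) * c (m + 1 - 1 - b) 0) + c b l * c (m + 1 - 1 - b) 0)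
                ≤ κ ^ 2 * ((catalan (m + 1) : ℝ) * (L ^ m * (6 * K ^ (l + 2) + K ^ l))) :=
                  mul_le_mul_of_nonneg_left s1 (by positivity)
              _ = (κ ^ 2 * (6 * K ^ (l + 2) + K ^ l)) * (L ^ m * catalan (m + 1)) := by ring
              _ ≤ ((3 / 4) * (K ^ (l + 1) * L)) * (L ^ m * catalan (m + 1)) :=
                  mul_le_mul_of_nonneg_right s2 (by positivity)
              _ = (3 / 4) * T := by rw [hT, pow_succ L m]; ring
          linarith

end Crest.Agent.FE
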