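import Crest.Agent.FE.NormRec
import Crest.Agent.FE.NormMaj
import Crest.Agent.FE.Semi

/-!
# Row 89, chunk C3: `Σ_w V_w ≤ r` for `s ≥ 73728 κ⁶`

`k = κ⁴`, `√k = κ²`.  By C1 + C2: `cNorm m 3 ≤ (4κ)^3 (48κ³)^m catalan m`, `cNorm 0 3 = 0` (odd moments
vanish: `CQ Q [] = mom Q`, `mom_odd`).
PROOF.  `(x+y)² ≤ 2x² + 2y²`; `Σ_{(p,q,s')} Σ_u CQ [p,q,s'] u ² = cNorm m 3 ²` (reindex `Fin 3 → Fin k`), the same
for `[s',q,p]`; so the left side is `≤ Σ_{1≤m<N} 4 cNorm(m,3)² / s^m ≤ 4·4096 κ⁶ Σ_{m≥1} ((48κ³)²·16/s)^m`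
(`catalan m ≤ 4^m`) `≤ 4·4096 κ⁶ · Σ_{m≥1} 2^{-m} = 16384 κ⁶ ≤ κ^12` as `κ ≥ 10^8`
(`(48²·16) = 36864`, `s ≥ 73728 κ⁶`).
-/

set_option autoImplicit false

namespace Crest.Agent.FE

private theorem sum_three {k : ℕ} (g : List (Fin k) → ℝ) :
    ∑ w : Fin k × Fin k × Fin k, g [w.1, w.2.1, w.2.2] = ∑ Q : Fin 3 → Fin k, g (List.ofFn Q) := by
  let E : (Fin 3 → Fin k) ≃ Fin k × Fin k × Fin k :=
    { toFun := fun Q => (Q 0, Q 1, Q 2)
      invFun := fun w => ![w.1, w.2.1, w.2.2]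
      left_inv := fun Q => by
        funext i
        fin_cases i <;> rfl
      right_inv := fun w => rfl }
  rw [← Equiv.sum_comp E]
  refine Finset.sum_congr rfl fun Q _ => ?_
  simp [E, List.ofFn_succ]

private theorem sum_three_rev {k : ℕ} (g : List (Fin k) → ℝ) :
    ∑ w : Fin k × Fin k × Fin k, g [w.2.2, w.2.1, w.1] = ∑ Q : Fin 3 → Fin k, g (List.ofFn Q) := by
  rw [← sum_three]
  let E : (Fin k × Fin k × Fin k) ≃ Fin k × Fin k × Fin k :=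
    { toFun := fun w => (w.2.2, w.2.1, w.1)
      invFun := fun w => (w.2.2, w.2.1, w.1)
      left_inv := fun w => rfl
      right_inv := fun w => rfl }
  rw [← Equiv.sum_comp E (fun w => g [w.1, w.2.1, w.2.2])]
  rfl

private theorem catalan_le (m : ℕ) : (catalan m : ℝ) ≤ 4 ^ m := by
  have h1 : catalan m ≤ Nat.centralBinom m := by
    rw [catalan_eq_centralBinom_div]
    exact Nat.div_le_self _ _
  have h2 : Nat.centralBinom m ≤ 4 ^ m := by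
    rw [Nat.centralBinom_eq_two_mul_choose]
    calc (2 * m).choose m ≤ 2 ^ (2 * m) := Nat.choose_le_two_pow _ _
      _ = 4 ^ m := by rw [pow_mul]; norm_num
  exact_mod_cast h1.trans h2

theorem norm_final {n : ℕ} (κ : ℕ) (hκ : 10 ^ 8 ≤ κ) (e : Fin n ≃ IX (κ ^ 4)) (s : ℝ)
    (hs : 73728 * (κ : ℝ) ^ 6 ≤ s) (N : ℕ) :
    ∑ w : Fin (κ ^ 4) × Fin (κ ^ 4) × Fin (κ ^ 4), ∑ m ∈ Finset.range N, ∑ u : Fin m → Fin n,
      (CQ (fun i => wordsIX (e i)) [w.1, w.2.1, w.2.2] (List.ofFn u) +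
        CQ (fun i => wordsIX (e i)) [w.2.2, w.2.1, w.1] (List.ofFn u)) ^ 2 / s ^ m
      ≤ (κ : ℝ) ^ 12 := by
  set words : Fin n → List (List (Fin (κ ^ 4))) := fun i => wordsIX (e i) with hwords
  have hκr : (10 : ℝ) ^ 8 ≤ (κ : ℝ) := by exact_mod_cast hκ
  have hκ1 : (1 : ℝ) ≤ (κ : ℝ) := le_trans (by norm_num) hκr
  have hκ0 : (0 : ℝ) < (κ : ℝ) := by linarith
  have hs0 : 0 < s := lt_of_lt_of_le (by positivity) hs
  have hmaj : ∀ m, cNorm words m 3 ≤ (4 * (κ : ℝ)) ^ 3 * (48 * (κ : ℝ) ^ 3) ^ m * catalan m := by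
    intro m
    refine norm_majorant (κ : ℝ) hκ1 (cNorm words) (fun m l => Real.sqrt_nonneg _)
      (fun m => cNorm_zero_right words m) (cNorm_zero_one words) (fun m l => ?_) m 3
    have h := cNorm_rec e m l
    have hsq : Real.sqrt (((κ ^ 4 : ℕ)) : ℝ) = (κ : ℝ) ^ 2 := by
      rw [show (((κ ^ 4 : ℕ)) : ℝ) = ((κ : ℝ) ^ 2) ^ 2 by push_cast; ring]
      exact Real.sqrt_sq (by positivity)
    rw [hsq] at h
    exact h
  have hterm : ∀ m, ∑ w : Fin (κ ^ 4) × Fin (κ ^ 4) × Fin (κ ^ 4), ∑ u : Fin m → Fin n,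
      (CQ words [w.1, w.2.1, w.2.2] (List.ofFn u) +
        CQ words [w.2.2, w.2.1, w.1] (List.ofFn u)) ^ 2 / s ^ m ≤
      16384 * (κ : ℝ) ^ 6 * (1 / 2) ^ m := by
    intro m
    have h1 : ∑ w : Fin (κ ^ 4) × Fin (κ ^ 4) × Fin (κ ^ 4), ∑ u : Fin m → Fin n,
        (CQ words [w.1, w.2.1, w.2.2] (List.ofFn u) +
          CQ words [w.2.2, w.2.1, w.1] (List.ofFn u)) ^ 2 ≤ 4 * cNorm words m 3 ^ 2 := by
      have e0 : cNorm words m 3 ^ 2 =
          ∑ Q : Fin 3 → Fin (κ ^ 4), ∑ u : Fin m → Fin n,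
            CQ words (List.ofFn Q) (List.ofFn u) ^ 2 := by
        unfold cNorm
        exact Real.sq_sqrt (Finset.sum_nonneg fun _ _ => Finset.sum_nonneg fun _ _ => sq_nonneg _)
      have e1 := sum_three (k := κ ^ 4)
        (fun Q => ∑ u : Fin m → Fin n, CQ words Q (List.ofFn u) ^ 2)
      have e2 := sum_three_rev (k := κ ^ 4)
        (fun Q => ∑ u : Fin m → Fin n, CQ words Q (List.ofFn u) ^ 2)
      calc ∑ w : Fin (κ ^ 4) × Fin (κ ^ 4) × Fin (κ ^ 4), ∑ u : Fin m → Fin n,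
          (CQ words [w.1, w.2.1, w.2.2] (List.ofFn u) +
            CQ words [w.2.2, w.2.1, w.1] (List.ofFn u)) ^ 2
          ≤ ∑ w : Fin (κ ^ 4) × Fin (κ ^ 4) × Fin (κ ^ 4), ∑ u : Fin m → Fin n,
            (2 * CQ words [w.1, w.2.1, w.2.2] (List.ofFn u) ^ 2 +
              2 * CQ words [w.2.2, w.2.1, w.1] (List.ofFn u) ^ 2) := by
            refine Finset.sum_le_sum fun w _ => Finset.sum_le_sum fun u _ => ?_
            nlinarith [sq_nonneg (CQ words [w.1, w.2.1, w.2.2] (List.ofFn u) -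
              CQ words [w.2.2, w.2.1, w.1] (List.ofFn u))]
        _ = 2 * (∑ w : Fin (κ ^ 4) × Fin (κ ^ 4) × Fin (κ ^ 4), ∑ u : Fin m → Fin n,
              CQ words [w.1, w.2.1, w.2.2] (List.ofFn u) ^ 2) +
            2 * (∑ w : Fin (κ ^ 4) × Fin (κ ^ 4) × Fin (κ ^ 4), ∑ u : Fin m → Fin n,
              CQ words [w.2.2, w.2.1, w.1] (List.ofFn u) ^ 2) := by
            simp only [Finset.sum_add_distrib, Finset.mul_sum]
        _ = 4 * cNorm words m 3 ^ 2 := by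
            rw [e1, e2, e0]
            ring
    have h2 : cNorm words m 3 ^ 2 ≤
        ((4 * (κ : ℝ)) ^ 3 * (48 * (κ : ℝ) ^ 3) ^ m * 4 ^ m) ^ 2 := by
      refine pow_le_pow_left₀ (Real.sqrt_nonneg _) ((hmaj m).trans ?_) 2
      exact mul_le_mul_of_nonneg_left (catalan_le m) (by positivity)
    have h3 : ∑ w : Fin (κ ^ 4) × Fin (κ ^ 4) × Fin (κ ^ 4), ∑ u : Fin m → Fin n,
        (CQ words [w.1, w.2.1, w.2.2] (List.ofFn u) +
          CQ words [w.2.2, w.2.1, w.1] (List.ofFn u)) ^ 2 / s ^ m =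
        (∑ w : Fin (κ ^ 4) × Fin (κ ^ 4) × Fin (κ ^ 4), ∑ u : Fin m → Fin n,
        (CQ words [w.1, w.2.1, w.2.2] (List.ofFn u) +
          CQ words [w.2.2, w.2.1, w.1] (List.ofFn u)) ^ 2) / s ^ m := by
      simp only [Finset.sum_div]
    rw [h3, div_le_iff₀ (by positivity)]
    have h4 : ((4 * (κ : ℝ)) ^ 3 * (48 * (κ : ℝ) ^ 3) ^ m * 4 ^ m) ^ 2 =
        4096 * (κ : ℝ) ^ 6 * (36864 * (κ : ℝ) ^ 6) ^ m := by
      rw [mul_assoc, ← mul_pow, mul_pow, ← pow_mul, ← pow_mul, mul_comm m 2, pow_mul _ 2 m]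
      congr 1
      · ring
      · congr 1
        ring
    have h5 : (36864 * (κ : ℝ) ^ 6) ^ m ≤ (1 / 2) ^ m * s ^ m := by
      rw [← mul_pow]
      exact pow_le_pow_left₀ (by positivity) (by linarith) m
    calc _ ≤ 4 * cNorm words m 3 ^ 2 := h1
      _ ≤ 4 * (4096 * (κ : ℝ) ^ 6 * (36864 * (κ : ℝ) ^ 6) ^ m) := by rw [← h4]; linarith
      _ ≤ 4 * (4096 * (κ : ℝ) ^ 6 * ((1 / 2) ^ m * s ^ m)) := by
          have : 0 ≤ 4096 * (κ : ℝ) ^ 6 := by positivity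
          have := mul_le_mul_of_nonneg_left h5 this
          linarith
      _ = 16384 * (κ : ℝ) ^ 6 * (1 / 2) ^ m * s ^ m := by ring
  rw [Finset.sum_comm]
  calc _ ≤ ∑ m ∈ Finset.range N, 16384 * (κ : ℝ) ^ 6 * (1 / 2) ^ m :=
        Finset.sum_le_sum fun m _ => hterm m
    _ = 16384 * (κ : ℝ) ^ 6 * ∑ m ∈ Finset.range N, (1 / 2 : ℝ) ^ m := by rw [Finset.mul_sum]
    _ ≤ 16384 * (κ : ℝ) ^ 6 * 2 := by
        refine mul_le_mul_of_nonneg_left ?_ (by positivity)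
        have h := Summable.sum_le_tsum (Finset.range N) (fun i _ => by positivity)
          (summable_geometric_two)
        rw [tsum_geometric_two] at h
        exact h
    _ ≤ (κ : ℝ) ^ 12 := by
        have h6 : (32768 : ℝ) ≤ (κ : ℝ) ^ 6 := by
          calc (32768 : ℝ) ≤ (10 ^ 8) ^ 6 := by norm_num
            _ ≤ (κ : ℝ) ^ 6 := pow_le_pow_left₀ (by norm_num) hκr 6
        have h7 : (κ : ℝ) ^ 12 = (κ : ℝ) ^ 6 * (κ : ℝ) ^ 6 := by ring
        rw [h7]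
        nlinarith [pow_pos hκ0 6]

end Crest.Agent.FE
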