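import Crest.Agent.FE.FisherUp
import Crest.Agent.FE.FisherLow
import Crest.Agent.FE.NormFin

/-!
# Row 89, chunk D4: bounds for the free Fisher information along the path

`n`, `e : Fin n ≃ IX (κ⁴)`, `words = wordsIX ∘ e`, `t = tt t0 ∘ e`, `v_i = τ(y_i²)`.
* `fisher_upperA`: sum `fisher_termA` over `i` (`iSup₂_le`, `ENNReal.ofReal_le_ofReal`).
* `fisher_upperB` (`s ≥ 73728κ⁶`): for a selfadjoint tuple `P` take `N ≥ 2` larger than all degrees; for
  `e i = inl j` use `fisher_termA`, for `e i = inr w` use `fisher_termB` with `v_i ≥ 2`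
  (`two_le_tau_yy`), `θ_i = 1 + s`, `∏_l θ_{u_l} ≥ s^m`, and sum over `w` by `norm_final`:
  `Σ_w ((1+s) − 2 + V_w)/(1+s)² ≤ r/(1+s) + (−2r + r)/(1+s)²`, `r = (κ⁴)³ = κ^12`.
  Reindex sums over `Fin n` by `e` (`Equiv.sum_comp`, `Fintype.sum_sum_type`).
* `fisher_lower'`: `fisher_lower` with `tau_heat_sq`.
-/

set_option autoImplicit false

namespace Crest.Agent.FE

open scoped InnerProductSpace ENNReal

theorem tt_pos {k : ℕ} {t0 : ℝ} (h : 0 < t0) (i : IX k) : 0 < tt t0 i := by
  rcases i with j | w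
  · exact h
  · exact one_pos

theorem evalWords_wordsIX_sa {A : Type*} [Ring A] [StarRing A] {k : ℕ} (a : Fin k → A)
    (ha : ∀ j, star (a j) = a j) (x : IX k) : star (evalWords a (wordsIX x)) =
      evalWords a (wordsIX x) := by
  unfold evalWords
  rcases x with j | ⟨p, q, s⟩
  · simp [wordsIX, ha]
  · simp only [wordsIX, List.map_cons, List.map_nil, List.prod_cons, List.prod_nil,
      mul_one, List.sum_cons, List.sum_nil, add_zero]
    rw [star_add, star_mul, star_mul, star_mul, star_mul, ha, ha, ha,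
      add_comm, mul_assoc, mul_assoc]

theorem yA_selfAdjoint {k n : ℕ} (e : Fin n → IX k) (i : Fin n) :
    IsSelfAdjoint (yA (n := n) (fun i => wordsIX (e i)) i) := by
  unfold yA
  exact isSelfAdjoint_iff.2 (evalWords_wordsIX_sa _ (fun j => (gA_selfAdjoint _).star_eq) (e i))

theorem fisher_upperA {k n : ℕ} (words : Fin n → List (List (Fin k)))
    (hsa : ∀ i, IsSelfAdjoint (yA (n := n) words i)) (t : Fin n → ℝ) (ht : ∀ i, 0 < t i)
    (s : ℝ) (hs : 0 < s) :
    Crest.OpAlg.freeFisher (tau (LT k n)) (Crest.OpAlg.heatTuple (XA words t) SA s) ≤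
      ENNReal.ofReal (∑ i, 1 / (t i + s)) := by
  unfold Crest.OpAlg.freeFisher
  refine iSup₂_le fun P hP => ENNReal.ofReal_le_ofReal ?_
  rw [Complex.re_sum]
  exact Finset.sum_le_sum fun i _ => fisher_termA words hsa t ht s hs i (P i) (hP i)

theorem fisher_lower' {k n : ℕ} (words : Fin n → List (List (Fin k)))
    (hsa : ∀ i, IsSelfAdjoint (yA (n := n) words i)) (t : Fin n → ℝ) (ht : ∀ i, 0 < t i)
    (s : ℝ) (hs : 0 < s) :
    ENNReal.ofReal (∑ i, 1 / (t i + s + (tau (LT k n) (yA words i * yA words i)).re)) ≤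
      Crest.OpAlg.freeFisher (tau (LT k n)) (Crest.OpAlg.heatTuple (XA words t) SA s) := by
  have hft := tau_faithfulTracial (LT k n)
  have hv0 : ∀ i, 0 ≤ (tau (LT k n) (yA words i * yA words i)).re := by
    intro i
    have := (hft.2.1 (yA words i)).2
    rw [(hsa i).star_eq] at this
    exact this
  have h1 := fisher_lower (tau (LT k n)) hft.1 (Crest.OpAlg.heatTuple (XA words t) SA s)
    (fun i => (tau (LT k n) (yA words i * yA words i)).re + (t i + s))
    (fun i => by have := hv0 i; have := ht i; linarith)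
    (fun i => tau_heat_sq words hsa t ht s hs.le i)
  refine le_trans (le_of_eq ?_) h1
  congr 1
  refine Finset.sum_congr rfl fun i _ => ?_
  ring

theorem fisher_upperB {n : ℕ} (κ : ℕ) (hκ : 10 ^ 8 ≤ κ) (e : Fin n ≃ IX (κ ^ 4)) (t0 : ℝ)
    (ht0 : 0 < t0) (s : ℝ) (hs : 73728 * (κ : ℝ) ^ 6 ≤ s) :
    Crest.OpAlg.freeFisher (tau (LT (κ ^ 4) n))
      (Crest.OpAlg.heatTuple (XA (fun i => wordsIX (e i)) (fun i => tt t0 (e i))) SA s) ≤
      ENNReal.ofReal ((∑ i, 1 / (tt t0 (e i) + s)) - (κ : ℝ) ^ 12 / (1 + s) ^ 2) := by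
  have hκ0 : (0 : ℝ) < κ := by
    have : 0 < κ := lt_of_lt_of_le (by norm_num) hκ
    exact_mod_cast this
  have hs0 : 0 < s := lt_of_lt_of_le (by positivity) hs
  set words : Fin n → List (List (Fin (κ ^ 4))) := fun i => wordsIX (e i) with hwords
  set t : Fin n → ℝ := fun i => tt t0 (e i) with ht
  have htpos : ∀ i, 0 < t i := fun i => tt_pos ht0 (e i)
  have hsa : ∀ i, IsSelfAdjoint (yA (n := n) words i) := fun i => yA_selfAdjoint e i
  unfold Crest.OpAlg.freeFisher
  refine iSup₂_le fun P hP => ENNReal.ofReal_le_ofReal ?_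
  rw [Complex.re_sum]
  -- choose N
  obtain ⟨N, hN2, hN⟩ : ∃ N, 2 ≤ N ∧ ∀ i, ∀ w ∈ (P i).coeff.support,
      (FreeMonoid.toList w).length < N := by
    refine ⟨2 + ∑ i, ∑ w ∈ (P i).coeff.support, ((FreeMonoid.toList w).length + 1), by omega, ?_⟩
    intro i w hw
    have h1 : (FreeMonoid.toList w).length + 1 ≤
        ∑ w ∈ (P i).coeff.support, ((FreeMonoid.toList w).length + 1) :=
      Finset.single_le_sum (f := fun w => (FreeMonoid.toList w).length + 1)
        (fun _ _ => Nat.zero_le _) hw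
    have h2 : ∑ w ∈ (P i).coeff.support, ((FreeMonoid.toList w).length + 1) ≤
        ∑ i, ∑ w ∈ (P i).coeff.support, ((FreeMonoid.toList w).length + 1) :=
      Finset.single_le_sum (f := fun i => ∑ w ∈ (P i).coeff.support,
        ((FreeMonoid.toList w).length + 1)) (fun _ _ => Nat.zero_le _) (Finset.mem_univ i)
    omega
  -- the remainder terms
  set V : (Fin (κ ^ 4) × Fin (κ ^ 4) × Fin (κ ^ 4)) → ℝ := fun w =>
    ∑ m ∈ Finset.range N, ∑ u : Fin m → Fin n,
      (CQ words [w.1, w.2.1, w.2.2] (List.ofFn u) +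
        CQ words [w.2.2, w.2.1, w.1] (List.ofFn u)) ^ 2 / s ^ m with hV
  have hVsum : ∑ w, V w ≤ (κ : ℝ) ^ 12 := norm_final κ hκ e s hs N
  have hterm : ∀ i, (2 * Crest.OpAlg.splitPairing (tau (LT (κ ^ 4) n))
      (Crest.OpAlg.heatTuple (XA words t) SA s) i (P i) -
      tau (LT (κ ^ 4) n) (Crest.OpAlg.polyEval (Crest.OpAlg.heatTuple (XA words t) SA s) (P i) *
        Crest.OpAlg.polyEval (Crest.OpAlg.heatTuple (XA words t) SA s) (P i))).re ≤
      Sum.elim (fun _ => 1 / (t0 + s)) (fun w => ((1 + s) - 2 + V w) / (1 + s) ^ 2) (e i) := by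
    intro i
    rcases h : e i with j | w
    · simp only [Sum.elim_inl]
      have h1 := fisher_termA words hsa t htpos s hs0 i (P i) (hP i)
      have h2 : t i = t0 := by simp [ht, h, tt]
      rwa [h2] at h1
    · obtain ⟨p, q, r⟩ := w
      simp only [Sum.elim_inr]
      have h1 := fisher_termB words hsa t htpos s hs0 i (P i) (hP i) N hN2 (hN i)
      have h2 : t i = 1 := by simp [ht, h, tt]
      have hw : words i = [[p, q, r], [r, q, p]] := by simp [hwords, h, wordsIX]
      have h3 := two_le_tau_yy words i p q r hw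
      rw [h2, hw] at h1
      refine h1.trans ?_
      refine div_le_div_of_nonneg_right ?_ (by positivity)
      have h4 : ∑ m ∈ Finset.range N, ∑ u : Fin m → Fin n,
          (([[p, q, r], [r, q, p]] : List (List (Fin (κ ^ 4)))).map
            fun w => CQ words w (List.ofFn u)).sum ^ 2 / ∏ l, (t (u l) + s) ≤ V (p, q, r) := by
        simp only [hV]
        refine Finset.sum_le_sum fun m _ => Finset.sum_le_sum fun u _ => ?_
        simp only [List.map_cons, List.map_nil, List.sum_cons, List.sum_nil, add_zero]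
        refine div_le_div_of_nonneg_left (sq_nonneg _) (by positivity) ?_
        calc s ^ m = ∏ _l : Fin m, s := by simp
          _ ≤ ∏ l, (t (u l) + s) := Finset.prod_le_prod (fun _ _ => hs0.le)
              (fun l _ => by have := htpos (u l); linarith)
      have h5 := add_le_add_right h4 0
      linarith
  refine (Finset.sum_le_sum fun i _ => hterm i).trans ?_
  rw [Equiv.sum_comp e (fun x => Sum.elim (fun _ => 1 / (t0 + s))
    (fun w => ((1 + s) - 2 + V w) / (1 + s) ^ 2) x),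
    Equiv.sum_comp e (fun x => 1 / (tt t0 x + s)), Fintype.sum_sum_type, Fintype.sum_sum_type]
  simp only [Sum.elim_inl, Sum.elim_inr, tt]
  have hs1 : 0 < 1 + s := by linarith
  have h6 : ∑ w : Fin (κ ^ 4) × Fin (κ ^ 4) × Fin (κ ^ 4), ((1 + s) - 2 + V w) / (1 + s) ^ 2 =
      ((κ : ℝ) ^ 12 * ((1 + s) - 2) + ∑ w, V w) / (1 + s) ^ 2 := by
    rw [← Finset.sum_div, Finset.sum_add_distrib]
    simp only [Finset.sum_const, Finset.card_univ, Fintype.card_fin, Fintype.card_prod,
      nsmul_eq_mul]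
    push_cast
    ring
  have h7 : ∑ w : Fin (κ ^ 4) × Fin (κ ^ 4) × Fin (κ ^ 4), 1 / (1 + s) =
      (κ : ℝ) ^ 12 * (1 + s) / (1 + s) ^ 2 := by
    simp only [Finset.sum_const, Finset.card_univ, Fintype.card_fin, Fintype.card_prod,
      nsmul_eq_mul]
    push_cast
    field_simp
  rw [h6, h7]
  have h8 : ((κ : ℝ) ^ 12 * ((1 + s) - 2) + ∑ w, V w) / (1 + s) ^ 2 ≤
      (κ : ℝ) ^ 12 * (1 + s) / (1 + s) ^ 2 - (κ : ℝ) ^ 12 / (1 + s) ^ 2 := by
    rw [← sub_div]
    refine div_le_div_of_nonneg_right ?_ (by positivity)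
    linarith
  linarith

end Crest.Agent.FE
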