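import Crest.Agent.FE.Defs

/-!
# Row 89, chunk A1: the full Fock space satisfies the Fock relations

PROOF.  For `x : HF I` one has `(pull f x) w = x (f w)`.  Compute the adjoint on basis vectors:
`⟪bas w, pull f x⟫ = x (f w) = ⟪bas (f w), x⟫`, so `adjoint (pull f) (bas w) = bas (f w)`;
as an element of `lp`: `(adjoint (pull f) x) v = ⟪bas v, adjoint (pull f) x⟫ = ⟪pull f (bas v), x⟫`
and `pull f (bas v) = bas w` if `v = f w` and `0` if `v ∉ range f`.  So
* `(lcr i x) v = x v'` if `v = i :: v'`, else `0`;   `(adjoint (lcr i) x) v = x (i :: v)`;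
* `(rcr i x) v = x v'` if `v = v' ++ [i]`, else `0`; `(adjoint (rcr i) x) v = x (v ++ [i])`
(`adjoint_adjoint`).  All relations are then checked pointwise at `v : List I`
(`⟪vac, x⟫ = x []`), e.g. `adjoint (rcr i) (gop j x)` at `v`: `(gop j x) (v ++ [i])
= (lcr j x) (v ++ [i]) + x (j :: (v ++ [i]))`, and `lcr j x` at `v ++ [i]` is
`x v'` when `v ++ [i] = j :: v'`: for `v = a :: v''` this is `[a = j] x (v'' ++ [i])`, for `v = []`
it is `[i = j] x []`: the last term is the vacuum projection.
`‖gop i‖ ≤ ‖lcr i‖ + ‖adjoint (lcr i)‖ ≤ 2` (`ContinuousLinearMap.adjoint` is isometric,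
`pull` is built by `mkContinuous` with constant 1).
-/

set_option autoImplicit false

namespace Crest.Agent.FE

open scoped InnerProductSpace ENNReal

theorem pull_apply {I : Type} (f : List I → List I) (hf : Function.Injective f) (x : HF I)
    (w : List I) : (pull f hf x : HF I) w = x (f w) := rfl

theorem inner_bas_left {I : Type} [DecidableEq I] (w : List I) (x : HF I) :
    ⟪(bas w : HF I), x⟫_ℂ = x w := by
  unfold bas
  rw [lp.inner_single_left]
  simp

theorem inner_bas_right {I : Type} [DecidableEq I] (w : List I) (x : HF I) :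
    ⟪x, (bas w : HF I)⟫_ℂ = (starRingEnd ℂ) (x w) := by
  rw [← inner_conj_symm, inner_bas_left]

theorem bas_apply_self {I : Type} [DecidableEq I] (w : List I) : (bas w : HF I) w = 1 := by
  unfold bas
  exact lp.single_apply_self _ _ _

theorem bas_apply_ne {I : Type} [DecidableEq I] {w v : List I} (h : v ≠ w) :
    (bas w : HF I) v = 0 := by
  unfold bas
  exact lp.single_apply_ne _ _ _ h

theorem adj_pull_bas {I : Type} [DecidableEq I] (f : List I → List I)
    (hf : Function.Injective f) (w : List I) :
    ContinuousLinearMap.adjoint (pull f hf) (bas w) = bas (f w) := by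
  refine ext_inner_left ℂ (fun v => ?_)
  rw [ContinuousLinearMap.adjoint_inner_right, inner_bas_right, inner_bas_right, pull_apply]

theorem adj_pull_apply_mem {I : Type} [DecidableEq I] (f : List I → List I)
    (hf : Function.Injective f) (x : HF I) (w : List I) :
    (ContinuousLinearMap.adjoint (pull f hf) x : HF I) (f w) = x w := by
  rw [← inner_bas_left, ContinuousLinearMap.adjoint_inner_right]
  have : pull f hf (bas (f w)) = bas w := by
    ext v
    rw [pull_apply]
    by_cases h : v = w
    · subst h
      rw [bas_apply_self, bas_apply_self]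
    · rw [bas_apply_ne h, bas_apply_ne (fun h' => h (hf h'))]
  rw [this, inner_bas_left]

theorem adj_pull_apply_not_mem {I : Type} [DecidableEq I] (f : List I → List I)
    (hf : Function.Injective f) (x : HF I) (v : List I) (hv : ∀ w, f w ≠ v) :
    (ContinuousLinearMap.adjoint (pull f hf) x : HF I) v = 0 := by
  rw [← inner_bas_left, ContinuousLinearMap.adjoint_inner_right]
  have : pull f hf (bas v) = 0 := by
    ext w
    rw [pull_apply, bas_apply_ne (hv w)]
    rfl
  rw [this, inner_zero_left]

theorem lcr_bas {I : Type} [DecidableEq I] (i : I) (w : List I) : lcr i (bas w) = bas (i :: w) :=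
  adj_pull_bas _ _ w

theorem rcr_bas {I : Type} [DecidableEq I] (i : I) (w : List I) :
    rcr i (bas w) = bas (w ++ [i]) :=
  adj_pull_bas _ _ w

theorem lcr_adj_apply {I : Type} [DecidableEq I] (i : I) (x : HF I) (v : List I) :
    (ContinuousLinearMap.adjoint (lcr i) x : HF I) v = x (i :: v) := by
  unfold lcr
  rw [ContinuousLinearMap.adjoint_adjoint]
  rfl

theorem rcr_adj_apply {I : Type} [DecidableEq I] (i : I) (x : HF I) (v : List I) :
    (ContinuousLinearMap.adjoint (rcr i) x : HF I) v = x (v ++ [i]) := by
  unfold rcr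
  rw [ContinuousLinearMap.adjoint_adjoint]
  rfl

theorem lcr_apply_nil {I : Type} [DecidableEq I] (i : I) (x : HF I) :
    (lcr i x : HF I) [] = 0 :=
  adj_pull_apply_not_mem _ _ x [] (fun w h => by simp at h)

theorem lcr_apply_cons {I : Type} [DecidableEq I] (i a : I) (x : HF I) (v : List I) :
    (lcr i x : HF I) (a :: v) = if i = a then x v else 0 := by
  by_cases h : i = a
  · subst h
    rw [if_pos rfl]
    exact adj_pull_apply_mem (fun w => i :: w) _ x v
  · rw [if_neg h]
    exact adj_pull_apply_not_mem _ _ x (a :: v) (fun w hw => h (List.cons.inj hw).1)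

theorem rcr_apply_append {I : Type} [DecidableEq I] (i a : I) (x : HF I) (v : List I) :
    (rcr i x : HF I) (v ++ [a]) = if i = a then x v else 0 := by
  by_cases h : i = a
  · subst h
    rw [if_pos rfl]
    exact adj_pull_apply_mem (fun w => w ++ [i]) _ x v
  · rw [if_neg h]
    refine adj_pull_apply_not_mem _ _ x (v ++ [a]) (fun w hw => h ?_)
    have := List.append_inj_right' hw rfl
    exact (List.cons.inj this).1

theorem norm_pull_le {I : Type} (f : List I → List I) (hf : Function.Injective f) :
    ‖pull f hf‖ ≤ 1 :=
  LinearMap.mkContinuous_norm_le _ zero_le_one _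

theorem norm_adj_pull_le {I : Type} (f : List I → List I) (hf : Function.Injective f) :
    ‖ContinuousLinearMap.adjoint (pull f hf)‖ ≤ 1 := by
  rw [LinearIsometryEquiv.norm_map]
  exact norm_pull_le f hf

/-- the Fock relations hold on the full Fock space. -/
theorem fockRel (I : Type) [DecidableEq I] :
    FockRel (gop (I := I)) (rcr (I := I)) (vac : HF I) where
  normΩ := by
    unfold vac bas
    rw [lp.norm_single (by norm_num)]
    simp
  selfAdj i := by
    unfold gop
    rw [map_add, ContinuousLinearMap.adjoint_adjoint, add_comm]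
  norm_le i := by
    unfold gop
    refine (norm_add_le _ _).trans ?_
    have h1 : ‖(lcr i : HF I →L[ℂ] HF I)‖ ≤ 1 := norm_adj_pull_le _ _
    have h2 : ‖ContinuousLinearMap.adjoint (lcr i : HF I →L[ℂ] HF I)‖ ≤ 1 := by
      rw [LinearIsometryEquiv.norm_map]
      exact h1
    linarith
  gΩ i := by
    unfold gop vac
    rw [ContinuousLinearMap.add_apply, lcr_bas, rcr_bas]
    have : ContinuousLinearMap.adjoint (lcr i) (bas [] : HF I) = 0 := by
      ext v
      rw [lcr_adj_apply, bas_apply_ne (by simp)]
      rfl
    rw [this, add_zero]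
    rfl
  rΩ i := by
    unfold vac
    ext v
    rw [rcr_adj_apply, bas_apply_ne (by simp)]
    rfl
  rr i j v := by
    ext w
    rw [rcr_adj_apply, rcr_apply_append]
    by_cases h : i = j
    · rw [if_pos h, if_pos h.symm]
    · rw [if_neg h, if_neg (fun h' => h h'.symm)]
      rfl
  comm i j v := by
    ext w
    rw [rcr_adj_apply]
    unfold gop
    rw [ContinuousLinearMap.add_apply, ContinuousLinearMap.add_apply, lp.coeFn_add, Pi.add_apply,
      lp.coeFn_add, Pi.add_apply, lp.coeFn_add, Pi.add_apply, lcr_adj_apply, lcr_adj_apply,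
      rcr_adj_apply, List.cons_append]
    have hvac : ⟪(vac : HF I), v⟫_ℂ = v [] := inner_bas_left [] v
    rcases w with _ | ⟨a, w⟩
    · rw [List.nil_append, lcr_apply_cons, lcr_apply_nil, hvac]
      by_cases h : i = j
      · rw [if_pos h, if_pos h.symm]
        have : ((v [] • (vac : HF I) : HF I) : ∀ _ : List I, ℂ) [] = v [] := by
          rw [lp.coeFn_smul, Pi.smul_apply]
          unfold vac
          rw [bas_apply_self]
          simp
        rw [this]
        ring
      · rw [if_neg h, if_neg (fun h' => h h'.symm)]
        have : ((0 : HF I) : ∀ _ : List I, ℂ) [] = 0 := rfl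
        rw [this]
        ring
    · rw [List.cons_append, lcr_apply_cons, lcr_apply_cons, rcr_adj_apply, hvac]
      have : (((if i = j then v [] • (vac : HF I) else 0 : HF I)) : ∀ _ : List I, ℂ) (a :: w)
          = 0 := by
        split_ifs
        · rw [lp.coeFn_smul, Pi.smul_apply]
          unfold vac
          rw [bas_apply_ne (by simp)]
          simp
        · rfl
      rw [this]
      ring

end Crest.Agent.FE
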