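import Crest.Agent.FE.Trace

/-!
# Row 89, chunk A3: freeness of X and the path noise

`IsFreeFamily (tau _) (withNoise X SA)` for any tuple `X` whose members are linear combinations of
words in the letters `inl j`, `inr (inl i)`.

PROOF (direct, on basis vectors).  Colour the letters of `LT k n` by `Option (Fin n)`:
`inl j`, `inr (inl i) ↦ none`, `inr (inr i) ↦ some i`.  For a colour `c` let
`K_c := {x : FA | ∃ f : List (LT k n) →₀ ℂ supported on words with all letters of colour c with
rep x (bas u) = Σ_v f v • bas (v ++ u) for every word u which is [] or starts with a letter of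
colour ≠ c}`.  `K_c` contains `1` and `gA l` for `l` of colour `c` (`gop l (bas u) = bas (l :: u)`
for such `u`, because `adjoint (lcr l) (bas u) = 0` if `u` does not start with `l`), is closed under
addition, scalars, and left multiplication by `gA l` (l of colour `c`):
`gop l (bas (v ++ u)) = bas (l :: v ++ u) + [v = l :: v'] bas (v' ++ u)` (for `v = []` the second
term vanishes).  Hence it contains every polynomial in the tuple of colour `c`.
`tau x = f []` (take `u = []`).  So if `x ∈ K_c` and `tau x = 0`, then `rep x (bas u)` is in the span of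
`bas (v ++ u)`, `v ≠ []` of colour `c`.  By induction along the chain (from the right) the vector
`x_1 ⋯ x_p Ω` lies in the span of the basis vectors of nonempty words whose first letter has the
colour of `x_1`; hence `tau (x_1 ⋯ x_p) = 0`.
-/

set_option autoImplicit false

namespace Crest.Agent.FE

open scoped InnerProductSpace ENNReal

namespace FreeAux

theorem bas_apply {I : Type} [DecidableEq I] (u v : List I) :
    (bas u : HF I) v = if v = u then 1 else 0 := by
  unfold bas
  rw [lp.coeFn_single, Pi.single_apply]

theorem adj_bas {I : Type} [DecidableEq I] (l : I) (u : List I) :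
    ContinuousLinearMap.adjoint (lcr l) (bas u) =
      (if u.head? = some l then bas u.tail else 0 : HF I) := by
  ext v
  rw [lcr_adj_apply, bas_apply]
  cases u with
  | nil => simp
  | cons a u =>
    by_cases h : a = l
    · subst h
      simp [bas_apply]
    · have h' : ¬ (l = a) := fun e => h e.symm
      simp [h, h']

theorem gop_bas {I : Type} [DecidableEq I] (l : I) (u : List I) :
    gop l (bas u) = bas (l :: u) + (if u.head? = some l then bas u.tail else 0 : HF I) := by
  unfold gop
  rw [_root_.add_apply, lcr_bas, adj_bas]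

variable {k n : ℕ}

/-- colour of a letter -/
def col : LT k n → Option (Fin n)
  | .inl _ => none
  | .inr (.inl _) => none
  | .inr (.inr i) => some i

/-- the word `u` is empty or starts with a letter of colour different from `c` -/
def Start (c : Option (Fin n)) (u : List (LT k n)) : Prop := ∀ a, u.head? = some a → col a ≠ c

/-- `f ↦ Σ_v f v • bas (v ++ u)` -/
noncomputable def T (u : List (LT k n)) : (List (LT k n) →₀ ℂ) →ₗ[ℂ] HF (LT k n) :=
  Finsupp.linearCombination ℂ (fun v => (bas (v ++ u) : HF (LT k n)))

theorem T_single (u v : List (LT k n)) (a : ℂ) :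
    T u (Finsupp.single v a) = a • (bas (v ++ u) : HF (LT k n)) := by
  unfold T
  rw [Finsupp.linearCombination_single]

/-- words of colour `c` -/
def Mono (c : Option (Fin n)) : Set (List (LT k n)) := {v | ∀ l ∈ v, col l = c}

/-- action of `g_l` on coefficients -/
noncomputable def Lg (l : LT k n) : (List (LT k n) →₀ ℂ) →ₗ[ℂ] (List (LT k n) →₀ ℂ) :=
  Finsupp.linearCombination ℂ (fun v => Finsupp.single (l :: v) (1 : ℂ) +
    if v.head? = some l then Finsupp.single v.tail (1 : ℂ) else 0)

theorem Lg_mem {c : Option (Fin n)} {l : LT k n} (hl : col l = c) {f : List (LT k n) →₀ ℂ}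
    (hf : f ∈ Finsupp.supported ℂ ℂ (Mono c)) : Lg l f ∈ Finsupp.supported ℂ ℂ (Mono c) := by
  unfold Lg
  rw [Finsupp.linearCombination_apply]
  refine Submodule.sum_mem _ fun v hv => Submodule.smul_mem _ _ ?_
  have hv' : v ∈ Mono c := hf hv
  refine Submodule.add_mem _ ?_ ?_
  · refine Finsupp.single_mem_supported ℂ _ ?_
    intro a ha
    rcases List.mem_cons.1 ha with rfl | h
    · exact hl
    · exact hv' a h
  · split_ifs with h
    · exact Finsupp.single_mem_supported ℂ _ fun a ha => hv' a (List.mem_of_mem_tail ha)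
    · exact Submodule.zero_mem _

theorem T_Lg {c : Option (Fin n)} {l : LT k n} (hl : col l = c) {f : List (LT k n) →₀ ℂ}
    (hf : f ∈ Finsupp.supported ℂ ℂ (Mono c)) {u : List (LT k n)} (hu : Start c u) :
    gop l (T u f) = T u (Lg l f) := by
  have h : f = f.sum fun v a => Finsupp.single v a := (Finsupp.sum_single f).symm
  rw [h]
  unfold Finsupp.sum
  rw [map_sum, map_sum, map_sum, map_sum]
  refine Finset.sum_congr rfl fun v hv => ?_
  have hv' : v ∈ Mono c := hf hv
  rw [T_single, map_smul, gop_bas]
  unfold Lg
  rw [Finsupp.linearCombination_single, map_smul, map_add, T_single, one_smul]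
  congr 2
  cases v with
  | nil =>
    have h1 : ¬ (([] ++ u : List (LT k n)).head? = some l) := by
      intro h1
      exact hu l h1 hl
    rw [if_neg h1]
    simp
  | cons a v =>
    by_cases h1 : a = l
    · rw [if_pos (by rw [List.cons_append, List.head?_cons, h1]),
        if_pos (by rw [List.head?_cons, h1]), T_single, one_smul]
      rfl
    · rw [if_neg (by rw [List.cons_append, List.head?_cons]; simpa using h1),
        if_neg (by rw [List.head?_cons]; simpa using h1), map_zero]

/-- the operators acting on the left like polynomials of colour `c` -/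
noncomputable def Kc (c : Option (Fin n)) : Submodule ℂ (FA (LT k n)) where
  carrier := {x | ∃ f ∈ Finsupp.supported ℂ ℂ (Mono (k := k) c), ∀ u, Start c u →
    rep (LT k n) x (bas u) = T u f}
  add_mem' := by
    rintro x y ⟨f, hf, hx⟩ ⟨f', hf', hy⟩
    refine ⟨f + f', Submodule.add_mem _ hf hf', fun u hu => ?_⟩
    rw [map_add, _root_.add_apply, hx u hu, hy u hu, map_add]
  zero_mem' := ⟨0, Submodule.zero_mem _, fun u _ => by
    rw [map_zero, _root_.zero_apply, map_zero]⟩
  smul_mem' := by
    rintro a x ⟨f, hf, hx⟩
    refine ⟨a • f, Submodule.smul_mem _ _ hf, fun u hu => ?_⟩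
    rw [map_smul, _root_.smul_apply, hx u hu, map_smul]

theorem one_mem_Kc (c : Option (Fin n)) : (1 : FA (LT k n)) ∈ Kc c := by
  refine ⟨Finsupp.single [] 1, Finsupp.single_mem_supported ℂ _ (fun a ha => by simp at ha),
    fun u _ => ?_⟩
  rw [T_single, one_smul, map_one]
  rfl

theorem gA_mul_mem_Kc {c : Option (Fin n)} {l : LT k n} (hl : col l = c) {x : FA (LT k n)}
    (hx : x ∈ Kc c) : gA l * x ∈ Kc c := by
  obtain ⟨f, hf, hx⟩ := hx
  refine ⟨Lg l f, Lg_mem hl hf, fun u hu => ?_⟩
  rw [map_mul, mul_apply_eq_comp, hx u hu, rep_gA, T_Lg hl hf hu]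

/-- elements of the algebra generated by the letters of colour `c` belong to `Kc c` -/
theorem mem_Kc_of_adjoin {c : Option (Fin n)} {y : FA (LT k n)}
    (hy : y ∈ Algebra.adjoin ℂ {x : FA (LT k n) | ∃ l, col l = c ∧ x = gA l}) : y ∈ Kc c := by
  have h : ∀ x ∈ Kc c, y * x ∈ Kc (k := k) c := by
    induction hy using Algebra.adjoin_induction with
    | mem y hy =>
      obtain ⟨l, hl, rfl⟩ := hy
      intro x hx
      exact gA_mul_mem_Kc hl hx
    | algebraMap a =>
      intro x hx
      rw [← Algebra.smul_def]
      exact Submodule.smul_mem _ _ hx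
    | add y z _ _ hy hz =>
      intro x hx
      rw [add_mul]
      exact Submodule.add_mem _ (hy x hx) (hz x hx)
    | mul y z _ _ hy hz =>
      intro x hx
      rw [mul_assoc]
      exact hy _ (hz x hx)
  have := h 1 (one_mem_Kc c)
  rwa [mul_one] at this

theorem polyEval_mem {A : Type*} [Ring A] [Algebra ℂ A] {m : ℕ} (S : Subalgebra ℂ A)
    (X : Fin m → A) (hX : ∀ i, X i ∈ S) (p : Crest.OpAlg.NCPoly m) :
    Crest.OpAlg.polyEval X p ∈ S := by
  unfold Crest.OpAlg.polyEval
  rw [MonoidAlgebra.lift_apply]
  refine Subalgebra.sum_mem _ fun w _ => Subalgebra.smul_mem _ ?_ _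
  rw [FreeMonoid.lift_apply]
  refine Subalgebra.list_prod_mem _ fun a ha => ?_
  obtain ⟨i, _, rfl⟩ := List.mem_map.1 ha
  exact hX i

/-- vectors spanned by words starting with colour `c` -/
noncomputable def Vc (c : Option (Fin n)) : Submodule ℂ (HF (LT k n)) :=
  Submodule.span ℂ {v | ∃ a w, col a = c ∧ v = bas (a :: w)}

theorem tau_zero_of_mem_Vc {c : Option (Fin n)} {v : HF (LT k n)} (hv : v ∈ Vc c) :
    ⟪(vac : HF (LT k n)), v⟫_ℂ = 0 := by
  unfold Vc at hv
  induction hv using Submodule.span_induction with
  | mem v hv =>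
    obtain ⟨a, w, _, rfl⟩ := hv
    unfold vac
    rw [inner_bas_left, bas_apply]
    simp
  | zero => exact inner_zero_right _
  | add v w _ _ hv hw => rw [inner_add_right, hv, hw, add_zero]
  | smul a v _ hv => rw [inner_smul_right, hv, mul_zero]

/-- centred elements of colour `c` map words not starting with `c` to `Vc c` -/
theorem rep_mem_Vc {c : Option (Fin n)} {x : FA (LT k n)} (hx : x ∈ Kc c)
    (h0 : tau (LT k n) x = 0) {u : List (LT k n)} (hu : Start c u) :
    rep (LT k n) x (bas u) ∈ Vc c := by
  obtain ⟨f, hf, hx⟩ := hx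
  have hf0 : f [] = 0 := by
    rw [tau_apply] at h0
    have h1 := hx [] (fun a ha => by simp at ha)
    unfold vac at h0
    rw [h1, inner_bas_left] at h0
    unfold T at h0
    rw [Finsupp.linearCombination_apply] at h0
    unfold Finsupp.sum at h0
    rw [lp.coeFn_sum, Finset.sum_apply] at h0
    rw [← h0]
    rw [Finset.sum_eq_single []]
    · rw [lp.coeFn_smul, Pi.smul_apply, bas_apply]
      simp
    · intro v _ hv
      rw [lp.coeFn_smul, Pi.smul_apply, bas_apply, if_neg, smul_zero]
      rw [List.append_nil]
      exact fun h => hv h.symm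
    · intro h
      have h2 : f [] = 0 := Finsupp.notMem_support_iff.1 h
      change ((f [] • (bas ([] ++ []) : HF (LT k n)) : HF (LT k n)) : List (LT k n) → ℂ) [] = 0
      rw [h2, lp.coeFn_smul, Pi.smul_apply, zero_smul]
  rw [hx u hu]
  unfold T
  rw [Finsupp.linearCombination_apply]
  refine Submodule.sum_mem _ fun v hv => Submodule.smul_mem _ _ ?_
  have hv' : v ∈ Mono c := hf hv
  cases v with
  | nil => exact absurd hf0 (Finsupp.mem_support_iff.1 hv)
  | cons a v =>
    exact Submodule.subset_span ⟨a, v ++ u, hv' a List.mem_cons_self, rfl⟩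

theorem rep_mem_Vc' {c c' : Option (Fin n)} (hcc : c ≠ c') {x : FA (LT k n)} (hx : x ∈ Kc c)
    (h0 : tau (LT k n) x = 0) {v : HF (LT k n)} (hv : v ∈ Vc c') :
    rep (LT k n) x v ∈ Vc c := by
  unfold Vc at hv
  induction hv using Submodule.span_induction with
  | mem v hv =>
    obtain ⟨a, w, ha, rfl⟩ := hv
    refine rep_mem_Vc hx h0 ?_
    intro b hb
    rw [List.head?_cons] at hb
    obtain rfl := Option.some.inj hb
    rw [ha]
    exact hcc.symm
  | zero => rw [map_zero]; exact Submodule.zero_mem _
  | add v w _ _ hv hw => rw [map_add]; exact Submodule.add_mem _ hv hw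
  | smul a v _ hv => rw [map_smul]; exact Submodule.smul_mem _ _ hv

end FreeAux

open FreeAux

theorem free_family {k n : ℕ} (X : Fin n → FA (LT k n))
    (hX : ∀ i, X i ∈ Submodule.span ℂ {x : FA (LT k n) |
      ∃ w : List (Fin k ⊕ Fin n), x = (w.map fun l => gA (Sum.map id Sum.inl l)).prod}) :
    Crest.OpAlg.IsFreeFamily (tau (LT k n)) (Crest.OpAlg.withNoise X SA) := by
  -- every polynomial in the tuple of colour `c` belongs to `Kc c`
  have hK : ∀ (c : Option (Fin n)) (p : Crest.OpAlg.NCPoly n),
      Crest.OpAlg.polyEval (Crest.OpAlg.withNoise X SA c) p ∈ Kc c := by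
    intro c p
    refine mem_Kc_of_adjoin (polyEval_mem _ _ (fun i => ?_) p)
    cases c with
    | none =>
      have hle : Submodule.span ℂ {x : FA (LT k n) |
          ∃ w : List (Fin k ⊕ Fin n), x = (w.map fun l => gA (Sum.map id Sum.inl l)).prod} ≤
          Subalgebra.toSubmodule (Algebra.adjoin ℂ {x : FA (LT k n) | ∃ l, col l = none ∧ x = gA l}) := by
        rw [Submodule.span_le]
        rintro x ⟨w, rfl⟩
        refine Subalgebra.list_prod_mem _ fun a ha => ?_
        obtain ⟨l, _, rfl⟩ := List.mem_map.1 ha
        refine Algebra.subset_adjoin ⟨_, ?_, rfl⟩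
        cases l <;> rfl
      exact hle (hX i)
    | some j => exact Algebra.subset_adjoin ⟨Sum.inr (Sum.inr j), rfl, rfl⟩
  intro l hl hchain htau
  -- the vector lies in `Vc` of the first colour
  have key : ∀ (l : List (Option (Fin n) × Crest.OpAlg.NCPoly n)) (e : Option (Fin n) × Crest.OpAlg.NCPoly n),
      (e :: l).IsChain (fun a b => a.1 ≠ b.1) →
      (∀ e' ∈ e :: l, tau (LT k n) (Crest.OpAlg.polyEval (Crest.OpAlg.withNoise X SA e'.1) e'.2) = 0) →
      rep (LT k n) (((e :: l).map fun e =>
        Crest.OpAlg.polyEval (Crest.OpAlg.withNoise X SA e.1) e.2).prod) vac ∈ Vc e.1 := by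
    intro l
    induction l with
    | nil =>
      intro e _ h
      rw [List.map_cons, List.map_nil, List.prod_singleton]
      exact rep_mem_Vc (hK _ _) (h e List.mem_cons_self) (fun a ha => by simp at ha)
    | cons e' l ih =>
      intro e hc h
      rw [List.map_cons, List.prod_cons, map_mul, mul_apply_eq_comp]
      rw [List.isChain_cons_cons] at hc
      exact rep_mem_Vc' hc.1 (hK _ _) (h e List.mem_cons_self)
        (ih e' hc.2 fun e'' he'' => h e'' (List.mem_cons_of_mem _ he''))
  cases l with
  | nil => exact absurd rfl hl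
  | cons e l =>
    rw [tau_apply]
    exact tau_zero_of_mem_Vc (key l e hchain htau)

end Crest.Agent.FE
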