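import Crest.Agent.FE.Defs

/-!
# Row 89: GUE — shared definitions (do not edit)
-/

set_option autoImplicit false

namespace Crest.Agent.FE

open MeasureTheory ProbabilityTheory

/-- the Hermitian matrix of the letter `l` with coordinates `x (l, ·)`. -/
noncomputable def gmat {I : Type} {d : ℕ} (x : I × (Fin d × Fin d) → ℝ) (l : I) :
    Matrix (Fin d) (Fin d) ℂ :=
  Crest.OpAlg.hermitianOfCoords (WithLp.toLp 2 fun p => x (l, p))

/-- the law of the coordinates: independent centred Gaussians of variance `1/d`. -/
noncomputable def gue (I : Type) [Fintype I] (d : ℕ) : Measure (I × (Fin d × Fin d) → ℝ) :=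
  Measure.pi fun _ => gaussianReal 0 ((d : NNReal)⁻¹)

instance gue_prob (I : Type) [Fintype I] (d : ℕ) : IsProbabilityMeasure (gue I d) := by
  unfold gue; infer_instance

/-- the normalised trace of a word. -/
noncomputable def mtr {I : Type} {d : ℕ} (x : I × (Fin d × Fin d) → ℝ) (w : List I) : ℂ :=
  (d : ℂ)⁻¹ * Matrix.trace ((w.map (gmat x)).prod)

/-- expectation of a product of normalised traces. -/
noncomputable def Emom (I : Type) [Fintype I] (d : ℕ) (Ws : List (List I)) : ℂ :=
  ∫ x, (Ws.map (mtr x)).prod ∂(gue I d)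

end Crest.Agent.FE
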