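import Crest.Agent.FE.Defs

/-!
# Row 89, chunk F1: the real coordinates of Hermitian matrices

`coordsOf` inverts `hermitianOfCoords` on Hermitian matrices; `Tr(H(a)²) = ‖a‖²`.
PROOF.  Entrywise (`Matrix.ext`), three cases `i = j`, `i < j`, `j < i`.  Trace:
`Σ_{i,j} H_{ij} H_{ji} = Σ_{ij} |H_ij|² = Σ_i a(i,i)² + Σ_{i<j} (a(i,j)² + a(j,i)²)/2 · 2`; e.g. show for all `i j`:
`normSq (H i j) + normSq (H j i) = a(i,j)² + a(j,i)²` and sum over all `(i,j)`.
-/

set_option autoImplicit false

namespace Crest.Agent.FE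

open Crest.OpAlg

/-- the coordinates of a Hermitian matrix. -/
noncomputable def coordsOf {d : ℕ} (H : Matrix (Fin d) (Fin d) ℂ) :
    EuclideanSpace ℝ (Fin d × Fin d) :=
  WithLp.toLp 2 fun p => if p.1 = p.2 then (H p.1 p.1).re
    else if p.1 < p.2 then Real.sqrt 2 * (H p.1 p.2).re else Real.sqrt 2 * (H p.2 p.1).im

private theorem sqrt2_ne : ((Real.sqrt 2 : ℝ) : ℂ) ≠ 0 := by
  rw [Complex.ofReal_ne_zero]
  positivity

private theorem sqrt2_sq : ((Real.sqrt 2 : ℝ) : ℂ) * ((Real.sqrt 2 : ℝ) : ℂ) = 2 := by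
  rw [← Complex.ofReal_mul, Real.mul_self_sqrt (by norm_num)]
  norm_num

theorem hermitianOfCoords_isHermitian {d : ℕ} (a : EuclideanSpace ℝ (Fin d × Fin d)) :
    (hermitianOfCoords a).IsHermitian := by
  refine Matrix.IsHermitian.ext fun i j => ?_
  unfold hermitianOfCoords
  rcases lt_trichotomy i j with h | h | h
  · rw [if_neg h.ne', if_neg h.not_gt, if_neg h.ne, if_pos h]
    simp [Complex.conj_ofReal]
  · subst h
    simp [Complex.conj_ofReal]
  · rw [if_neg h.ne, if_pos h, if_neg h.ne', if_neg h.not_gt]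
    simp [Complex.conj_ofReal, sub_eq_add_neg]

theorem hermitianOfCoords_coordsOf {d : ℕ} (H : Matrix (Fin d) (Fin d) ℂ) (hH : H.IsHermitian) :
    hermitianOfCoords (coordsOf H) = H := by
  ext i j
  unfold hermitianOfCoords coordsOf
  rcases lt_trichotomy i j with h | h | h
  · rw [if_neg h.ne, if_pos h]
    simp only [h.ne, h.ne', h, h.not_gt, if_false, if_true]
    rw [div_eq_iff sqrt2_ne]
    conv_rhs => rw [← Complex.re_add_im (H i j)]
    push_cast
    ring
  · subst h
    simp only [if_true]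
    exact Complex.conj_eq_iff_re.1 (hH.apply i i)
  · rw [if_neg h.ne', if_neg h.not_gt]
    simp only [h.ne, h.ne', h, h.not_gt, if_false, if_true]
    rw [div_eq_iff sqrt2_ne, ← hH.apply i j]
    conv_rhs => rw [← Complex.re_add_im (H j i)]
    simp only [Complex.star_def, map_add, map_mul, Complex.conj_ofReal, Complex.conj_I]
    push_cast
    ring

theorem coordsOf_hermitianOfCoords {d : ℕ} (a : EuclideanSpace ℝ (Fin d × Fin d)) :
    coordsOf (hermitianOfCoords a) = a := by
  have h2 : Real.sqrt 2 ≠ 0 := by positivity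
  have hkey : ∀ x y : ℝ, (((x : ℂ) + (y : ℂ) * Complex.I) / ((Real.sqrt 2 : ℝ) : ℂ)).re = x / Real.sqrt 2 ∧
      (((x : ℂ) + (y : ℂ) * Complex.I) / ((Real.sqrt 2 : ℝ) : ℂ)).im = y / Real.sqrt 2 := by
    intro x y
    rw [Complex.div_ofReal_re, Complex.div_ofReal_im]
    simp
  ext ⟨i, j⟩
  unfold hermitianOfCoords coordsOf
  rcases lt_trichotomy i j with h | h | h
  · simp only [h.ne, h, if_false, if_true]
    rw [(hkey _ _).1]
    field_simp
  · subst h
    simp
  · simp only [h.ne, h.ne', h, h.not_gt, if_false, if_true]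
    rw [(hkey _ _).2]
    field_simp

theorem hermitianOfCoords_add {d : ℕ} (a b : EuclideanSpace ℝ (Fin d × Fin d)) :
    hermitianOfCoords (a + b) = hermitianOfCoords a + hermitianOfCoords b := by
  ext i j
  simp only [hermitianOfCoords, Matrix.add_apply, PiLp.add_apply, Complex.ofReal_add]
  split_ifs <;> ring

theorem hermitianOfCoords_sub {d : ℕ} (a b : EuclideanSpace ℝ (Fin d × Fin d)) :
    hermitianOfCoords (a - b) = hermitianOfCoords a - hermitianOfCoords b := by
  ext i j
  simp only [hermitianOfCoords, Matrix.sub_apply, PiLp.sub_apply, Complex.ofReal_sub]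
  split_ifs <;> ring

theorem hermitianOfCoords_smul {d : ℕ} (c : ℝ) (a : EuclideanSpace ℝ (Fin d × Fin d)) :
    hermitianOfCoords (c • a) = (c : ℂ) • hermitianOfCoords a := by
  ext i j
  simp only [hermitianOfCoords, Matrix.smul_apply, PiLp.smul_apply, smul_eq_mul,
    Complex.ofReal_mul]
  split_ifs <;> ring

theorem trace_hermitianOfCoords_sq {d : ℕ} (a : EuclideanSpace ℝ (Fin d × Fin d)) :
    Matrix.trace (hermitianOfCoords a * hermitianOfCoords a) = ((‖a‖ ^ 2 : ℝ) : ℂ) := by
  have hkey : ∀ x y : ℂ, (x + y * Complex.I) / ((Real.sqrt 2 : ℝ) : ℂ) *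
      ((x - y * Complex.I) / ((Real.sqrt 2 : ℝ) : ℂ)) = (x ^ 2 + y ^ 2) / 2 := by
    intro x y
    rw [div_mul_div_comm, sqrt2_sq]
    congr 1
    linear_combination (-y ^ 2) * Complex.I_sq
  have hij : ∀ i j : Fin d, hermitianOfCoords a i j * hermitianOfCoords a j i =
      ((a (i, j) : ℂ) ^ 2 + (a (j, i) : ℂ) ^ 2) / 2 := by
    intro i j
    unfold hermitianOfCoords
    rcases lt_trichotomy i j with h | h | h
    · simp only [h.ne, h.ne', h, h.not_gt, if_false, if_true]
      rw [hkey]
    · subst h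
      simp only [if_true]
      ring
    · simp only [h.ne, h.ne', h, h.not_gt, if_false, if_true]
      rw [mul_comm, hkey]
      ring
  rw [EuclideanSpace.real_norm_sq_eq, Fintype.sum_prod_type, Matrix.trace]
  simp only [Matrix.diag_apply, Matrix.mul_apply, hij]
  push_cast
  have hs : ∑ i : Fin d, ∑ j : Fin d, (a (j, i) : ℂ) ^ 2 = ∑ i : Fin d, ∑ j : Fin d, (a (i, j) : ℂ) ^ 2 :=
    Finset.sum_comm
  simp only [add_div, Finset.sum_add_distrib, ← Finset.sum_div]
  rw [hs]
  ring

theorem continuous_coordsOf {d : ℕ} :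
    Continuous (coordsOf (d := d)) := by
  refine (PiLp.continuous_toLp 2 _).comp (continuous_pi fun p => ?_)
  split_ifs
  · exact Complex.continuous_re.comp (continuous_apply_apply _ _)
  · exact continuous_const.mul (Complex.continuous_re.comp (continuous_apply_apply _ _))
  · exact continuous_const.mul (Complex.continuous_im.comp (continuous_apply_apply _ _))

theorem continuous_hermitianOfCoords {d : ℕ} :
    Continuous (hermitianOfCoords (d := d)) := by
  refine continuous_pi fun i => continuous_pi fun j => ?_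
  have h : ∀ p : Fin d × Fin d, Continuous fun a : EuclideanSpace ℝ (Fin d × Fin d) =>
      ((a p : ℝ) : ℂ) := fun p =>
    Complex.continuous_ofReal.comp (EuclideanSpace.proj (𝕜 := ℝ) p).continuous
  unfold hermitianOfCoords
  split_ifs
  · exact h _
  · exact ((h _).add ((h _).mul continuous_const)).div_const _
  · exact ((h _).sub ((h _).mul continuous_const)).div_const _

end Crest.Agent.FE
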