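import Crest.Agent.FE.GueDefs
import Crest.Agent.FE.HermCoords

/-!
# Row 89, chunk G4: the operator norm of a GUE matrix is ≤ 8 with high probability

PROOF.  Let `M = gmat x l` (Hermitian).  Take a finite 1/4-net of the unit ball of `ℂ^d` with at most
`25^{2d} = 625^d` points (two applications of `Besicovitch.card_le_of_separated`).  For Hermitian `M`:
`‖M‖ = sup |⟨u, M u⟩|` and for `‖u − v‖ ≤ 1/4`: `|⟨u,Mu⟩ − ⟨v,Mv⟩| ≤ ‖M‖/2`, so
`‖M‖ ≤ 2 max_{v∈𝒩} |⟨v, M v⟩|`.
For a fixed vector `v` in the unit ball the real number `⟨v, M v⟩` is a linear form in the coordinates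
`x (l,·)` with coefficient vector `coordsOf (v v^*)` of norm `‖v‖² ≤ 1`, so
`P(|⟨v,Mv⟩| ≥ 4) ≤ 2 exp(−8 d)` (Chernoff).  Union bound: `P(‖M‖ > 8) ≤ 2·625^d e^{−8d} → 0`.
-/

set_option autoImplicit false

namespace Crest.Agent.FE

open MeasureTheory ProbabilityTheory Filter Topology

/-! ### Nets -/

/-- separated sets in a ball of radius `2 r` have at most `5 ^ dim` points, so there are `r`-nets of
this cardinality. -/
theorem exists_net_aux {E : Type*} [NormedAddCommGroup E] [NormedSpace ℝ E] [FiniteDimensional ℝ E]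
    (S : Set E) (a : E) (r : ℝ) (hr : 0 < r) (hS : ∀ x ∈ S, ‖x - a‖ ≤ 2 * r) :
    ∃ N : Finset E, (↑N ⊆ S) ∧ (∀ x ∈ S, ∃ v ∈ N, ‖x - v‖ ≤ r) ∧
      N.card ≤ 5 ^ Module.finrank ℝ E := by
  classical
  let P : ℕ → Prop := fun n => ∃ N : Finset E, (↑N ⊆ S) ∧
    (∀ c ∈ N, ∀ d ∈ N, c ≠ d → r ≤ ‖c - d‖) ∧ N.card = n
  have hbound : ∀ N : Finset E, (↑N ⊆ S) → (∀ c ∈ N, ∀ d ∈ N, c ≠ d → r ≤ ‖c - d‖) →
      N.card ≤ 5 ^ Module.finrank ℝ E := by
    intro N hN hsep
    have hinj : Function.Injective fun x : E => r⁻¹ • (x - a) := by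
      intro x y hxy
      have h1 : x - a = y - a := by
        have := congrArg (fun z => r • z) hxy
        simpa [smul_smul, mul_inv_cancel₀ hr.ne'] using this
      exact sub_left_injective h1
    have h := Besicovitch.card_le_of_separated (N.image fun x => r⁻¹ • (x - a)) ?_ ?_
    · rwa [Finset.card_image_of_injective _ hinj] at h
    · intro c hc
      obtain ⟨x, hx, rfl⟩ := Finset.mem_image.1 hc
      have h1 := hS x (hN hx)
      rw [norm_smul, norm_inv, Real.norm_of_nonneg hr.le, inv_mul_le_iff₀ hr]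
      linarith
    · intro c hc d hd hcd
      obtain ⟨x, hx, rfl⟩ := Finset.mem_image.1 hc
      obtain ⟨y, hy, rfl⟩ := Finset.mem_image.1 hd
      have hxy : x ≠ y := fun h => hcd (by rw [h])
      have h1 := hsep x hx y hy hxy
      rw [← smul_sub, norm_smul, norm_inv, Real.norm_of_nonneg hr.le, le_inv_mul_iff₀ hr, mul_one]
      have : x - a - (y - a) = x - y := by abel
      rw [this]
      exact h1
  have hP0 : P 0 := ⟨∅, by simp, by simp, rfl⟩
  have hspec : P (Nat.findGreatest P (5 ^ Module.finrank ℝ E)) :=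
    Nat.findGreatest_spec (Nat.zero_le _) hP0
  obtain ⟨N, hN, hsep, hcard⟩ := hspec
  refine ⟨N, hN, ?_, hbound N hN hsep⟩
  intro x hx
  by_contra hcon
  push Not at hcon
  have hxN : x ∉ N := by
    intro hxN
    have := hcon x hxN
    rw [sub_self, norm_zero] at this
    linarith
  have hN' : (↑(insert x N) : Set E) ⊆ S := by
    intro y hy
    rw [Finset.coe_insert, Set.mem_insert_iff] at hy
    rcases hy with rfl | hy
    · exact hx
    · exact hN hy
  have hsep' : ∀ c ∈ insert x N, ∀ d ∈ insert x N, c ≠ d → r ≤ ‖c - d‖ := by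
    intro c hc d hd hcd
    rw [Finset.mem_insert] at hc hd
    rcases hc with rfl | hc
    · rcases hd with rfl | hd
      · exact absurd rfl hcd
      · exact (hcon d hd).le
    · rcases hd with rfl | hd
      · rw [norm_sub_rev]
        exact (hcon c hc).le
      · exact hsep c hc d hd hcd
  have hle := hbound _ hN' hsep'
  have hP1 : P (insert x N).card := ⟨insert x N, hN', hsep', rfl⟩
  have h2 := Nat.le_findGreatest hle hP1
  rw [Finset.card_insert_of_notMem hxN, hcard] at h2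
  omega

theorem exists_net_quarter (E : Type*) [NormedAddCommGroup E] [NormedSpace ℝ E]
    [FiniteDimensional ℝ E] :
    ∃ N : Finset E, (∀ v ∈ N, ‖v‖ ≤ 1) ∧ (∀ x : E, ‖x‖ ≤ 1 → ∃ v ∈ N, ‖x - v‖ ≤ 1 / 4) ∧
      N.card ≤ 25 ^ Module.finrank ℝ E := by
  classical
  obtain ⟨N₁, hN₁, hnet₁, hc₁⟩ := exists_net_aux (E := E) (Metric.closedBall 0 1) 0 (1 / 2)
    (by norm_num) (fun x hx => by simpa using hx)
  have hstep : ∀ a : E, ∃ N : Finset E, (↑N ⊆ Metric.closedBall (0 : E) 1 ∩ Metric.closedBall a (1 / 2)) ∧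
      (∀ x ∈ Metric.closedBall (0 : E) 1 ∩ Metric.closedBall a (1 / 2), ∃ v ∈ N, ‖x - v‖ ≤ 1 / 4) ∧
      N.card ≤ 5 ^ Module.finrank ℝ E := fun a =>
    exists_net_aux _ a (1 / 4) (by norm_num) (fun x hx => by
      have := hx.2
      rw [Metric.mem_closedBall, dist_eq_norm] at this
      linarith)
  choose N₂ hN₂ hnet₂ hc₂ using hstep
  refine ⟨N₁.biUnion N₂, ?_, ?_, ?_⟩
  · intro v hv
    obtain ⟨a, ha, hv⟩ := Finset.mem_biUnion.1 hv
    have := (hN₂ a hv).1
    simpa using this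
  · intro x hx
    have hx' : x ∈ Metric.closedBall (0 : E) 1 := by simpa using hx
    obtain ⟨a, ha, hxa⟩ := hnet₁ x hx'
    obtain ⟨v, hv, hxv⟩ := hnet₂ a x ⟨hx', by rw [Metric.mem_closedBall, dist_eq_norm]; exact hxa⟩
    exact ⟨v, Finset.mem_biUnion.2 ⟨a, ha, hv⟩, hxv⟩
  · calc (N₁.biUnion N₂).card ≤ N₁.card * 5 ^ Module.finrank ℝ E :=
          Finset.card_biUnion_le_card_mul _ _ _ fun a _ => hc₂ a
      _ ≤ 5 ^ Module.finrank ℝ E * 5 ^ Module.finrank ℝ E := Nat.mul_le_mul_right _ hc₁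
      _ = 25 ^ Module.finrank ℝ E := by rw [← mul_pow]; norm_num

/-! ### The net argument -/

theorem norm_le_of_net {E : Type*} [NormedAddCommGroup E] [InnerProductSpace ℂ E]
    (T : E →L[ℂ] E) (hT : (T : E →ₗ[ℂ] E).IsSymmetric) (N : Finset E) (hN1 : ∀ v ∈ N, ‖v‖ ≤ 1)
    (hN2 : ∀ x : E, ‖x‖ ≤ 1 → ∃ v ∈ N, ‖x - v‖ ≤ 1 / 4) (C : ℝ)
    (hN : ∀ v ∈ N, |(inner ℂ (T v) v : ℂ).re| ≤ C) : ‖T‖ ≤ 2 * C := by
  have hball : ∀ x : E, ‖x‖ ≤ 1 → |(inner ℂ (T x) x : ℂ).re| ≤ C + ‖T‖ / 2 := by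
    intro x hx
    obtain ⟨v, hv, hxv⟩ := hN2 x hx
    have h1 : (inner ℂ (T x) x : ℂ) = inner ℂ (T v) v + inner ℂ (T (x - v)) x
        + inner ℂ (T v) (x - v) := by
      rw [map_sub, inner_sub_left, inner_sub_right]
      ring
    have h2 : ‖(inner ℂ (T (x - v)) x : ℂ)‖ ≤ ‖T‖ / 4 := by
      calc ‖(inner ℂ (T (x - v)) x : ℂ)‖ ≤ ‖T (x - v)‖ * ‖x‖ := norm_inner_le_norm _ _
        _ ≤ (‖T‖ * ‖x - v‖) * ‖x‖ := by gcongr; exact T.le_opNorm _
        _ ≤ (‖T‖ * (1 / 4)) * 1 := by gcongr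
        _ = ‖T‖ / 4 := by ring
    have h3 : ‖(inner ℂ (T v) (x - v) : ℂ)‖ ≤ ‖T‖ / 4 := by
      calc ‖(inner ℂ (T v) (x - v) : ℂ)‖ ≤ ‖T v‖ * ‖x - v‖ := norm_inner_le_norm _ _
        _ ≤ (‖T‖ * ‖v‖) * ‖x - v‖ := by gcongr; exact T.le_opNorm _
        _ ≤ (‖T‖ * 1) * (1 / 4) := by gcongr; exact hN1 v hv
        _ = ‖T‖ / 4 := by ring
    have h4 := (Complex.abs_re_le_norm (inner ℂ (T (x - v)) x : ℂ)).trans h2
    have h5 := (Complex.abs_re_le_norm (inner ℂ (T v) (x - v) : ℂ)).trans h3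
    rw [h1, Complex.add_re, Complex.add_re]
    calc |(inner ℂ (T v) v : ℂ).re + (inner ℂ (T (x - v)) x : ℂ).re
          + (inner ℂ (T v) (x - v) : ℂ).re|
        ≤ |(inner ℂ (T v) v : ℂ).re| + |(inner ℂ (T (x - v)) x : ℂ).re|
          + |(inner ℂ (T v) (x - v) : ℂ).re| := abs_add_three _ _ _
      _ ≤ C + ‖T‖ / 4 + ‖T‖ / 4 := by linarith [hN v hv]
      _ = C + ‖T‖ / 2 := by ring
  have hC : 0 ≤ C + ‖T‖ / 2 := (abs_nonneg _).trans (hball 0 (by simp))
  have hT2 : ‖T‖ ≤ C + ‖T‖ / 2 := by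
    have hb : ∀ x : E, |T.rayleighQuotient x| ≤ C + ‖T‖ / 2 := by
      intro x
      by_cases hx : x = 0
      · rw [hx]
        simp only [ContinuousLinearMap.rayleighQuotient_apply_zero, abs_zero]
        exact hC
      · have hx0 : (0 : ℝ) < ‖x‖ := norm_pos_iff.2 hx
        have hsc : T.rayleighQuotient (((‖x‖⁻¹ : ℝ) : ℂ) • x) = T.rayleighQuotient x :=
          ContinuousLinearMap.rayleigh_smul T x (by
            rw [Complex.ofReal_ne_zero]; exact inv_ne_zero hx0.ne')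
        have hn : ‖((‖x‖⁻¹ : ℝ) : ℂ) • x‖ = 1 := by
          rw [norm_smul, Complex.norm_real, norm_inv, norm_norm, inv_mul_cancel₀ hx0.ne']
        rw [← hsc, ContinuousLinearMap.rayleighQuotient, hn, one_pow, div_one]
        exact hball _ hn.le
    calc ‖T‖ = ⨆ x, |T.rayleighQuotient x| :=
          ContinuousLinearMap.norm_eq_iSup_rayleighQuotient T hT
      _ ≤ C + ‖T‖ / 2 := ciSup_le hb
  linarith

/-! ### The quadratic form -/

/-- the rank one matrix `v v^*`. -/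
noncomputable def rk {d : ℕ} (v : EuclideanSpace ℂ (Fin d)) : Matrix (Fin d) (Fin d) ℂ :=
  Matrix.vecMulVec (WithLp.ofLp v) (star (WithLp.ofLp v))

theorem rk_isHermitian {d : ℕ} (v : EuclideanSpace ℂ (Fin d)) : (rk v).IsHermitian := by
  unfold rk Matrix.IsHermitian
  rw [Matrix.conjTranspose_vecMulVec, star_star]

theorem inner_eq_trace {d : ℕ} (A : Matrix (Fin d) (Fin d) ℂ) (v : EuclideanSpace ℂ (Fin d)) :
    (inner ℂ v (Matrix.toEuclideanCLM (n := Fin d) (𝕜 := ℂ) A v) : ℂ) =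
      Matrix.trace (A * rk v) := by
  rw [rk, Matrix.mul_vecMulVec, Matrix.trace_vecMulVec, EuclideanSpace.inner_eq_star_dotProduct,
    Matrix.ofLp_toEuclideanCLM]

theorem trace_rk_sq {d : ℕ} (v : EuclideanSpace ℂ (Fin d)) :
    Matrix.trace (rk v * rk v) = ((‖v‖ ^ 4 : ℝ) : ℂ) := by
  have h1 : star (WithLp.ofLp v) ⬝ᵥ WithLp.ofLp v = ((‖v‖ ^ 2 : ℝ) : ℂ) := by
    have h := EuclideanSpace.inner_eq_star_dotProduct (𝕜 := ℂ) v v
    rw [inner_self_eq_norm_sq_to_K] at h
    rw [dotProduct_comm, ← h]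
    push_cast
    rfl
  rw [rk, Matrix.vecMulVec_mul_vecMulVec, Matrix.trace_vecMulVec, dotProduct_smul,
    dotProduct_comm (WithLp.ofLp v), h1, smul_eq_mul, ← Complex.ofReal_mul]
  congr 1
  ring

theorem trace_mul_rk {d : ℕ} (a : EuclideanSpace ℝ (Fin d × Fin d))
    (v : EuclideanSpace ℂ (Fin d)) :
    Matrix.trace (Crest.OpAlg.hermitianOfCoords a * rk v) =
      ((inner ℝ a (coordsOf (rk v)) : ℝ) : ℂ) := by
  set b := coordsOf (rk v) with hb
  have hHb : Crest.OpAlg.hermitianOfCoords b = rk v :=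
    hermitianOfCoords_coordsOf _ (rk_isHermitian v)
  have h1 := trace_hermitianOfCoords_sq (a + b)
  rw [hermitianOfCoords_add, add_mul, mul_add, mul_add, Matrix.trace_add, Matrix.trace_add,
    Matrix.trace_add, trace_hermitianOfCoords_sq, trace_hermitianOfCoords_sq,
    Matrix.trace_mul_comm (Crest.OpAlg.hermitianOfCoords b) (Crest.OpAlg.hermitianOfCoords a)] at h1
  rw [← hHb]
  have h2 : ‖a + b‖ ^ 2 = ‖a‖ ^ 2 + 2 * inner ℝ a b + ‖b‖ ^ 2 := norm_add_sq_real a b
  rw [h2] at h1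
  push_cast at h1 ⊢
  linear_combination h1 / 2

theorem norm_coordsOf_rk {d : ℕ} (v : EuclideanSpace ℂ (Fin d)) :
    ‖coordsOf (rk v)‖ = ‖v‖ ^ 2 := by
  have h1 := trace_hermitianOfCoords_sq (coordsOf (rk v))
  rw [hermitianOfCoords_coordsOf _ (rk_isHermitian v), trace_rk_sq] at h1
  have h2 : ‖v‖ ^ 4 = ‖coordsOf (rk v)‖ ^ 2 := by exact_mod_cast h1
  have h3 : ‖coordsOf (rk v)‖ ^ 2 = (‖v‖ ^ 2) ^ 2 := by rw [← h2]; ring
  exact (pow_left_inj₀ (norm_nonneg _) (by positivity) two_ne_zero).1 h3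

/-- the quadratic form is a linear form in the coordinates. -/
theorem quad_eq {I : Type} {d : ℕ} (x : I × (Fin d × Fin d) → ℝ) (l : I)
    (v : EuclideanSpace ℂ (Fin d)) :
    (inner ℂ (Matrix.toEuclideanCLM (n := Fin d) (𝕜 := ℂ) (gmat x l) v) v : ℂ).re =
      ∑ p, coordsOf (rk v) p * x (l, p) := by
  rw [← inner_conj_symm, inner_eq_trace, gmat, trace_mul_rk, Complex.conj_ofReal,
    Complex.ofReal_re, PiLp.inner_apply]
  refine Finset.sum_congr rfl fun p _ => ?_
  simp [mul_comm]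

theorem gmat_isSymmetric {I : Type} {d : ℕ} (x : I × (Fin d × Fin d) → ℝ) (l : I) :
    ((Matrix.toEuclideanCLM (n := Fin d) (𝕜 := ℂ) (gmat x l) :
      EuclideanSpace ℂ (Fin d) →L[ℂ] EuclideanSpace ℂ (Fin d)) :
        EuclideanSpace ℂ (Fin d) →ₗ[ℂ] EuclideanSpace ℂ (Fin d)).IsSymmetric := by
  have h := hermitianOfCoords_isHermitian (WithLp.toLp 2 fun p => x (l, p))
  have h1 : IsSelfAdjoint (Matrix.toEuclideanCLM (n := Fin d) (𝕜 := ℂ) (gmat x l)) := by
    have h2 : IsSelfAdjoint (gmat x l) := h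
    exact h2.map _
  exact h1.isSymmetric

/-! ### The Gaussian tail -/

theorem gue_tail {I : Type} [Fintype I] [DecidableEq I] (l : I) {d : ℕ} (hd : 0 < d)
    (b : Fin d × Fin d → ℝ) (hb : ∑ p, b p ^ 2 ≤ 1) :
    (gue I d).real {x | 4 ≤ ∑ p, b p * x (l, p)} ≤ Real.exp (-(8 * d)) := by
  have hd' : (0 : ℝ) < d := by exact_mod_cast hd
  let c : I × (Fin d × Fin d) → ℝ := fun q => if q.1 = l then b q.2 else 0
  have hlin : ∀ x : I × (Fin d × Fin d) → ℝ, ∑ p, b p * x (l, p) = ∑ q, c q * x q := by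
    intro x
    rw [Fintype.sum_prod_type (f := fun q : I × (Fin d × Fin d) => c q * x q)]
    simp only [c]
    rw [Finset.sum_eq_single l]
    · simp
    · intro i _ hi
      simp [hi]
    · simp
  have hc : ∑ q, c q ^ 2 ≤ 1 := by
    rw [Fintype.sum_prod_type]
    simp only [c]
    rw [Finset.sum_eq_single l]
    · simpa using hb
    · intro i _ hi
      simp [hi]
    · simp
  have hint : Integrable (fun x : I × (Fin d × Fin d) → ℝ =>
      Real.exp ((4 * d) * ∑ p, b p * x (l, p))) (gue I d) := by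
    have heq : (fun x : I × (Fin d × Fin d) → ℝ => Real.exp ((4 * d) * ∑ p, b p * x (l, p))) =
        fun x => ∏ q, (fun (q : I × (Fin d × Fin d)) (y : ℝ) => Real.exp ((4 * d * c q) * y)) q (x q) := by
      funext x
      rw [hlin, Finset.mul_sum, Real.exp_sum]
      refine Finset.prod_congr rfl fun q _ => ?_
      simp only
      congr 1
      ring
    rw [heq]
    exact Integrable.fintype_prod fun q => integrable_exp_mul_gaussianReal _
  have h1 := measure_ge_le_exp_mul_mgf (μ := gue I d) (X := fun x => ∑ p, b p * x (l, p))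
    (t := 4 * d) 4 (by positivity) hint
  refine h1.trans ?_
  have hmgf : mgf (fun x : I × (Fin d × Fin d) → ℝ => ∑ p, b p * x (l, p)) (gue I d) (4 * d) =
      Real.exp (8 * d * ∑ q, c q ^ 2) := by
    unfold mgf
    have heq : (fun x : I × (Fin d × Fin d) → ℝ => Real.exp ((4 * d) * ∑ p, b p * x (l, p))) =
        fun x => ∏ q, (fun (q : I × (Fin d × Fin d)) (y : ℝ) => Real.exp ((4 * d * c q) * y)) q (x q) := by
      funext x
      rw [hlin, Finset.mul_sum, Real.exp_sum]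
      refine Finset.prod_congr rfl fun q _ => ?_
      simp only
      congr 1
      ring
    rw [heq, gue]
    rw [integral_fintype_prod_eq_prod (𝕜 := ℝ)
      (fun (q : I × (Fin d × Fin d)) (y : ℝ) => Real.exp ((4 * d * c q) * y)),
      Finset.mul_sum, Real.exp_sum]
    refine Finset.prod_congr rfl fun q _ => ?_
    have h2 := mgf_gaussianReal (p := gaussianReal 0 ((d : NNReal)⁻¹)) (X := id) (μ := 0)
      (v := (d : NNReal)⁻¹) (by simp) (4 * d * c q)
    unfold mgf at h2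
    simp only [id] at h2
    rw [h2]
    congr 1
    push_cast
    field_simp
    ring
  rw [hmgf, ← Real.exp_add]
  apply Real.exp_le_exp.2
  nlinarith

theorem gue_norm_prob (I : Type) [Fintype I] [DecidableEq I] (l : I) :
    Tendsto (fun d : ℕ => gue I d
      {x | 8 < ‖Matrix.toEuclideanCLM (n := Fin d) (𝕜 := ℂ) (gmat x l)‖}) atTop (𝓝 0) := by
  have hbound : ∀ᶠ d : ℕ in atTop, gue I d
      {x | 8 < ‖Matrix.toEuclideanCLM (n := Fin d) (𝕜 := ℂ) (gmat x l)‖} ≤
        ENNReal.ofReal (2 * (625 * Real.exp (-8)) ^ d) := by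
    filter_upwards [eventually_gt_atTop 0] with d hd
    obtain ⟨N, hN1, hN2, hN3⟩ := exists_net_quarter (EuclideanSpace ℂ (Fin d))
    have hsub : {x : I × (Fin d × Fin d) → ℝ |
        8 < ‖Matrix.toEuclideanCLM (n := Fin d) (𝕜 := ℂ) (gmat x l)‖} ⊆
        ⋃ v ∈ N, ({x | 4 ≤ ∑ p, coordsOf (rk v) p * x (l, p)} ∪
          {x | 4 ≤ ∑ p, (-coordsOf (rk v) p) * x (l, p)}) := by
      intro x hx
      by_contra hcon
      simp only [Set.mem_iUnion, Set.mem_union, Set.mem_ofPred_eq, not_exists, not_or, not_le] at hcon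
      have h := norm_le_of_net _ (gmat_isSymmetric x l) N hN1 hN2 4 (fun v hv => by
        rw [quad_eq, abs_le]
        obtain ⟨h1, h2⟩ := hcon v hv
        simp only [neg_mul, Finset.sum_neg_distrib] at h2
        constructor <;> linarith)
      have hx' : 8 < ‖Matrix.toEuclideanCLM (n := Fin d) (𝕜 := ℂ) (gmat x l)‖ := hx
      linarith
    have hfin : Module.finrank ℝ (EuclideanSpace ℂ (Fin d)) = 2 * d := by
      rw [← Module.finrank_mul_finrank ℝ ℂ (EuclideanSpace ℂ (Fin d)), Complex.finrank_real_complex,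
        finrank_euclideanSpace_fin]
    rw [hfin] at hN3
    have hone : ∀ v ∈ N, gue I d ({x | 4 ≤ ∑ p, coordsOf (rk v) p * x (l, p)} ∪
          {x | 4 ≤ ∑ p, (-coordsOf (rk v) p) * x (l, p)}) ≤
          ENNReal.ofReal (2 * Real.exp (-(8 * d))) := by
      intro v hv
      have hn : ∑ p, coordsOf (rk v) p ^ 2 ≤ 1 := by
        have h1 := EuclideanSpace.real_norm_sq_eq (coordsOf (rk v))
        rw [norm_coordsOf_rk] at h1
        rw [← h1]
        have := hN1 v hv
        have h0 := norm_nonneg v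
        have : ‖v‖ ^ 2 ≤ 1 := pow_le_one₀ h0 this
        exact pow_le_one₀ (by positivity) this
      have e1 := gue_tail l hd (fun p => coordsOf (rk v) p) hn
      have e2 := gue_tail l hd (fun p => -coordsOf (rk v) p) (by simpa using hn)
      refine (measure_union_le _ _).trans ?_
      rw [← ofReal_measureReal, ← ofReal_measureReal, ← ENNReal.ofReal_add measureReal_nonneg
        measureReal_nonneg]
      apply ENNReal.ofReal_le_ofReal
      linarith
    calc gue I d {x | 8 < ‖Matrix.toEuclideanCLM (n := Fin d) (𝕜 := ℂ) (gmat x l)‖}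
        ≤ _ := measure_mono hsub
      _ ≤ ∑ v ∈ N, gue I d ({x | 4 ≤ ∑ p, coordsOf (rk v) p * x (l, p)} ∪
          {x | 4 ≤ ∑ p, (-coordsOf (rk v) p) * x (l, p)}) := measure_biUnion_finset_le _ _
      _ ≤ ∑ v ∈ N, ENNReal.ofReal (2 * Real.exp (-(8 * d))) := Finset.sum_le_sum hone
      _ = ENNReal.ofReal (N.card * (2 * Real.exp (-(8 * d)))) := by
          rw [Finset.sum_const, nsmul_eq_mul, ENNReal.ofReal_mul (Nat.cast_nonneg _),
            ENNReal.ofReal_natCast]
      _ ≤ ENNReal.ofReal (2 * (625 * Real.exp (-8)) ^ d) := by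
          apply ENNReal.ofReal_le_ofReal
          have h1 : (N.card : ℝ) ≤ 25 ^ (2 * d) := by exact_mod_cast hN3
          have h2 : Real.exp (-(8 * d)) = Real.exp (-8) ^ d := by
            rw [← Real.exp_nat_mul]
            congr 1
            ring
          have h3 : (25 : ℝ) ^ (2 * d) = 625 ^ d := by
            rw [pow_mul]; norm_num
          rw [h2, mul_pow]
          rw [h3] at h1
          have h4 : 0 ≤ Real.exp (-8) ^ d := by positivity
          nlinarith
  have hlt : 625 * Real.exp (-8) < 1 := by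
    have h1 : (2.7182818283 : ℝ) < Real.exp 1 := Real.exp_one_gt_d9
    have h2 : Real.exp 8 = Real.exp 1 ^ 8 := by
      rw [← Real.exp_nat_mul]; norm_num
    have h3 : (625 : ℝ) < Real.exp 8 := by
      rw [h2]
      calc (625 : ℝ) < 2.7182818283 ^ 8 := by norm_num
        _ ≤ Real.exp 1 ^ 8 := by gcongr
    rw [Real.exp_neg]
    rw [mul_inv_lt_iff₀ (Real.exp_pos 8)]
    linarith
  have hlim : Tendsto (fun d : ℕ => ENNReal.ofReal (2 * (625 * Real.exp (-8)) ^ d)) atTop (𝓝 0) := by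
    have h1 : Tendsto (fun d : ℕ => 2 * (625 * Real.exp (-8)) ^ d) atTop (𝓝 (2 * 0)) :=
      (tendsto_pow_atTop_nhds_zero_of_lt_one (by positivity) hlt).const_mul 2
    rw [mul_zero] at h1
    have h2 := ENNReal.tendsto_ofReal h1
    rwa [ENNReal.ofReal_zero] at h2
  exact tendsto_of_tendsto_of_tendsto_of_le_of_le' tendsto_const_nhds hlim
    (Eventually.of_forall fun _ => bot_le) hbound

end Crest.Agent.FE
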