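import Crest.Agent.FE.GueMom
import Crest.Agent.FE.GueNorm

/-!
# Row 89, chunk G5: from the GUE to Lebesgue measure, with the `a`-matrices fixed

PROOF.  `I = Fin k ⊕ Fin n`.  By `gue_word_prob` and `gue_norm_prob` and a finite union bound the good set
`𝒢_d ⊆ (I × (Fin d × Fin d) → ℝ)` has `gue`-probability `≥ 1/2` for large `d`.  Split the coordinates
into the `Fin k` part and the `Fin n` part (`MeasurableEquiv.sumPiEquivProdPi`-type,
`measurePreserving`), Fubini: there is `a` whose slice has Gaussian probability `≥ 1/2`.  The density of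
`⊗ N(0,1/d)` on `ℝ^{n d²}` is `≤ (d/2π)^{n d²/2}`, so the Lebesgue volume of the slice is
`≥ ½ (2π/d)^{n d²/2}`.  Transfer to `EuclideanSpace` (`EuclideanSpace.volume_preserving_…`).
-/

set_option autoImplicit false

namespace Crest.Agent.FE

open MeasureTheory ProbabilityTheory Filter Topology Crest.OpAlg

open scoped ENNReal

private theorem pi_le_smul_pi {ι : Type*} [Fintype ι] {μ ν : Measure ℝ} [SigmaFinite μ]
    [SigmaFinite ν] {C : NNReal} (h : μ ≤ (C : ℝ≥0∞) • ν) (s : Set (ι → ℝ))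
    (hs : MeasurableSet s) :
    Measure.pi (fun _ : ι => μ) s ≤
      (C : ℝ≥0∞) ^ Fintype.card ι * Measure.pi (fun _ : ι => ν) s := by
  have h1 : (Measure.pi (fun _ : ι => μ)).toOuterMeasure ≤
      OuterMeasure.pi (fun _ : ι => ((C : ℝ≥0∞) • ν).toOuterMeasure) := by
    rw [OuterMeasure.le_pi]
    intro t _
    calc (Measure.pi fun _ : ι => μ) (Set.pi Set.univ t) = ∏ i, μ (t i) := Measure.pi_pi _ _
      _ ≤ ∏ i, ((C : ℝ≥0∞) • ν) (t i) := Finset.prod_le_prod' fun i _ => h (t i)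
  have hsf : SigmaFinite ((C : ℝ≥0∞) • ν) := inferInstanceAs (SigmaFinite (C • ν))
  have h2 : Measure.pi (fun _ : ι => (C : ℝ≥0∞) • ν) =
      (C : ℝ≥0∞) ^ Fintype.card ι • Measure.pi (fun _ : ι => ν) := by
    refine Measure.pi_eq fun t _ => ?_
    rw [Measure.smul_apply, Measure.pi_pi]
    simp only [Measure.smul_apply, smul_eq_mul]
    rw [Finset.prod_mul_distrib, Finset.prod_const, Finset.card_univ]
  have h3 : Measure.pi (fun _ : ι => (C : ℝ≥0∞) • ν) s =
      OuterMeasure.pi (fun _ : ι => ((C : ℝ≥0∞) • ν).toOuterMeasure) s := by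
    rw [Measure.pi, toMeasure_apply _ _ hs]
  calc Measure.pi (fun _ : ι => μ) s ≤
        OuterMeasure.pi (fun _ : ι => ((C : ℝ≥0∞) • ν).toOuterMeasure) s := h1 s
    _ = Measure.pi (fun _ : ι => (C : ℝ≥0∞) • ν) s := h3.symm
    _ = _ := by rw [h2]; rfl

private theorem gaussian_le (v : NNReal) (hv : v ≠ 0) :
    gaussianReal 0 v ≤ ENNReal.ofReal ((Real.sqrt (2 * Real.pi * v))⁻¹) •
      (volume : Measure ℝ) := by
  rw [gaussianReal_of_var_ne_zero 0 hv, ← withDensity_const]
  refine withDensity_mono (ae_of_all _ fun x => ?_)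
  unfold gaussianPDF
  refine ENNReal.ofReal_le_ofReal ?_
  unfold gaussianPDFReal
  have h1 : Real.exp (-(x - 0) ^ 2 / (2 * v)) ≤ 1 := by
    rw [Real.exp_le_one_iff]
    have : 0 ≤ (x - 0) ^ 2 / (2 * (v : ℝ)) := by positivity
    have e : -(x - 0) ^ 2 / (2 * (v : ℝ)) = -((x - 0) ^ 2 / (2 * (v : ℝ))) := by ring
    rw [e]; linarith
  have h2 : 0 ≤ (Real.sqrt (2 * Real.pi * v))⁻¹ := by positivity
  calc _ ≤ (Real.sqrt (2 * Real.pi * v))⁻¹ * 1 := mul_le_mul_of_nonneg_left h1 h2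
    _ = _ := mul_one _

private theorem continuous_clm (d : ℕ) :
    Continuous (fun A : Matrix (Fin d) (Fin d) ℂ =>
      ‖Matrix.toEuclideanCLM (n := Fin d) (𝕜 := ℂ) A‖) := by
  have : Continuous (fun A : Matrix (Fin d) (Fin d) ℂ =>
      Matrix.toEuclideanCLM (n := Fin d) (𝕜 := ℂ) A) := by
    have := LinearMap.continuous_of_finiteDimensional
      ((Matrix.toEuclideanCLM (n := Fin d) (𝕜 := ℂ)).toAlgEquiv.toLinearMap)
    exact this
  exact this.norm

private theorem continuous_gmat {I : Type} {d : ℕ} (l : I) :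
    Continuous (fun x : I × (Fin d × Fin d) → ℝ => gmat x l) := by
  unfold gmat
  refine continuous_hermitianOfCoords.comp ?_
  refine (PiLp.continuous_toLp 2 _).comp ?_
  exact continuous_pi fun p => continuous_apply (l, p)

private theorem continuous_mtr {I : Type} {d : ℕ} (w : List I) :
    Continuous (fun x : I × (Fin d × Fin d) → ℝ => mtr x w) := by
  unfold mtr
  refine continuous_const.mul (Continuous.matrix_trace ?_)
  induction w with
  | nil => simpa using continuous_const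
  | cons a w ih =>
    simp only [List.map_cons, List.prod_cons]
    exact (continuous_gmat a).matrix_mul ih

/-- The good set of the GUE. -/
private def goodSet {I : Type} (d : ℕ) (W : Finset (List I)) (m : List I → ℂ) (δ : ℝ) :
    Set (I × (Fin d × Fin d) → ℝ) :=
  {x | (∀ l, ‖Matrix.toEuclideanCLM (n := Fin d) (𝕜 := ℂ) (gmat x l)‖ ≤ 8) ∧
    ∀ w ∈ W, ‖mtr x w - m w‖ < δ}

private theorem measurableSet_goodSet {I : Type} [Fintype I] (d : ℕ) (W : Finset (List I))
    (m : List I → ℂ) (δ : ℝ) : MeasurableSet (goodSet d W m δ) := by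
  have e : goodSet d W m δ =
      (⋂ l, {x : I × (Fin d × Fin d) → ℝ |
        ‖Matrix.toEuclideanCLM (n := Fin d) (𝕜 := ℂ) (gmat x l)‖ ≤ 8}) ∩
      ⋂ w ∈ W, {x | ‖mtr x w - m w‖ < δ} := by
    ext x
    simp [goodSet]
  rw [e]
  refine MeasurableSet.inter (MeasurableSet.iInter fun l => ?_)
    (Finset.measurableSet_biInter _ fun w _ => ?_)
  · exact (isClosed_le ((continuous_clm d).comp (continuous_gmat l))
      continuous_const).measurableSet
  · exact (isOpen_lt ((continuous_mtr w).sub continuous_const).norm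
      continuous_const).measurableSet

private theorem goodSet_prob (I : Type) [Fintype I] [DecidableEq I] (W : Finset (List I)) (δ : ℝ)
    (hδ : 0 < δ) :
    ∀ᶠ d : ℕ in atTop, (1 / 2 : ℝ≥0∞) ≤ gue I d (goodSet d W (fun w => (mom w : ℂ)) δ) := by
  have h1 : Tendsto (fun d : ℕ => (∑ l : I, gue I d
      {x | 8 < ‖Matrix.toEuclideanCLM (n := Fin d) (𝕜 := ℂ) (gmat x l)‖}) +
      ∑ w ∈ W, gue I d {x | δ ≤ ‖mtr x w - (mom w : ℂ)‖}) atTop (𝓝 0) := by
    have a := tendsto_finsetSum (Finset.univ : Finset I) (fun l _ => gue_norm_prob I l)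
    have b := tendsto_finsetSum W (fun w _ => gue_word_prob I w δ hδ)
    have c := a.add b
    simpa using c
  have h2 := h1.eventually (ge_mem_nhds (show (0 : ℝ≥0∞) < 1 / 2 by simp))
  filter_upwards [h2] with d hd
  set G := goodSet d W (fun w => (mom w : ℂ)) δ with hG
  have h3 : gue I d Gᶜ ≤ 1 / 2 := by
    refine le_trans ?_ hd
    have hsub : Gᶜ ⊆ (⋃ l ∈ (Finset.univ : Finset I),
        {x | 8 < ‖Matrix.toEuclideanCLM (n := Fin d) (𝕜 := ℂ) (gmat x l)‖}) ∪
        ⋃ w ∈ W, {x | δ ≤ ‖mtr x w - (mom w : ℂ)‖} := by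
      intro x hx
      by_contra hcon
      apply hx
      simp only [Set.mem_union, Set.mem_iUnion, not_or, not_exists, Set.mem_ofPred_eq, not_lt,
        not_le, exists_prop, not_and, Finset.mem_univ, true_implies] at hcon
      exact ⟨fun l => hcon.1 l, fun w hw => hcon.2 w hw⟩
    refine (measure_mono hsub).trans ((measure_union_le _ _).trans ?_)
    exact add_le_add (measure_biUnion_finset_le _ _) (measure_biUnion_finset_le _ _)
  have h4 : (1 : ℝ≥0∞) = gue I d G + gue I d Gᶜ := by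
    rw [measure_add_measure_compl (measurableSet_goodSet d W _ δ), measure_univ]
  have h5 : (1 : ℝ≥0∞) ≤ gue I d G + 1 / 2 := h4.le.trans (add_le_add le_rfl h3)
  by_contra hcon
  push Not at hcon
  have h6 : gue I d G + 1 / 2 < 1 / 2 + 1 / 2 :=
    ENNReal.add_lt_add_right (by simp) hcon
  rw [ENNReal.add_halves] at h6
  exact absurd h5 (not_le.2 h6)

/-- joining the coordinates -/
private def joinC {k n d : ℕ} (p : ((Fin k × (Fin d × Fin d)) → ℝ) × ((Fin n × (Fin d × Fin d)) → ℝ)) :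
    (Fin k ⊕ Fin n) × (Fin d × Fin d) → ℝ :=
  fun q => Sum.elim (fun j => p.1 (j, q.2)) (fun i => p.2 (i, q.2)) q.1

private theorem joinC_mp (k n d : ℕ) :
    MeasurePreserving (joinC (k := k) (n := n) (d := d))
      ((gue (Fin k) d).prod (gue (Fin n) d)) (gue (Fin k ⊕ Fin n) d) := by
  have h1 := measurePreserving_sumPiEquivProdPi_symm
    (X := fun _ : (Fin k × (Fin d × Fin d)) ⊕ (Fin n × (Fin d × Fin d)) => ℝ)
    (fun _ => gaussianReal 0 ((d : NNReal)⁻¹))
  have h2 := measurePreserving_piCongrLeft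
    (α := fun _ : (Fin k ⊕ Fin n) × (Fin d × Fin d) => ℝ)
    (fun _ => gaussianReal 0 ((d : NNReal)⁻¹))
    (Equiv.sumProdDistrib (Fin k) (Fin n) (Fin d × Fin d)).symm
  have h3 := h2.comp h1
  have e : (joinC (k := k) (n := n) (d := d)) =
      (MeasurableEquiv.piCongrLeft (fun _ : (Fin k ⊕ Fin n) × (Fin d × Fin d) => ℝ)
        (Equiv.sumProdDistrib (Fin k) (Fin n) (Fin d × Fin d)).symm) ∘
      (MeasurableEquiv.sumPiEquivProdPi
        (fun _ : (Fin k × (Fin d × Fin d)) ⊕ (Fin n × (Fin d × Fin d)) => ℝ)).symm := by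
    funext p
    funext ⟨l, q⟩
    rcases l with j | i
    · exact (Equiv.piCongrLeft_apply_apply
        (fun _ : (Fin k ⊕ Fin n) × (Fin d × Fin d) => ℝ)
        (Equiv.sumProdDistrib (Fin k) (Fin n) (Fin d × Fin d)).symm
        ((MeasurableEquiv.sumPiEquivProdPi
          (fun _ : (Fin k × (Fin d × Fin d)) ⊕ (Fin n × (Fin d × Fin d)) => ℝ)).symm p)
        (Sum.inl (j, q))).symm
    · exact (Equiv.piCongrLeft_apply_apply
        (fun _ : (Fin k ⊕ Fin n) × (Fin d × Fin d) => ℝ)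
        (Equiv.sumProdDistrib (Fin k) (Fin n) (Fin d × Fin d)).symm
        ((MeasurableEquiv.sumPiEquivProdPi
          (fun _ : (Fin k × (Fin d × Fin d)) ⊕ (Fin n × (Fin d × Fin d)) => ℝ)).symm p)
        (Sum.inr (i, q))).symm
  rw [e]
  exact h3

theorem gue_good (k n : ℕ) (W : Finset (List (Fin k ⊕ Fin n))) (δ : ℝ) (hδ : 0 < δ) :
    ∀ᶠ d : ℕ in atTop, ∃ a : EuclideanSpace ℝ (Fin k × (Fin d × Fin d)),
      ENNReal.ofReal (1 / 2 * Real.exp ((n : ℝ) * d ^ 2 / 2 * Real.log (2 * Real.pi / d))) ≤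
        volume {b : EuclideanSpace ℝ (Fin n × (Fin d × Fin d)) |
          (∀ j, ‖Matrix.toEuclideanCLM (n := Fin d) (𝕜 := ℂ) (matrixTuple a j)‖ ≤ 8) ∧
          (∀ i, ‖Matrix.toEuclideanCLM (n := Fin d) (𝕜 := ℂ) (matrixTuple b i)‖ ≤ 8) ∧
          ∀ w ∈ W, ‖(d : ℂ)⁻¹ * Matrix.trace
            ((w.map (Sum.elim (matrixTuple a) (matrixTuple b))).prod) - (mom w : ℂ)‖ < δ} := by
  filter_upwards [goodSet_prob (Fin k ⊕ Fin n) W δ hδ, eventually_ge_atTop 1] with d hd hd1
  set G := goodSet d W (fun w => (mom w : ℂ)) δ with hG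
  have hGm : MeasurableSet G := measurableSet_goodSet d W _ δ
  have hmp := joinC_mp k n d
  have hJm : Measurable (joinC (k := k) (n := n) (d := d)) := hmp.measurable
  have h1 : (1 / 2 : ℝ≥0∞) ≤ ∫⁻ a, gue (Fin n) d (Prod.mk a ⁻¹' (joinC ⁻¹' G)) ∂(gue (Fin k) d) := by
    rw [← Measure.prod_apply (hJm hGm), hmp.measure_preimage hGm.nullMeasurableSet]
    exact hd
  obtain ⟨a, ha⟩ := exists_lintegral_le (μ := gue (Fin k) d)
    (f := fun a => gue (Fin n) d (Prod.mk a ⁻¹' (joinC ⁻¹' G))) (by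
      refine ne_of_lt (lt_of_le_of_lt (lintegral_mono (g := fun _ => (1 : ℝ≥0∞)) fun a => ?_) ?_)
      · exact prob_le_one
      · simp)
  set S := Prod.mk a ⁻¹' (joinC ⁻¹' G) with hS
  have hSm : MeasurableSet S := measurable_prodMk_left (hJm hGm)
  have h2 : (1 / 2 : ℝ≥0∞) ≤ gue (Fin n) d S := h1.trans ha
  refine ⟨WithLp.toLp 2 a, ?_⟩
  -- the volume of the slice
  set s0 : ℝ := Real.sqrt (2 * Real.pi * ((d : NNReal)⁻¹ : NNReal)) with hs0
  have hd0 : (0 : ℝ) < d := by exact_mod_cast hd1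
  have hv0 : ((d : NNReal)⁻¹ : NNReal) ≠ 0 := by
    have : (d : NNReal) ≠ 0 := by exact_mod_cast (show d ≠ 0 by omega)
    exact inv_ne_zero this
  have hs0p : 0 < s0 := by
    rw [hs0]
    have : (0 : ℝ) < ((d : NNReal)⁻¹ : NNReal) := by
      exact_mod_cast pos_iff_ne_zero.2 hv0
    positivity
  have h3 : gue (Fin n) d S ≤ (ENNReal.ofReal s0⁻¹) ^ (n * (d * d)) * volume S := by
    have := pi_le_smul_pi (ι := Fin n × (Fin d × Fin d))
      (μ := gaussianReal 0 ((d : NNReal)⁻¹)) (ν := volume) (C := Real.toNNReal s0⁻¹)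
      (gaussian_le _ hv0) S hSm
    rw [Fintype.card_prod, Fintype.card_prod, Fintype.card_fin, Fintype.card_fin] at this
    exact this
  have h4 : ENNReal.ofReal (1 / 2 * Real.exp ((n : ℝ) * d ^ 2 / 2 *
      Real.log (2 * Real.pi / d))) ≤ volume S := by
    have e1 : Real.exp ((n : ℝ) * d ^ 2 / 2 * Real.log (2 * Real.pi / d)) =
        s0 ^ (n * (d * d)) := by
      have e2 : s0 = Real.exp (1 / 2 * Real.log (2 * Real.pi / d)) := by
        rw [hs0, Real.sqrt_eq_rpow, Real.rpow_def_of_pos]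
        · congr 1
          rw [mul_comm]
          congr 2
        · have : (0 : ℝ) < ((d : NNReal)⁻¹ : NNReal) := by
            exact_mod_cast pos_iff_ne_zero.2 hv0
          positivity
      rw [e2, ← Real.exp_nat_mul]
      congr 1
      push_cast
      ring
    rw [e1]
    have h5 : (1 / 2 : ℝ≥0∞) ≤ (ENNReal.ofReal s0⁻¹) ^ (n * (d * d)) * volume S := h2.trans h3
    have h6 : ENNReal.ofReal (1 / 2 * s0 ^ (n * (d * d))) =
        1 / 2 * (ENNReal.ofReal s0) ^ (n * (d * d)) := by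
      rw [ENNReal.ofReal_mul (by norm_num), ENNReal.ofReal_pow hs0p.le]
      congr 1
      rw [ENNReal.ofReal_div_of_pos (by norm_num)]
      simp
    rw [h6]
    calc 1 / 2 * (ENNReal.ofReal s0) ^ (n * (d * d))
        ≤ ((ENNReal.ofReal s0⁻¹) ^ (n * (d * d)) * volume S) *
          (ENNReal.ofReal s0) ^ (n * (d * d)) := by gcongr
      _ = ((ENNReal.ofReal s0⁻¹) * (ENNReal.ofReal s0)) ^ (n * (d * d)) * volume S := by
          rw [mul_pow]; ring
      _ = volume S := by
          rw [← ENNReal.ofReal_mul (by positivity), inv_mul_cancel₀ hs0p.ne']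
          simp
  refine h4.trans (le_of_eq ?_)
  -- transfer to the Euclidean space
  set T : Set (EuclideanSpace ℝ (Fin n × (Fin d × Fin d))) := {b |
          (∀ j, ‖Matrix.toEuclideanCLM (n := Fin d) (𝕜 := ℂ)
            (matrixTuple (WithLp.toLp 2 a) j)‖ ≤ 8) ∧
          (∀ i, ‖Matrix.toEuclideanCLM (n := Fin d) (𝕜 := ℂ) (matrixTuple b i)‖ ≤ 8) ∧
          ∀ w ∈ W, ‖(d : ℂ)⁻¹ * Matrix.trace
            ((w.map (Sum.elim (matrixTuple (WithLp.toLp 2 a)) (matrixTuple b))).prod) -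
              (mom w : ℂ)‖ < δ} with hT
  have h7 : (fun y : Fin n × (Fin d × Fin d) → ℝ => WithLp.toLp 2 y) ⁻¹' T = S := by
    ext b
    have e1 : gmat (joinC (a, b)) = Sum.elim (matrixTuple (WithLp.toLp 2 a))
        (matrixTuple (WithLp.toLp 2 b)) := by
      funext l
      rcases l with j | i <;> rfl
    simp only [hT, hS, hG, goodSet, Set.mem_preimage, Set.mem_ofPred_eq, mtr, e1, Sum.forall,
      Sum.elim_inl, Sum.elim_inr, and_assoc]
  have h8 : (fun y : EuclideanSpace ℝ (Fin n × (Fin d × Fin d)) => WithLp.ofLp y) ⁻¹' S = T := by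
    rw [← h7]
    ext b
    rfl
  rw [← h8]
  exact ((PiLp.volume_preserving_ofLp (Fin n × (Fin d × Fin d))).measure_preimage
    hSm.nullMeasurableSet).symm

end Crest.Agent.FE
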