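import Mathlib
import Crest.Agent.QG.GaussMom

/-!
# Row 89, chunk G1: Gaussian integration by parts for polynomials

`μ = ⊗_J N(0,v)`; for `p : MvPolynomial J ℂ` evaluated at real points.
PROOF.  By linearity it is enough to treat monomials `∏_j x_j^{m_j}`: the integral over the product measure
factorises (`integral_fintype_prod_eq_prod`, `Integrable.fintype_prod`), and in one dimension
`∫ x^{m+1} dN(0,v) = m v ∫ x^{m-1} dN(0,v)`.  One-dimensional facts for `v = 1` are in
`Crest/Agent/QG/GaussMom.lean` (`gM_add_two`, `gM_one`, `gm_integrable_pow`), scale by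
`gaussianReal_map_const_mul`; or repeat the integration by parts of the density.
-/

set_option autoImplicit false

namespace Crest.Agent.FE

open MeasureTheory ProbabilityTheory

theorem gibp_map (v : NNReal) :
    gaussianReal 0 v = (gaussianReal 0 1).map (fun x : ℝ => Real.sqrt v * x) := by
  rw [gaussianReal_map_const_mul]
  congr 1
  · simp
  · ext
    simp

theorem gibp_integrable_pow (v : NNReal) (n : ℕ) :
    Integrable (fun x : ℝ => x ^ n) (gaussianReal 0 v) := by
  rw [gibp_map v, integrable_map_measure (by fun_prop) (by fun_prop)]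
  have : ((fun x : ℝ => x ^ n) ∘ fun x : ℝ => Real.sqrt v * x) =
      fun x : ℝ => (Real.sqrt v) ^ n * x ^ n := by
    ext x
    simp [mul_pow]
  rw [this]
  exact (Crest.Agent.QG.gm_integrable_pow n).const_mul _

theorem gibp_moment (v : NNReal) (n : ℕ) :
    ∫ x : ℝ, x ^ n ∂(gaussianReal 0 v) = (Real.sqrt v) ^ n * Crest.Agent.QG.gM n := by
  rw [gibp_map v, integral_map (by fun_prop) (by fun_prop), Crest.Agent.QG.gM,
    ← integral_const_mul]
  congr 1
  ext x
  rw [mul_pow]

/-- complex one-dimensional moment -/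
noncomputable def cM (v : NNReal) (n : ℕ) : ℂ := ∫ x : ℝ, (x : ℂ) ^ n ∂(gaussianReal 0 v)

theorem cM_eq (v : NNReal) (n : ℕ) :
    cM v n = (((Real.sqrt v) ^ n * Crest.Agent.QG.gM n : ℝ) : ℂ) := by
  rw [← gibp_moment, ← integral_complex_ofReal, cM]
  congr 1
  ext x
  push_cast
  rfl

theorem cM_succ (v : NNReal) (n : ℕ) : cM v (n + 1) = (v : ℂ) * (n * cM v (n - 1)) := by
  rw [cM_eq, cM_eq, Crest.Agent.QG.gM_succ]
  cases n with
  | zero => simp
  | succ n =>
    have hv : (Real.sqrt v) ^ (n + 1 + 1) = (v : ℝ) * (Real.sqrt v) ^ n := by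
      rw [pow_succ, pow_succ, mul_assoc, Real.mul_self_sqrt (NNReal.coe_nonneg v), mul_comm]
    rw [hv]
    simp only [Nat.add_sub_cancel]
    push_cast
    ring

theorem gibp_cintegrable (v : NNReal) (n : ℕ) :
    Integrable (fun x : ℝ => (x : ℂ) ^ n) (gaussianReal 0 v) := by
  have h := (gibp_integrable_pow v n).ofReal (𝕜 := ℂ)
  refine h.congr (Filter.Eventually.of_forall (fun x => ?_))
  simp

theorem gibp_monomial_eval {J : Type*} [Fintype J] (s : J →₀ ℕ) (a : ℂ) (x : J → ℝ) :
    MvPolynomial.eval (fun j => (x j : ℂ)) (MvPolynomial.monomial s a) =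
      a * ∏ i, (x i : ℂ) ^ s i := by
  rw [MvPolynomial.eval_monomial, Finsupp.prod_fintype _ _ (fun i => pow_zero _)]

theorem integrable_mvPoly {J : Type*} [Fintype J] (v : NNReal) (p : MvPolynomial J ℂ) :
    Integrable (fun x : J → ℝ => MvPolynomial.eval (fun j => (x j : ℂ)) p)
      (Measure.pi fun _ : J => gaussianReal 0 v) := by
  induction p using MvPolynomial.induction_on' with
  | monomial s a =>
    simp only [gibp_monomial_eval]
    refine Integrable.const_mul ?_ a
    exact Integrable.fintype_prod (f := fun (i : J) (t : ℝ) => (t : ℂ) ^ s i)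
      (fun i => gibp_cintegrable v (s i))
  | add p q hp hq =>
    simp only [map_add]
    exact hp.add hq

theorem gibp_monomial_int {J : Type*} [Fintype J] (v : NNReal) (s : J →₀ ℕ) (a : ℂ) :
    ∫ x : J → ℝ, MvPolynomial.eval (fun j => (x j : ℂ)) (MvPolynomial.monomial s a)
        ∂(Measure.pi fun _ : J => gaussianReal 0 v) = a * ∏ i, cM v (s i) := by
  simp only [gibp_monomial_eval]
  rw [integral_const_mul]
  congr 1
  exact integral_fintype_prod_eq_prod (𝕜 := ℂ) (fun (i : J) (t : ℝ) => (t : ℂ) ^ s i)

theorem gauss_ibp {J : Type*} [Fintype J] [DecidableEq J] (v : NNReal) (p : MvPolynomial J ℂ)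
    (a : J) :
    ∫ x : J → ℝ, (x a : ℂ) * MvPolynomial.eval (fun j => (x j : ℂ)) p
        ∂(Measure.pi fun _ : J => gaussianReal 0 v) =
      (v : ℂ) * ∫ x : J → ℝ, MvPolynomial.eval (fun j => (x j : ℂ)) (MvPolynomial.pderiv a p)
        ∂(Measure.pi fun _ : J => gaussianReal 0 v) := by
  have key : ∀ q : MvPolynomial J ℂ, (fun x : J → ℝ => (x a : ℂ) *
      MvPolynomial.eval (fun j => (x j : ℂ)) q) =
      fun x : J → ℝ => MvPolynomial.eval (fun j => (x j : ℂ)) (MvPolynomial.X a * q) := by
    intro q
    ext x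
    simp
  rw [key]
  induction p using MvPolynomial.induction_on' with
  | monomial s b =>
    rw [MvPolynomial.pderiv_monomial, MvPolynomial.X, MvPolynomial.monomial_mul,
      gibp_monomial_int, gibp_monomial_int, one_mul,
      ← Finset.mul_prod_erase _ _ (Finset.mem_univ a),
      ← Finset.mul_prod_erase _ _ (Finset.mem_univ a)]
    have e1 : ((Finsupp.single a 1 + s : J →₀ ℕ)) a = s a + 1 := by
      simp [add_comm]
    have e2 : ((s - Finsupp.single a 1 : J →₀ ℕ)) a = s a - 1 := by
      simp
    have e3 : ∏ x ∈ Finset.univ.erase a, cM v ((Finsupp.single a 1 + s : J →₀ ℕ) x) =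
        ∏ x ∈ Finset.univ.erase a, cM v ((s - Finsupp.single a 1 : J →₀ ℕ) x) := by
      refine Finset.prod_congr rfl (fun x hx => ?_)
      have hxc : a ≠ x := fun h => (Finset.ne_of_mem_erase hx) h.symm
      simp [Finsupp.single_apply, hxc]
    rw [e1, e2, e3, cM_succ]
    ring
  | add p q hp hq =>
    simp only [mul_add, map_add]
    rw [integral_add, integral_add, mul_add]
    · simp only [map_mul, map_add] at hp hq ⊢
      rw [hp, hq]
    · exact integrable_mvPoly v _
    · exact integrable_mvPoly v _
    · exact (integrable_mvPoly v (MvPolynomial.X a * p)).congr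
        (Filter.Eventually.of_forall fun x => by simp)
    · exact (integrable_mvPoly v (MvPolynomial.X a * q)).congr
        (Filter.Eventually.of_forall fun x => by simp)

end Crest.Agent.FE
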