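import Crest.Agent.FE.GueRec

/-!
# Row 89, chunk G3: convergence of GUE moments

PROOF.  `Emom_tendsto`: strong induction on the total length plus the number of words; empty words are
removed by `mtr x [] = 1` for `d ≥ 1`.  In `loop_eq` all terms are smaller; the bracket multiplying `d⁻²`
converges, so its contribution tends to 0, and the first sum tends to
`Σ_t [Q_t = i] mom mom ∏ mom = mom (i :: Q) ∏ mom`.
`second moment`: `conj (mtr x w) = mtr x w.reverse` (Hermitian matrices), and
`∫ ‖mtr − mom‖² = Emom [w, w.reverse] − mom (Emom [w] + Emom [w.reverse]) + mom² → 0`.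
-/

set_option autoImplicit false

namespace Crest.Agent.FE

open MeasureTheory ProbabilityTheory Filter Topology

namespace GueMomAux

theorem mtr_nil {I : Type} {d : ℕ} (hd : 1 ≤ d) (x : I × (Fin d × Fin d) → ℝ) :
    mtr x ([] : List I) = 1 := by
  have : (d : ℂ) ≠ 0 := by
    have : d ≠ 0 := by omega
    exact_mod_cast this
  simp [mtr, Matrix.trace_one, this]

theorem Emom_nil (I : Type) [Fintype I] (d : ℕ) : Emom I d [] = 1 := by
  simp [Emom]

theorem Emom_nil_cons (I : Type) [Fintype I] {d : ℕ} (hd : 1 ≤ d) (Ws : List (List I)) :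
    Emom I d ([] :: Ws) = Emom I d Ws := by
  simp [Emom, mtr_nil hd]

theorem mom_nil {β : Type} [DecidableEq β] : mom ([] : List β) = 1 := by
  rw [mom]

theorem mom_cons {β : Type} [DecidableEq β] (j : β) (Q : List β) :
    mom (j :: Q) = ∑ t : Fin Q.length,
      if Q[t] = j then mom (Q.take t) * mom (Q.drop (t + 1)) else 0 := by
  rw [mom]

/-- size of a list of words -/
def sz {I : Type} (Ws : List (List I)) : ℕ := (Ws.map List.length).sum + Ws.length

theorem sz_cons {I : Type} (W : List I) (Ws : List (List I)) :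
    sz (W :: Ws) = W.length + 1 + sz Ws := by
  simp [sz]; omega

theorem sz_eraseIdx {I : Type} (Ws : List (List I)) (l : ℕ) (hl : l < Ws.length) :
    sz (Ws.eraseIdx l) + (Ws[l].length + 1) = sz Ws := by
  induction Ws generalizing l with
  | nil => simp at hl
  | cons W Ws ih =>
    cases l with
    | zero => simp [sz_cons]; omega
    | succ l =>
      have hl' : l < Ws.length := by simpa using hl
      have := ih l hl'
      simp only [List.eraseIdx_cons_succ, List.getElem_cons_succ, sz_cons]
      omega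

theorem tendsto_aux (I : Type) [Fintype I] [DecidableEq I] (n : ℕ) :
    ∀ Ws : List (List I), sz Ws = n →
      Tendsto (fun d : ℕ => Emom I d Ws) atTop (𝓝 (((Ws.map mom).prod : ℝ) : ℂ)) := by
  induction n using Nat.strong_induction_on with
  | _ n ih =>
    intro Ws hWs
    match Ws, hWs with
    | [], _ => simp [Emom_nil]
    | [] :: Ws', h =>
      have h1 := ih (sz Ws') (by rw [← h, sz_cons]; simp) Ws' rfl
      have h2 : (((([] : List I) :: Ws').map mom).prod : ℝ) = (Ws'.map mom).prod := by
        simp [mom_nil]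
      rw [h2]
      refine h1.congr' ?_
      filter_upwards [eventually_ge_atTop 1] with d hd
      exact (Emom_nil_cons I hd Ws').symm
    | (i :: Q) :: Ws', h =>
      have hsz : sz ((i :: Q) :: Ws') = Q.length + 2 + sz Ws' := by
        rw [sz_cons]; simp
      -- first sum
      have hfirst : Tendsto (fun d : ℕ => ∑ t : Fin Q.length,
          if Q[t] = i then Emom I d (Q.take t :: Q.drop (t + 1) :: Ws') else 0) atTop
          (𝓝 (∑ t : Fin Q.length, if Q[t] = i then
            (((((Q.take t) :: Q.drop (t + 1) :: Ws').map mom).prod : ℝ) : ℂ) else 0)) := by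
        refine tendsto_finsetSum _ fun t _ => ?_
        by_cases ht : Q[t] = i
        · simp only [ht, if_true]
          refine ih (sz (Q.take t :: Q.drop (t + 1) :: Ws')) ?_ _ rfl
          rw [← h, hsz, sz_cons, sz_cons, List.length_take, List.length_drop]
          have := t.2
          omega
        · simp only [ht, if_false]
          exact tendsto_const_nhds
      have hsecond : Tendsto (fun d : ℕ => ∑ l : Fin Ws'.length, ∑ t : Fin Ws'[l].length,
          if Ws'[l][t] = i then
            Emom I d ((Q ++ Ws'[l].drop (t + 1) ++ Ws'[l].take t) :: Ws'.eraseIdx l) else 0) atTop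
          (𝓝 (∑ l : Fin Ws'.length, ∑ t : Fin Ws'[l].length,
          if Ws'[l][t] = i then
            (((((Q ++ Ws'[l].drop (t + 1) ++ Ws'[l].take t) :: Ws'.eraseIdx l).map mom).prod : ℝ)
              : ℂ) else 0)) := by
        refine tendsto_finsetSum _ fun l _ => tendsto_finsetSum _ fun t _ => ?_
        by_cases ht : Ws'[l][t] = i
        · simp only [ht, if_true]
          refine ih (sz ((Q ++ Ws'[l].drop (t + 1) ++ Ws'[l].take t) :: Ws'.eraseIdx l)) ?_ _ rfl
          rw [← h, hsz, sz_cons]
          have h1 := sz_eraseIdx Ws' l l.2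
          have h2 := t.2
          simp only [List.length_append, List.length_drop, List.length_take, Fin.getElem_fin]
            at h1 h2 ⊢
          omega
        · simp only [ht, if_false]
          exact tendsto_const_nhds
      have hzero : Tendsto (fun d : ℕ => ((d : ℂ) ^ 2)⁻¹) atTop (𝓝 0) := by
        have h1 : Tendsto (fun d : ℕ => ((d : ℂ))⁻¹) atTop (𝓝 0) := by
          exact tendsto_inv_atTop_nhds_zero_nat (𝕜 := ℂ)
        have h2 := h1.pow 2
        simp only [inv_pow] at h2
        simpa using h2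
      have hsum := hfirst.add (hzero.mul hsecond)
      rw [zero_mul, add_zero] at hsum
      have hlim : (∑ t : Fin Q.length, if Q[t] = i then
            (((((Q.take t) :: Q.drop (t + 1) :: Ws').map mom).prod : ℝ) : ℂ) else 0) =
          ((((((i :: Q) :: Ws').map mom).prod : ℝ)) : ℂ) := by
        rw [List.map_cons, List.prod_cons, mom_cons, Finset.sum_mul]
        push_cast
        refine Finset.sum_congr rfl fun t _ => ?_
        by_cases ht : Q[t] = i
        · simp only [ht, if_true, List.map_cons, List.prod_cons]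
          push_cast
          ring
        · simp only [ht, if_false]
          simp
      rw [hlim] at hsum
      refine hsum.congr' ?_
      filter_upwards [eventually_ge_atTop 1] with d hd
      exact (loop_eq I d hd i Q Ws').symm

theorem gmat_herm {I : Type} {d : ℕ} (x : I × (Fin d × Fin d) → ℝ) (l : I) :
    (gmat x l).conjTranspose = gmat x l := by
  ext i j
  simp only [Matrix.conjTranspose_apply, gmat, Crest.OpAlg.hermitianOfCoords]
  rcases lt_trichotomy i j with h | h | h
  · have h1 : ¬ j < i := not_lt.2 h.le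
    simp [h, h.ne, h.ne', h1, sub_eq_add_neg]
  · subst h
    simp
  · have h1 : ¬ i < j := not_lt.2 h.le
    simp [h, h.ne, h.ne', h1, sub_eq_add_neg]

theorem conj_mtr {I : Type} {d : ℕ} (x : I × (Fin d × Fin d) → ℝ) (w : List I) :
    (starRingEnd ℂ) (mtr x w) = mtr x w.reverse := by
  have h1 : ((w.map (gmat x)).prod).conjTranspose = ((w.reverse).map (gmat x)).prod := by
    rw [Matrix.conjTranspose_list_prod]
    congr 1
    rw [List.map_map, ← List.map_reverse]
    refine List.map_congr_left fun l _ => ?_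
    exact gmat_herm x l
  rw [mtr, mtr, map_mul, map_inv₀, Complex.conj_natCast, ← h1, Matrix.trace_conjTranspose]
  rfl

theorem sq_identity {I : Type} {d : ℕ} (x : I × (Fin d × Fin d) → ℝ) (w : List I) (a : ℝ) :
    (((‖mtr x w - (a : ℂ)‖ ^ 2 : ℝ)) : ℂ) =
      ([w, w.reverse].map (mtr x)).prod - a * (([w].map (mtr x)).prod +
        ([w.reverse].map (mtr x)).prod) + a ^ 2 := by
  have h := Complex.mul_conj (mtr x w - (a : ℂ))
  rw [Complex.normSq_eq_norm_sq, map_sub, conj_mtr, Complex.conj_ofReal] at h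
  rw [← h]
  simp
  ring

end GueMomAux

open GueMomAux

theorem Emom_tendsto (I : Type) [Fintype I] [DecidableEq I] (Ws : List (List I)) :
    Tendsto (fun d : ℕ => Emom I d Ws) atTop (𝓝 (((Ws.map mom).prod : ℝ) : ℂ)) :=
  tendsto_aux I (sz Ws) Ws rfl

namespace GueMomAux

theorem integrable_sq (I : Type) [Fintype I] (d : ℕ) (w : List I) (a : ℝ) :
    Integrable (fun x : I × (Fin d × Fin d) → ℝ => ‖mtr x w - (a : ℂ)‖ ^ 2) (gue I d) := by
  have h : Integrable (fun x : I × (Fin d × Fin d) → ℝ =>
      (((‖mtr x w - (a : ℂ)‖ ^ 2 : ℝ)) : ℂ)) (gue I d) := by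
    simp only [sq_identity]
    exact ((integrable_Emom I d [w, w.reverse]).sub
      (((integrable_Emom I d [w]).add (integrable_Emom I d [w.reverse])).const_mul _)).add
        (integrable_const _)
  exact h.re

theorem integral_sq (I : Type) [Fintype I] (d : ℕ) (w : List I) (a : ℝ) :
    ((∫ x, ‖mtr x w - (a : ℂ)‖ ^ 2 ∂(gue I d) : ℝ) : ℂ) =
      Emom I d [w, w.reverse] - a * (Emom I d [w] + Emom I d [w.reverse]) + a ^ 2 := by
  rw [show ((∫ x, ‖mtr x w - (a : ℂ)‖ ^ 2 ∂(gue I d) : ℝ) : ℂ) =
    ∫ x, (((‖mtr x w - (a : ℂ)‖ ^ 2 : ℝ)) : ℂ) ∂(gue I d) from integral_complex_ofReal.symm]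
  simp_rw [sq_identity]
  have i1 := integrable_Emom I d [w, w.reverse]
  have i2 := integrable_Emom I d [w]
  have i3 := integrable_Emom I d [w.reverse]
  have i4 : Integrable (fun x : I × (Fin d × Fin d) → ℝ =>
      (a : ℂ) * (([w].map (mtr x)).prod + ([w.reverse].map (mtr x)).prod)) (gue I d) :=
    (i2.add i3).const_mul _
  have i5 : Integrable (fun x : I × (Fin d × Fin d) → ℝ => ([w, w.reverse].map (mtr x)).prod -
      (a : ℂ) * (([w].map (mtr x)).prod + ([w.reverse].map (mtr x)).prod)) (gue I d) :=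
    i1.sub i4
  rw [integral_add i5 (integrable_const _), integral_sub i1 i4, integral_const_mul,
    integral_add i2 i3]
  simp [Emom]

end GueMomAux

theorem gue_second_moment (I : Type) [Fintype I] [DecidableEq I] (w : List I) :
    Tendsto (fun d : ℕ => ∫ x, ‖mtr x w - (mom w : ℂ)‖ ^ 2 ∂(gue I d)) atTop (𝓝 0) := by
  have h1 := Emom_tendsto I [w, w.reverse]
  have h2 := Emom_tendsto I [w]
  have h3 := Emom_tendsto I [w.reverse]
  have h4 := (h1.sub ((h2.add h3).const_mul ((mom w : ℝ) : ℂ))).add_const (((mom w : ℝ) : ℂ) ^ 2)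
  have h5 : Tendsto (fun d : ℕ => ((∫ x, ‖mtr x w - (mom w : ℂ)‖ ^ 2 ∂(gue I d) : ℝ) : ℂ)) atTop
      (𝓝 0) := by
    have e : ((([w, w.reverse].map mom).prod : ℝ) : ℂ) - ((mom w : ℝ) : ℂ) *
        (((([w].map mom).prod : ℝ) : ℂ) + ((([w.reverse].map mom).prod : ℝ) : ℂ)) +
        (((mom w : ℝ) : ℂ) ^ 2) = 0 := by
      simp
      ring
    rw [e] at h4
    refine h4.congr fun d => ?_
    exact (integral_sq I d w (mom w)).symm
  have h6 := (Complex.continuous_re.tendsto (0 : ℂ)).comp h5
  simpa [Function.comp_def] using h6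

/-- convergence in probability. -/
theorem gue_word_prob (I : Type) [Fintype I] [DecidableEq I] (w : List I) (δ : ℝ) (hδ : 0 < δ) :
    Tendsto (fun d : ℕ => gue I d {x | δ ≤ ‖mtr x w - (mom w : ℂ)‖}) atTop (𝓝 0) := by
  have h := gue_second_moment I w
  have h' : Tendsto (fun d : ℕ => ENNReal.ofReal ((∫ x, ‖mtr x w - (mom w : ℂ)‖ ^ 2 ∂(gue I d)) /
      δ ^ 2)) atTop (𝓝 0) := by
    have h2 := ENNReal.tendsto_ofReal (h.div_const (δ ^ 2))
    simpa using h2
  refine tendsto_of_tendsto_of_tendsto_of_le_of_le tendsto_const_nhds h' (fun _ => bot_le)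
    fun d => ?_
  have hm := mul_meas_ge_le_integral_of_nonneg (μ := gue I d)
    (f := fun x => ‖mtr x w - (mom w : ℂ)‖ ^ 2) (Eventually.of_forall fun x => by positivity)
    (integrable_sq I d w (mom w)) (δ ^ 2)
  have hsub : {x : I × (Fin d × Fin d) → ℝ | δ ≤ ‖mtr x w - (mom w : ℂ)‖} ⊆
      {x | δ ^ 2 ≤ ‖mtr x w - (mom w : ℂ)‖ ^ 2} := by
    intro x hx
    exact pow_le_pow_left₀ hδ.le hx 2
  calc gue I d {x | δ ≤ ‖mtr x w - (mom w : ℂ)‖}
      ≤ gue I d {x | δ ^ 2 ≤ ‖mtr x w - (mom w : ℂ)‖ ^ 2} := measure_mono hsub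
    _ = ENNReal.ofReal ((gue I d).real {x | δ ^ 2 ≤ ‖mtr x w - (mom w : ℂ)‖ ^ 2}) := by
        rw [ofReal_measureReal]
    _ ≤ ENNReal.ofReal ((∫ x, ‖mtr x w - (mom w : ℂ)‖ ^ 2 ∂(gue I d)) / δ ^ 2) := by
        apply ENNReal.ofReal_le_ofReal
        rw [le_div_iff₀ (by positivity), mul_comm]
        exact hm

end Crest.Agent.FE
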