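import Crest.Agent.FE.GueDefs
import Crest.Agent.FE.GueIBP

/-!
# Row 89, chunk G2: the loop equations of the GUE

PROOF.  Work over `R = MvPolynomial (I × (Fin d × Fin d)) ℂ`: let `Gp l : Matrix (Fin d) (Fin d) R` be the
matrix of linear forms with `eval x (Gp l r s) = gmat x l r s`:
`Gp l r r = X (l,(r,r))`, for `r < s`: `(X (l,(r,s)) + i X (l,(s,r)))/√2`, for `s < r`:
`(X (l,(s,r)) − i X (l,(r,s)))/√2`.  For `p q : Fin d` let `D_{l;pq}` be the derivation
`∂_{(l,(p,p))}` if `p = q`; `(∂_{(l,(p,q))} + i ∂_{(l,(q,p))})/√2` if `p < q`;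
`(∂_{(l,(q,p))} − i ∂_{(l,(p,q))})/√2` if `q < p` (the same coefficients as `Gp l p q`).  Then
* `E[G_l(p,q) F] = d⁻¹ E[D_{l;pq} F]` (`gauss_ibp`, `v = 1/d`, linearity);
* `D_{l;pq} (Gp l' r s) = δ_{ll'} δ_{ps} δ_{qr}` (check the cases);
* Leibniz: `D_{i;pq}((Gp_Q)(r,s)) = Σ_t [Q_t = i] (Gp_{Q.take t})(r,q) (Gp_{Q.drop (t+1)})(p,s)`
  (induction on `Q`).
Hence `E[tr(G_i G_Q) F] = d⁻¹ Σ_{pq} E[G_i(p,q) (G_Q)(q,p) F] = d⁻² Σ_{pq} E[D_{i;pq}((G_Q)(q,p) F)]`, the first
Leibniz part gives `Σ_t [Q_t = i] E[tr(G_take) tr(G_drop) F]`, and for a factor `tr(G_W)` of `F`: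
`D_{i;pq} tr(G_W) = d⁻¹ Σ_t [W_t = i] (G_{W.drop (t+1)} G_{W.take t})(p,q)`, so
`d⁻² Σ_{pq} (G_Q)(q,p) · d⁻¹ (G_{drop} G_{take})(p,q) = d⁻² tr(G_Q G_{drop} G_{take})`.
-/

set_option autoImplicit false
set_option linter.unusedSimpArgs false

namespace Crest.Agent.FE

open MeasureTheory ProbabilityTheory

namespace GR

/-- the polynomial ring of the coordinates. -/
abbrev Rg (I : Type) (d : ℕ) : Type := MvPolynomial (I × (Fin d × Fin d)) ℂ

/-- `1/√2`. -/
noncomputable def s2 : ℂ := ((Real.sqrt 2 : ℝ) : ℂ)⁻¹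

theorem s2_sq : s2 * s2 = 2⁻¹ := by
  unfold s2
  rw [← mul_inv, ← Complex.ofReal_mul, Real.mul_self_sqrt (by norm_num)]
  norm_num

/-- the matrix of linear forms. -/
noncomputable def Gp {I : Type} {d : ℕ} (l : I) : Matrix (Fin d) (Fin d) (Rg I d) :=
  fun r s => if r = s then MvPolynomial.X (l, (r, r))
    else if r < s then s2 • (MvPolynomial.X (l, (r, s)) + Complex.I • MvPolynomial.X (l, (s, r)))
    else s2 • (MvPolynomial.X (l, (s, r)) - Complex.I • MvPolynomial.X (l, (r, s)))

/-- evaluation at a real point. -/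
noncomputable def ev {I : Type} {d : ℕ} (x : I × (Fin d × Fin d) → ℝ) : Rg I d →ₐ[ℂ] ℂ :=
  MvPolynomial.aeval fun j => (x j : ℂ)

theorem ev_eq {I : Type} {d : ℕ} (x : I × (Fin d × Fin d) → ℝ) (p : Rg I d) :
    ev x p = MvPolynomial.eval (fun j => (x j : ℂ)) p := by
  unfold ev
  rw [MvPolynomial.aeval_eq_eval]

theorem ev_X {I : Type} {d : ℕ} (x : I × (Fin d × Fin d) → ℝ) (j : I × (Fin d × Fin d)) :
    ev x (MvPolynomial.X j) = (x j : ℂ) := by
  simp [ev]

theorem ev_Gp {I : Type} {d : ℕ} (x : I × (Fin d × Fin d) → ℝ) (l : I) (r s : Fin d) :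
    ev x (Gp l r s) = gmat x l r s := by
  unfold Gp gmat Crest.OpAlg.hermitianOfCoords
  simp only
  split_ifs with h1 h2
  · rw [ev_X]
  · rw [map_smul, map_add, map_smul, ev_X, ev_X]
    simp only [smul_eq_mul, s2]
    rw [div_eq_inv_mul]
    ring
  · rw [map_smul, map_sub, map_smul, ev_X, ev_X]
    simp only [smul_eq_mul, s2]
    rw [div_eq_inv_mul]
    ring

/-- product of a word. -/
noncomputable def GW {I : Type} {d : ℕ} (Q : List I) : Matrix (Fin d) (Fin d) (Rg I d) :=
  (Q.map Gp).prod

@[simp] theorem GW_nil {I : Type} {d : ℕ} : GW (I := I) (d := d) [] = 1 := rfl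

@[simp] theorem GW_cons {I : Type} {d : ℕ} (i : I) (Q : List I) :
    GW (d := d) (i :: Q) = Gp i * GW Q := by
  simp [GW]

theorem GW_append {I : Type} {d : ℕ} (P Q : List I) :
    GW (d := d) (P ++ Q) = GW P * GW Q := by
  simp [GW]

theorem ev_GW {I : Type} {d : ℕ} (x : I × (Fin d × Fin d) → ℝ) (Q : List I) :
    (GW Q).map (ev x) = (Q.map (gmat x)).prod := by
  induction Q with
  | nil => simp [Matrix.map_one]
  | cons a Q ih =>
    rw [GW_cons, List.map_cons, List.prod_cons, ← ih, Matrix.map_mul]
    congr 1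
    ext r s
    exact ev_Gp x a r s

/-- polynomial normalised trace. -/
noncomputable def Pm {I : Type} {d : ℕ} (W : List I) : Rg I d :=
  ((d : ℂ)⁻¹) • Matrix.trace (GW W)

theorem ev_Pm {I : Type} {d : ℕ} (x : I × (Fin d × Fin d) → ℝ) (W : List I) :
    ev x (Pm W) = mtr x W := by
  unfold Pm mtr
  rw [map_smul, smul_eq_mul, ← ev_GW]
  congr 1
  simp only [Matrix.trace, Matrix.diag, map_sum, Matrix.map_apply]

theorem ev_prod {I : Type} {d : ℕ} (x : I × (Fin d × Fin d) → ℝ) (Ws : List (List I)) :
    ev x ((Ws.map Pm).prod) = (Ws.map (mtr x)).prod := by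
  rw [map_list_prod, List.map_map]
  congr 1
  refine List.map_congr_left fun W _ => ?_
  exact ev_Pm x W

/-- the expectation. -/
noncomputable def EE (I : Type) [Fintype I] (d : ℕ) : Rg I d →ₗ[ℂ] ℂ where
  toFun p := ∫ x, ev x p ∂(gue I d)
  map_add' p q := by
    simp only [map_add]
    refine integral_add ?_ ?_
    · simp only [ev_eq]
      exact integrable_mvPoly ((d : NNReal)⁻¹) p
    · simp only [ev_eq]
      exact integrable_mvPoly ((d : NNReal)⁻¹) q
  map_smul' c p := by
    simp only [map_smul, smul_eq_mul, RingHom.id_apply]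
    exact integral_const_mul _ _

theorem EE_apply (I : Type) [Fintype I] (d : ℕ) (p : Rg I d) :
    EE I d p = ∫ x, ev x p ∂(gue I d) := rfl

theorem Emom_eq (I : Type) [Fintype I] (d : ℕ) (Ws : List (List I)) :
    Emom I d Ws = EE I d ((Ws.map Pm).prod) := by
  unfold Emom
  rw [EE_apply]
  simp only [ev_prod]

theorem EE_X (I : Type) [Fintype I] [DecidableEq I] (d : ℕ) (a : I × (Fin d × Fin d))
    (F : Rg I d) :
    EE I d (MvPolynomial.X a * F) = (d : ℂ)⁻¹ * EE I d (MvPolynomial.pderiv a F) := by
  rw [EE_apply, EE_apply]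
  have h := gauss_ibp ((d : NNReal)⁻¹) F a
  simp only [map_mul, ev_X]
  simp only [ev_eq]
  unfold gue
  rw [h]
  simp

/-- the derivation. -/
noncomputable def Dv {I : Type} {d : ℕ} (l : I) (p q : Fin d) :
    Derivation ℂ (Rg I d) (Rg I d) :=
  if p = q then MvPolynomial.pderiv (l, (p, p))
    else if p < q then s2 • (MvPolynomial.pderiv (l, (p, q)) +
      Complex.I • MvPolynomial.pderiv (l, (q, p)))
    else s2 • (MvPolynomial.pderiv (l, (q, p)) - Complex.I • MvPolynomial.pderiv (l, (p, q)))

theorem EE_Gp (I : Type) [Fintype I] [DecidableEq I] (d : ℕ) (l : I) (p q : Fin d)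
    (F : Rg I d) :
    EE I d (Gp l p q * F) = (d : ℂ)⁻¹ * EE I d (Dv l p q F) := by
  unfold Gp Dv
  split_ifs with h1 h2
  · exact EE_X I d _ F
  · rw [smul_mul_assoc, add_mul, smul_mul_assoc, map_smul, map_add, map_smul, EE_X, EE_X]
    simp only [Derivation.smul_apply, Derivation.add_apply, map_smul, map_add, smul_eq_mul]
    ring
  · rw [smul_mul_assoc, sub_mul, smul_mul_assoc, map_smul, map_sub, map_smul, EE_X, EE_X]
    simp only [Derivation.smul_apply, Derivation.sub_apply, map_smul, map_sub, smul_eq_mul]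
    ring

theorem Dv_Gp {I : Type} [DecidableEq I] {d : ℕ} (l l' : I) (p q r s : Fin d) :
    Dv l p q (Gp l' r s) = if l = l' ∧ p = s ∧ q = r then 1 else 0 := by
  have hp : ∀ a b : I × (Fin d × Fin d),
      MvPolynomial.pderiv (R := ℂ) a (MvPolynomial.X b) = if a = b then 1 else 0 := by
    intro a b
    rw [MvPolynomial.pderiv_X, Pi.single_apply]
    simp only [eq_comm]
  have hσ : (MvPolynomial.C s2 : Rg I d) * MvPolynomial.C s2 * 2 = 1 := by
    rw [← map_mul, s2_sq]
    have : (2 : Rg I d) = MvPolynomial.C 2 := (map_ofNat _ 2).symm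
    rw [this, ← map_mul]
    norm_num
  have hι : (MvPolynomial.C Complex.I : Rg I d) * MvPolynomial.C Complex.I = -1 := by
    rw [← map_mul, Complex.I_mul_I]
    simp
  have hp2 : ∀ a b c : I × (Fin d × Fin d),
      MvPolynomial.pderiv (R := ℂ) a (s2 • (MvPolynomial.X b + Complex.I • MvPolynomial.X c)) =
        MvPolynomial.C s2 * ((if a = b then 1 else 0) + MvPolynomial.C Complex.I *
          (if a = c then 1 else 0)) := by
    intro a b c
    rw [Derivation.map_smul, Derivation.map_add, Derivation.map_smul, hp, hp,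
      MvPolynomial.smul_eq_C_mul, MvPolynomial.smul_eq_C_mul]
  have hp3 : ∀ a b c : I × (Fin d × Fin d),
      MvPolynomial.pderiv (R := ℂ) a (s2 • (MvPolynomial.X b - Complex.I • MvPolynomial.X c)) =
        MvPolynomial.C s2 * ((if a = b then 1 else 0) - MvPolynomial.C Complex.I *
          (if a = c then 1 else 0)) := by
    intro a b c
    rw [Derivation.map_smul, Derivation.map_sub, Derivation.map_smul, hp, hp,
      MvPolynomial.smul_eq_C_mul, MvPolynomial.smul_eq_C_mul]
  unfold Gp Dv
  by_cases hl : l = l'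
  · subst hl
    by_cases hA : p = r ∧ q = s
    · obtain ⟨rfl, rfl⟩ := hA
      rcases lt_trichotomy p q with hpq | hpq | hpq
      · have h1 : p ≠ q := hpq.ne
        have h1' : q ≠ p := hpq.ne'
        simp only [h1, h1', hpq, if_true, if_false, Derivation.smul_apply, Derivation.add_apply,
          hp2, Prod.mk.injEq, true_and, and_false, and_self, false_and]
        simp only [MvPolynomial.smul_eq_C_mul]
        linear_combination (MvPolynomial.C s2 * MvPolynomial.C s2) * hι
      · subst hpq
        simp [hp]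
      · have h1 : p ≠ q := hpq.ne'
        have h1' : q ≠ p := hpq.ne
        simp only [h1, h1', not_lt.2 hpq.le, if_true, if_false, Derivation.smul_apply,
          Derivation.sub_apply,
          hp3, Prod.mk.injEq, true_and, and_false, and_self, false_and]
        simp only [MvPolynomial.smul_eq_C_mul]
        linear_combination (MvPolynomial.C s2 * MvPolynomial.C s2) * hι
    · by_cases hB : p = s ∧ q = r
      · obtain ⟨rfl, rfl⟩ := hB
        rcases lt_trichotomy p q with hpq | hpq | hpq
        · have h1 : p ≠ q := hpq.ne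
          have h1' : q ≠ p := hpq.ne'
          simp only [h1, h1', hpq, not_lt.2 hpq.le, if_true, if_false, Derivation.smul_apply,
            Derivation.add_apply,
            hp3, Prod.mk.injEq, true_and, and_false, and_self, false_and]
          simp only [MvPolynomial.smul_eq_C_mul]
          linear_combination hσ - (MvPolynomial.C s2 * MvPolynomial.C s2) * hι
        · subst hpq
          simp at hA
        · have h1 : p ≠ q := hpq.ne'
          have h1' : q ≠ p := hpq.ne
          simp only [h1, h1', hpq, not_lt.2 hpq.le, if_true, if_false, Derivation.smul_apply,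
            Derivation.sub_apply,
            hp2, Prod.mk.injEq, true_and, and_false, and_self, false_and]
          simp only [MvPolynomial.smul_eq_C_mul]
          linear_combination hσ - (MvPolynomial.C s2 * MvPolynomial.C s2) * hι
      · have hA' : ¬ (q = s ∧ p = r) := fun h => hA ⟨h.2, h.1⟩
        have hB' : ¬ (q = r ∧ p = s) := fun h => hB ⟨h.2, h.1⟩
        have hR : (if l = l ∧ p = s ∧ q = r then (1 : Rg I d) else 0) = 0 :=
          if_neg (fun h => hB h.2)
        rw [hR]
        split_ifs with h1 h2 h3 h4 h5 h6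
        all_goals simp only [Derivation.smul_apply, Derivation.sub_apply, Derivation.add_apply,
          hp, hp2, hp3, Prod.mk.injEq, true_and, hA, hB, hA', hB', if_false, mul_zero, add_zero,
          sub_zero, smul_zero]
        · subst h1 h2
          rw [if_neg hA]
        · subst h1
          simp [hA, hB]
        · subst h1
          simp [hA, hB]
        · subst h5
          rw [if_neg hA, if_neg hA']
          simp
        · rename_i h7
          subst h7
          rw [if_neg hA, if_neg hA']
          simp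
  · have hR : (if l = l' ∧ p = s ∧ q = r then (1 : Rg I d) else 0) = 0 :=
      if_neg (fun h => hl h.1)
    rw [hR]
    split_ifs <;> simp [hl, hp2, hp3, hp]

theorem Dv_one {I : Type} {d : ℕ} (l : I) (p q r s : Fin d) :
    Dv l p q ((1 : Matrix (Fin d) (Fin d) (Rg I d)) r s) = 0 := by
  rw [Matrix.one_apply]
  split_ifs
  · exact (Dv l p q).map_one_eq_zero
  · exact map_zero _

theorem Dv_GW {I : Type} [DecidableEq I] {d : ℕ} (l : I) (p q : Fin d) (Q : List I) :
    ∀ r s : Fin d, Dv l p q (GW Q r s) =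
      ∑ t : Fin Q.length, if Q[t] = l then GW (Q.take t) r q * GW (Q.drop (t + 1)) p s else 0 := by
  induction Q with
  | nil =>
    intro r s
    rw [GW_nil, Dv_one]
    simp
  | cons a Q ih =>
    intro r s
    rw [GW_cons, Matrix.mul_apply, map_sum]
    simp only [Derivation.leibniz, ih, Dv_Gp, smul_eq_mul, Finset.sum_add_distrib]
    have h0 := Fin.sum_univ_succ (n := Q.length) (fun t : Fin (Q.length + 1) =>
      if (a :: Q)[(t : ℕ)]'(by simpa using t.2) = l then
        GW ((a :: Q).take t) r q * GW ((a :: Q).drop (t + 1)) p s else (0 : Rg I d))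
    refine Eq.trans ?_ h0.symm
    rw [add_comm]
    congr 1
    · simp only [Fin.val_zero, List.getElem_cons_zero, List.take_zero, GW_nil, zero_add,
        List.drop_succ_cons, List.drop_zero, Matrix.one_apply]
      by_cases hla : l = a
      · subst hla
        by_cases hqr : q = r
        · subst hqr
          simp
        · have hqr' : ¬ r = q := fun h => hqr h.symm
          simp [hqr, hqr']
      · have hla' : ¬ a = l := fun h => hla h.symm
        simp [hla, hla']
    · simp only [Fin.val_succ, List.getElem_cons_succ, List.take_succ_cons, List.drop_succ_cons,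
        GW_cons, Matrix.mul_apply, Finset.mul_sum]
      rw [Finset.sum_comm]
      refine Finset.sum_congr rfl fun t _ => ?_
      simp only [Fin.getElem_fin]
      split_ifs with h
      · rw [Finset.sum_mul]
        refine Finset.sum_congr rfl fun u _ => ?_
        ring
      · simp

theorem Dv_Pm {I : Type} [DecidableEq I] {d : ℕ} (l : I) (p q : Fin d) (W : List I) :
    Dv l p q (Pm W) = (d : ℂ)⁻¹ •
      ∑ t : Fin W.length, if W[t] = l then GW (W.drop (t + 1) ++ W.take t) p q else 0 := by
  unfold Pm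
  rw [Derivation.map_smul, Matrix.trace, map_sum]
  congr 1
  simp only [Matrix.diag_apply, Dv_GW]
  rw [Finset.sum_comm]
  refine Finset.sum_congr rfl fun t _ => ?_
  split_ifs with h
  · rw [GW_append, Matrix.mul_apply]
    refine Finset.sum_congr rfl fun u _ => ?_
    ring
  · simp

theorem Dv_prod {I : Type} [DecidableEq I] {d : ℕ} (l : I) (p q : Fin d) (Ws : List (List I)) :
    Dv l p q ((Ws.map Pm).prod) = ∑ m : Fin Ws.length,
      Dv l p q (Pm Ws[m]) * ((Ws.eraseIdx m).map Pm).prod := by
  induction Ws with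
  | nil => simp
  | cons W Ws ih =>
    rw [List.map_cons, List.prod_cons, Derivation.leibniz, ih]
    have h0 := Fin.sum_univ_succ (n := Ws.length) (fun t : Fin (Ws.length + 1) =>
      Dv l p q (Pm ((W :: Ws)[(t : ℕ)]'(by simpa using t.2))) *
        (((W :: Ws).eraseIdx t).map Pm).prod)
    refine Eq.trans ?_ h0.symm
    rw [add_comm]
    congr 1
    · simp [mul_comm]
    · simp only [Fin.val_succ, List.getElem_cons_succ, List.eraseIdx_cons_succ, List.map_cons,
        List.prod_cons, smul_eq_mul, Finset.mul_sum]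
      refine Finset.sum_congr rfl fun u _ => ?_
      simp only [Fin.getElem_fin]
      ring

theorem key {I : Type} [DecidableEq I] {d : ℕ} (i : I) (Q : List I) (Ws : List (List I)) :
    ((d : ℂ)⁻¹ * (d : ℂ)⁻¹) • ∑ p : Fin d, ∑ q : Fin d,
      Dv i p q (GW Q q p * (Ws.map Pm).prod) =
    (∑ t : Fin Q.length, if Q[t] = i then
      ((Q.take t :: Q.drop (t + 1) :: Ws).map Pm).prod else (0 : Rg I d)) +
      ((d : ℂ) ^ 2)⁻¹ • ∑ l : Fin Ws.length, ∑ t : Fin Ws[l].length,
        if Ws[l][t] = i then
          (((Q ++ Ws[l].drop (t + 1) ++ Ws[l].take t) :: Ws.eraseIdx l).map Pm).prod else 0 := by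
  simp only [Derivation.leibniz, Finset.sum_add_distrib, smul_add, smul_eq_mul]
  rw [add_comm]
  congr 1
  · simp only [Dv_GW, Finset.mul_sum]
    refine (congrArg _ ((Finset.sum_congr rfl fun p _ => Finset.sum_comm).trans
      Finset.sum_comm)).trans ?_
    rw [Finset.smul_sum]
    refine Finset.sum_congr rfl fun t _ => ?_
    split_ifs with h
    · rw [List.map_cons, List.map_cons, List.prod_cons, List.prod_cons]
      unfold Pm
      rw [smul_mul_assoc, smul_mul_assoc, mul_smul_comm, smul_smul]
      congr 1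
      generalize (List.map (fun W => ((d : ℂ)⁻¹) • Matrix.trace (GW W)) Ws).prod = P
      rw [Matrix.trace, Matrix.trace, Finset.sum_mul (f := (GW (Q.drop (t + 1))).diag),
        Finset.sum_mul_sum, Finset.sum_comm]
      refine Finset.sum_congr rfl fun x _ => Finset.sum_congr rfl fun y _ => ?_
      simp only [Matrix.diag_apply]
      ring
    · simp
  · simp only [Dv_prod, Dv_Pm, Finset.mul_sum]
    refine (congrArg _ ((Finset.sum_congr rfl fun p _ => Finset.sum_comm).trans
      Finset.sum_comm)).trans ?_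
    rw [Finset.smul_sum, Finset.smul_sum]
    refine Finset.sum_congr rfl fun m _ => ?_
    have hc : ((d : ℂ) ^ 2)⁻¹ = (d : ℂ)⁻¹ * (d : ℂ)⁻¹ := by
      rw [pow_two, mul_inv]
    rw [hc]
    congr 1
    simp only [smul_mul_assoc, mul_smul_comm, ← Finset.smul_sum, Finset.sum_mul, Finset.mul_sum]
    refine (congrArg _ ((Finset.sum_congr rfl fun p _ => Finset.sum_comm).trans
      Finset.sum_comm)).trans ?_
    rw [Finset.smul_sum]
    refine Finset.sum_congr rfl fun t _ => ?_
    split_ifs with h
    · rw [List.map_cons, List.prod_cons]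
      unfold Pm
      rw [smul_mul_assoc]
      congr 1
      generalize (List.map (fun W => ((d : ℂ)⁻¹) • Matrix.trace (GW W)) (Ws.eraseIdx m)).prod = P
      rw [List.append_assoc, GW_append Q, Matrix.trace_mul_comm, Matrix.trace,
        Finset.sum_mul]
      refine Finset.sum_congr rfl fun x _ => ?_
      rw [Matrix.diag_apply, Matrix.mul_apply, Finset.sum_mul]
      refine Finset.sum_congr rfl fun y _ => ?_
      ring
    · simp

end GR

theorem integrable_Emom (I : Type) [Fintype I] (d : ℕ) (Ws : List (List I)) :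
    Integrable (fun x => (Ws.map (mtr x)).prod) (gue I d) := by
  have h := integrable_mvPoly ((d : NNReal)⁻¹) ((Ws.map (GR.Pm (I := I) (d := d))).prod)
  refine (integrable_congr ?_).1 h
  refine Filter.Eventually.of_forall fun x => ?_
  simp only
  rw [← GR.ev_eq, GR.ev_prod]

theorem loop_eq (I : Type) [Fintype I] [DecidableEq I] (d : ℕ) (hd : 1 ≤ d) (i : I) (Q : List I)
    (Ws : List (List I)) :
    Emom I d ((i :: Q) :: Ws) =
      (∑ t : Fin Q.length, if Q[t] = i then Emom I d (Q.take t :: Q.drop (t + 1) :: Ws) else 0) +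
      ((d : ℂ) ^ 2)⁻¹ * ∑ l : Fin Ws.length, ∑ t : Fin Ws[l].length,
        if Ws[l][t] = i then
          Emom I d ((Q ++ Ws[l].drop (t + 1) ++ Ws[l].take t) :: Ws.eraseIdx l) else 0 := by
  have h1 : Emom I d ((i :: Q) :: Ws) = GR.EE I d (((d : ℂ)⁻¹ * (d : ℂ)⁻¹) •
      ∑ p : Fin d, ∑ q : Fin d, GR.Dv i p q (GR.GW Q q p * (Ws.map GR.Pm).prod)) := by
    rw [GR.Emom_eq, List.map_cons, List.prod_cons, GR.Pm, smul_mul_assoc, GR.GW_cons,
      Matrix.trace, Finset.sum_mul, map_smul, map_smul, map_sum, map_sum, smul_eq_mul, smul_eq_mul,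
      mul_assoc]
    refine congrArg _ ?_
    rw [Finset.mul_sum]
    refine Finset.sum_congr rfl fun p _ => ?_
    rw [Matrix.diag_apply, Matrix.mul_apply, Finset.sum_mul, map_sum, map_sum, Finset.mul_sum]
    refine Finset.sum_congr rfl fun q _ => ?_
    rw [mul_assoc, GR.EE_Gp]
  rw [h1, GR.key, map_add, map_sum, map_smul, map_sum, smul_eq_mul]
  congr 1
  · refine Finset.sum_congr rfl fun t _ => ?_
    split_ifs with h
    · rw [GR.Emom_eq]
    · exact map_zero _
  · congr 1
    refine Finset.sum_congr rfl fun m _ => ?_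
    refine (map_sum (GR.EE I d) _ _).trans ?_
    refine Finset.sum_congr rfl fun t _ => ?_
    split_ifs with h
    · rw [GR.Emom_eq]
    · exact map_zero (GR.EE I d)

end Crest.Agent.FE
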