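import Crest.Agent.FE.Defs

/-!
# Row 89, chunk C1: the recursion for the ℓ² norms of the coefficients

`c m l := cNorm words m l = (Σ_{|Q| = l, |u| = m} CQ(Q,u)²)^{1/2}`, with `words = wordsIX ∘ e`.

PROOF.  Fix `m, l`.  For `Q' = j :: Q`, `|Q| = l` the recursion of `CQ` writes the function
`(j, Q, u) ↦ CQ (j :: Q) u` as a sum of the functions
(1) for `b < l`: `T_b = [Q_b = j] mom (Q.take b) CQ (Q.drop (b+1)) u`.  Its ℓ² norm squared is
`Σ_{Q₁, j, Q₂, u} mom(Q₁)² CQ(Q₂,u)² = k · c(0,b)² · c(m, l-1-b)²` (`CQ Q [] = mom Q`); `√k = κ²`.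
(2) for `b < m`, `u = u' i u''`, `|u'| = b`, `|u''| = m-1-b`:
 - `e i = inl j'`: `[j' = j] CQ Q u' · CQ [] u''`: norm² `= k c(b,l)² c(m-1-b,0)²`;
 - `e i = inr (p,q,s)`, word `[p,q,s]` (same for `[s,q,p]`):
   position 0: `[p = j] CQ Q u' · CQ [q,s] u''`: norm² `= k c(b,l)² c(m-1-b,2)²`;
   position 1: `[q = j] CQ (p :: Q) u' · CQ [s] u''`: norm² `= k c(b,l+1)² c(m-1-b,1)²`;
   position 2: `[s = j] CQ (p :: q :: Q) u' · CQ [] u''`: norm² `= k c(b,l+2)² c(m-1-b,0)²`.
Minkowski's inequality in ℓ² (e.g. `EuclideanSpace` norms on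
`(Fin (l+1) → Fin k) × (Fin m → α)`) gives the claim.
-/

set_option autoImplicit false

namespace Crest.Agent.FE

namespace NR

/-- sum over lists of length `l`. -/
noncomputable def LS {β : Type*} [Fintype β] : ℕ → (List β → ℝ) → ℝ
  | 0, F => F []
  | l + 1, F => ∑ j : β, LS l (fun Q => F (j :: Q))

theorem sum_ofFn_eq_LS {β : Type*} [Fintype β] (l : ℕ) (F : List β → ℝ) :
    ∑ Q : Fin l → β, F (List.ofFn Q) = LS l F := by
  induction l generalizing F with
  | zero => simp [LS]
  | succ l ih =>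
    rw [← (Fin.consEquiv (fun _ : Fin (l + 1) => β)).sum_comp, Fintype.sum_prod_type]
    simp only [LS]
    apply Finset.sum_congr rfl
    intro j _
    rw [← ih]
    apply Finset.sum_congr rfl
    intro Q _
    congr 1
    simp [Fin.consEquiv, List.ofFn_succ]

theorem LS_congr {β : Type*} [Fintype β] {l : ℕ} {F G : List β → ℝ}
    (h : ∀ Q : List β, Q.length = l → F Q = G Q) : LS l F = LS l G := by
  induction l generalizing F G with
  | zero => exact h [] rfl
  | succ l ih =>
    simp only [LS]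
    apply Finset.sum_congr rfl
    intro j _
    apply ih
    intro Q hQ
    exact h _ (by simp [hQ])

theorem LS_add_len {β : Type*} [Fintype β] (a c : ℕ) (F : List β → ℝ) :
    LS (a + c) F = LS a (fun Q₁ => LS c (fun Q₂ => F (Q₁ ++ Q₂))) := by
  induction a generalizing F with
  | zero => simp [LS]
  | succ a ih =>
    rw [show a + 1 + c = (a + c) + 1 by ring]
    simp only [LS]
    apply Finset.sum_congr rfl
    intro j _
    rw [ih]
    rfl

theorem LS_mul_left {β : Type*} [Fintype β] (l : ℕ) (a : ℝ) (F : List β → ℝ) :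
    LS l (fun Q => a * F Q) = a * LS l F := by
  induction l generalizing F with
  | zero => rfl
  | succ l ih =>
    simp only [LS, ih, Finset.mul_sum]

theorem LS_mul_right {β : Type*} [Fintype β] (l : ℕ) (a : ℝ) (F : List β → ℝ) :
    LS l (fun Q => F Q * a) = LS l F * a := by
  induction l generalizing F with
  | zero => rfl
  | succ l ih =>
    simp only [LS, ih, Finset.sum_mul]

theorem LS_add {β : Type*} [Fintype β] (l : ℕ) (F G : List β → ℝ) :
    LS l (fun Q => F Q + G Q) = LS l F + LS l G := by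
  induction l generalizing F G with
  | zero => rfl
  | succ l ih =>
    simp only [LS, ih, Finset.sum_add_distrib]

theorem LS_sum {β ι : Type*} [Fintype β] (l : ℕ) (s : Finset ι) (F : ι → List β → ℝ) :
    LS l (fun Q => ∑ i ∈ s, F i Q) = ∑ i ∈ s, LS l (F i) := by
  induction l generalizing F with
  | zero => rfl
  | succ l ih =>
    simp only [LS]
    rw [Finset.sum_comm]
    apply Finset.sum_congr rfl
    intro j _
    rw [ih]

theorem LS_nonneg {β : Type*} [Fintype β] {l : ℕ} {F : List β → ℝ} (h : ∀ Q, 0 ≤ F Q) :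
    0 ≤ LS l F := by
  induction l generalizing F with
  | zero => exact h _
  | succ l ih => exact Finset.sum_nonneg fun j _ => ih fun Q => h _

theorem LS_comm {β α : Type*} [Fintype β] [Fintype α] (l m : ℕ) (F : List β → List α → ℝ) :
    LS l (fun Q => LS m (fun u => F Q u)) = LS m (fun u => LS l (fun Q => F Q u)) := by
  induction l generalizing F with
  | zero => rfl
  | succ l ih =>
    simp only [LS]
    rw [LS_sum]
    apply Finset.sum_congr rfl
    intro j _
    rw [ih]

/-- ℓ² norm over lists of given lengths. -/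
noncomputable def nrm {β α : Type*} [Fintype β] [Fintype α] (l m : ℕ) (f : List β → List α → ℝ) : ℝ :=
  Real.sqrt (LS l (fun Q => LS m (fun u => f Q u ^ 2)))

theorem nrm_sq {β α : Type*} [Fintype β] [Fintype α] (l m : ℕ) (f : List β → List α → ℝ) :
    nrm l m f ^ 2 = LS l (fun Q => LS m (fun u => f Q u ^ 2)) :=
  Real.sq_sqrt (LS_nonneg fun _ => LS_nonneg fun _ => sq_nonneg _)

theorem nrm_nonneg {β α : Type*} [Fintype β] [Fintype α] (l m : ℕ) (f : List β → List α → ℝ) :
    0 ≤ nrm l m f := Real.sqrt_nonneg _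

theorem nrm_congr {β α : Type*} [Fintype β] [Fintype α] {l m : ℕ} {f g : List β → List α → ℝ}
    (h : ∀ Q u, Q.length = l → u.length = m → f Q u = g Q u) : nrm l m f = nrm l m g := by
  unfold nrm
  congr 1
  apply LS_congr
  intro Q hQ
  apply LS_congr
  intro u hu
  rw [h Q u hQ hu]

theorem nrm_eq_norm {β α : Type*} [Fintype β] [Fintype α] (l m : ℕ) (f : List β → List α → ℝ) :
    nrm l m f = ‖(WithLp.toLp 2 (fun p : (Fin l → β) × (Fin m → α) =>
      f (List.ofFn p.1) (List.ofFn p.2)) : EuclideanSpace ℝ ((Fin l → β) × (Fin m → α)))‖ := by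
  rw [EuclideanSpace.norm_eq]
  unfold nrm
  congr 1
  rw [← sum_ofFn_eq_LS, Fintype.sum_prod_type]
  apply Finset.sum_congr rfl
  intro Q _
  rw [← sum_ofFn_eq_LS]
  apply Finset.sum_congr rfl
  intro u _
  simp

theorem nrm_add_le {β α : Type*} [Fintype β] [Fintype α] (l m : ℕ) (f g : List β → List α → ℝ) :
    nrm l m (fun Q u => f Q u + g Q u) ≤ nrm l m f + nrm l m g := by
  rw [nrm_eq_norm, nrm_eq_norm, nrm_eq_norm]
  exact norm_add_le (WithLp.toLp 2 (fun p : (Fin l → β) × (Fin m → α) =>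
      f (List.ofFn p.1) (List.ofFn p.2)) : EuclideanSpace ℝ ((Fin l → β) × (Fin m → α)))
    (WithLp.toLp 2 (fun p : (Fin l → β) × (Fin m → α) =>
      g (List.ofFn p.1) (List.ofFn p.2)))

theorem nrm_zero {β α : Type*} [Fintype β] [Fintype α] (l m : ℕ) :
    nrm l m (fun (_ : List β) (_ : List α) => (0 : ℝ)) = 0 := by
  rw [nrm_eq_norm]
  exact (norm_zero : ‖(0 : EuclideanSpace ℝ ((Fin l → β) × (Fin m → α)))‖ = 0)

theorem nrm_sum_le {β α ι : Type*} [Fintype β] [Fintype α] (l m : ℕ) (s : Finset ι)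
    (f : ι → List β → List α → ℝ) :
    nrm l m (fun Q u => ∑ i ∈ s, f i Q u) ≤ ∑ i ∈ s, nrm l m (f i) := by
  classical
  induction s using Finset.induction_on with
  | empty => simp [nrm_zero]
  | insert a s ha ih =>
    simp only [Finset.sum_insert ha]
    exact (nrm_add_le _ _ _ _).trans (add_le_add_right ih _)

theorem cNorm_eq_nrm {α β : Type*} [Fintype α] [Fintype β] [DecidableEq β]
    (words : α → List (List β)) (m l : ℕ) : cNorm words m l = nrm l m (CQ words) := by
  unfold cNorm nrm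
  congr 1
  rw [← sum_ofFn_eq_LS]
  apply Finset.sum_congr rfl
  intro Q _
  rw [← sum_ofFn_eq_LS]

/-! unfolding of CQ -/

theorem CQ_nil {α β : Type*} [DecidableEq β] (words : α → List (List β)) (u : List α) :
    CQ words [] u = if u.length = 0 then 1 else 0 := by
  rw [CQ]

theorem CQ_cons {α β : Type*} [DecidableEq β] (words : α → List (List β)) (j : β) (Q : List β)
    (u : List α) : CQ words (j :: Q) u =
      (∑ t : Fin Q.length,
        if Q[t] = j then mom (Q.take t) * CQ words (Q.drop (t + 1)) u else 0) +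
      ∑ t : Fin u.length, ((words u[t]).map fun w => ∑ b : Fin w.length,
        if w[b] = j then
          CQ words (w.take b ++ Q) (u.take t) * CQ words (w.drop (b + 1)) (u.drop (t + 1))
        else 0).sum := by
  rw [CQ]

theorem CQ_nil_right {α β : Type*} [DecidableEq β] (words : α → List (List β)) (Q : List β) :
    CQ words Q [] = mom Q := by
  induction hn : Q.length using Nat.strong_induction_on generalizing Q with
  | _ n ih =>
    rcases Q with _ | ⟨j, Q⟩
    · simp [CQ_nil, mom]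
    · rw [CQ_cons, mom]
      simp only [List.length_nil, Finset.univ_eq_empty, Finset.sum_empty, add_zero]
      apply Finset.sum_congr rfl
      intro t _
      split_ifs with h
      · rw [ih (Q.drop (t + 1)).length (by simp at hn ⊢; omega) _ rfl]
      · rfl

theorem cNorm_zero_right {α β : Type*} [Fintype α] [Fintype β] [DecidableEq β]
    (words : α → List (List β)) (m : ℕ) : cNorm words m 0 = if m = 0 then 1 else 0 := by
  rw [cNorm_eq_nrm]
  unfold nrm
  simp only [LS, CQ_nil]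
  rcases m with _ | m
  · simp [LS]
  · rw [if_neg (Nat.succ_ne_zero m)]
    rw [LS_congr (G := fun _ => (0 : ℝ) * 0) (by
      intro u hu
      rw [if_neg (by omega)]
      norm_num)]
    rw [LS_mul_left]
    simp

theorem cNorm_zero_one {α β : Type*} [Fintype α] [Fintype β] [DecidableEq β]
    (words : α → List (List β)) : cNorm words 0 1 = 0 := by
  rw [cNorm_eq_nrm]
  unfold nrm
  simp only [LS, CQ_nil_right]
  have : ∀ x : β, mom [x] = 0 := by
    intro x
    rw [mom]
    simp
  simp [this]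

/-- value of `A (take b) (drop (b+1))` if the `b`-th letter is `j`. -/
def spl {γ : Type*} (b : ℕ) (A : List γ → γ → List γ → ℝ) (Q : List γ) : ℝ :=
  match Q.drop b with
  | [] => 0
  | i :: Q₂ => A (Q.take b) i Q₂

theorem spl_append {γ : Type*} (A : List γ → γ → List γ → ℝ) (Q₁ : List γ) (i : γ) (Q₂ : List γ) :
    spl Q₁.length A (Q₁ ++ i :: Q₂) = A Q₁ i Q₂ := by
  unfold spl
  rw [List.drop_left, List.take_left]

theorem spl_eq {γ : Type*} (A : List γ → γ → List γ → ℝ) (Q : List γ) (t : Fin Q.length) :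
    A (Q.take t) Q[t] (Q.drop (t + 1)) = spl t A Q := by
  unfold spl
  have h : Q.drop t = Q[t] :: Q.drop (t + 1) := by
    rw [List.drop_eq_getElem_cons t.2]
    rfl
  rw [h]

theorem sum_spl {γ : Type*} (A : List γ → γ → List γ → ℝ) (Q : List γ) :
    ∑ t : Fin Q.length, A (Q.take t) Q[t] (Q.drop (t + 1)) =
      ∑ b ∈ Finset.range Q.length, spl b A Q := by
  rw [Finset.sum_range (fun b => spl b A Q)]
  exact Finset.sum_congr rfl fun t _ => spl_eq A Q t

theorem LS_spl {γ : Type*} [Fintype γ] (b c : ℕ) (A : List γ → γ → List γ → ℝ) (φ : ℝ → ℝ) :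
    LS (b + (c + 1)) (fun Q => φ (spl b A Q)) =
      LS b (fun Q₁ => ∑ i, LS c (fun Q₂ => φ (A Q₁ i Q₂))) := by
  rw [LS_add_len]
  apply LS_congr
  intro Q₁ h₁
  simp only [LS]
  apply Finset.sum_congr rfl
  intro i _
  apply LS_congr
  intro Q₂ _
  subst h₁
  rw [spl_append]

/-- the right hand side functions. -/
def consf {β α : Type*} (g : β → List β → List α → ℝ) (Q' : List β) (u : List α) : ℝ :=
  match Q' with
  | [] => 0
  | j :: Q => g j Q u

theorem nrm_consf_sq {β α : Type*} [Fintype β] [Fintype α] (l m : ℕ)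
    (g : β → List β → List α → ℝ) :
    nrm (l + 1) m (consf g) ^ 2 = ∑ j, LS l (fun Q => LS m (fun u => g j Q u ^ 2)) := by
  rw [nrm_sq]
  rfl

/-- The contribution of a letter `x` of the polynomial. -/
noncomputable def Hx {α : Type*} {k : ℕ} (words : α → List (List (Fin k))) (ws : List (List (Fin k)))
    (j : Fin k) (Q : List (Fin k)) (u₁ u₂ : List α) : ℝ :=
  (ws.map fun w => ∑ b : Fin w.length,
        if w[b] = j then
          CQ words (w.take b ++ Q) u₁ * CQ words (w.drop (b + 1)) u₂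
        else 0).sum

theorem CQ_cons' {α : Type*} {k : ℕ} (words : α → List (List (Fin k))) (j : Fin k)
    (Q : List (Fin k)) (u : List α) : CQ words (j :: Q) u =
      (∑ b ∈ Finset.range Q.length,
        spl b (fun Q₁ i Q₂ => if i = j then mom Q₁ * CQ words Q₂ u else 0) Q) +
      ∑ b ∈ Finset.range u.length,
        spl b (fun u₁ i u₂ => Hx words (words i) j Q u₁ u₂) u := by
  rw [CQ_cons, ← sum_spl, ← sum_spl]
  rfl

theorem sqrt_ls {β α : Type*} [Fintype β] [Fintype α] (l m : ℕ) (f : List β → List α → ℝ) :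
    Real.sqrt (LS l (fun Q => LS m (fun u => f Q u ^ 2))) = nrm l m f := rfl

/-- the first type of terms. -/
theorem nrm_T1 {α : Type*} [Fintype α] {k : ℕ} (words : α → List (List (Fin k))) (m b c : ℕ) :
    nrm (b + (c + 1) + 1) m (consf fun j Q u =>
      spl b (fun Q₁ i Q₂ => if i = j then mom Q₁ * CQ words Q₂ u else 0) Q) =
      Real.sqrt k * (nrm b 0 (CQ words) * nrm c m (CQ words)) := by
  have h : nrm (b + (c + 1) + 1) m (consf fun j Q u =>
      spl b (fun Q₁ i Q₂ => if i = j then mom Q₁ * CQ words Q₂ u else 0) Q) ^ 2 =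
      (Real.sqrt k * (nrm b 0 (CQ words) * nrm c m (CQ words))) ^ 2 := by
    rw [nrm_consf_sq, mul_pow, mul_pow, Real.sq_sqrt (Nat.cast_nonneg k), nrm_sq, nrm_sq]
    have key : ∀ j : Fin k, LS (b + (c + 1)) (fun Q => LS m (fun u =>
        spl b (fun Q₁ i Q₂ => if i = j then mom Q₁ * CQ words Q₂ u else 0) Q ^ 2)) =
        LS b (fun Q => LS 0 (fun u => CQ words Q u ^ 2)) *
          LS c (fun Q => LS m (fun u => CQ words Q u ^ 2)) := by
      intro j
      rw [LS_comm]
      rw [show (fun u : List α => LS (b + (c + 1)) (fun Q : List (Fin k) =>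
        spl b (fun (Q₁ : List (Fin k)) (i : Fin k) (Q₂ : List (Fin k)) =>
          if i = j then mom Q₁ * CQ words Q₂ u else 0) Q ^ 2)) =
        (fun u => LS b (fun Q₁ : List (Fin k) => mom Q₁ ^ 2) *
          LS c (fun Q₂ : List (Fin k) => CQ words Q₂ u ^ 2)) from ?_]
      · rw [LS_mul_left]
        congr 1
        · apply LS_congr
          intro Q _
          simp only [LS, CQ_nil_right]
        · rw [LS_comm]
      · funext u
        rw [LS_spl b c _ (fun x => x ^ 2), ← LS_mul_right]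
        apply LS_congr
        intro Q₁ _
        rw [Finset.sum_eq_single j]
        · rw [← LS_mul_left]
          apply LS_congr
          intro Q₂ _
          rw [if_pos rfl, mul_pow]
        · intro i _ hij
          rw [LS_congr (G := fun _ => (0 : ℝ) * 0) (by
            intro Q₂ _
            rw [if_neg hij]
            norm_num), LS_mul_left]
          simp
        · intro h
          exact absurd (Finset.mem_univ j) h
    rw [Finset.sum_congr rfl (fun j _ => key j)]
    simp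
  have h1 := nrm_nonneg (b + (c + 1) + 1) m (consf fun j Q u =>
      spl b (fun Q₁ i Q₂ => if i = j then mom Q₁ * CQ words Q₂ u else 0) Q)
  have h2 : 0 ≤ Real.sqrt k * (nrm b 0 (CQ words) * nrm c m (CQ words)) :=
    mul_nonneg (Real.sqrt_nonneg _) (mul_nonneg (nrm_nonneg _ _ _) (nrm_nonneg _ _ _))
  exact (sq_eq_sq₀ h1 h2).1 h

/-! five-variable norms -/

/-- ℓ² norm in the variables `(j, Q, u₁, x, u₂)`. -/
noncomputable def nrm5 {α ι : Type*} [Fintype α] [Fintype ι] {k : ℕ} (l b c : ℕ)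
    (f : Fin k → List (Fin k) → List α → ι → List α → ℝ) : ℝ :=
  Real.sqrt (∑ j, LS l (fun Q => LS b (fun u₁ => ∑ x, LS c (fun u₂ => f j Q u₁ x u₂ ^ 2))))

theorem nrm5_arg_nonneg {α ι : Type*} [Fintype α] [Fintype ι] {k : ℕ} (l b c : ℕ)
    (f : Fin k → List (Fin k) → List α → ι → List α → ℝ) :
    0 ≤ ∑ j, LS l (fun Q => LS b (fun u₁ => ∑ x, LS c (fun u₂ => f j Q u₁ x u₂ ^ 2))) :=
  Finset.sum_nonneg fun _ _ => LS_nonneg fun _ => LS_nonneg fun _ =>
    Finset.sum_nonneg fun _ _ => LS_nonneg fun _ => sq_nonneg _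

theorem nrm5_eq_norm {α ι : Type*} [Fintype α] [Fintype ι] {k : ℕ} (l b c : ℕ)
    (f : Fin k → List (Fin k) → List α → ι → List α → ℝ) :
    nrm5 l b c f = ‖(WithLp.toLp 2 (fun p : Fin k × (Fin l → Fin k) × (Fin b → α) × ι × (Fin c → α) =>
      f p.1 (List.ofFn p.2.1) (List.ofFn p.2.2.1) p.2.2.2.1 (List.ofFn p.2.2.2.2)) :
      EuclideanSpace ℝ (Fin k × (Fin l → Fin k) × (Fin b → α) × ι × (Fin c → α)))‖ := by
  rw [EuclideanSpace.norm_eq]
  unfold nrm5
  congr 1
  rw [Fintype.sum_prod_type]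
  apply Finset.sum_congr rfl
  intro j _
  rw [← sum_ofFn_eq_LS, Fintype.sum_prod_type]
  apply Finset.sum_congr rfl
  intro Q _
  rw [← sum_ofFn_eq_LS, Fintype.sum_prod_type]
  apply Finset.sum_congr rfl
  intro u₁ _
  rw [Fintype.sum_prod_type]
  apply Finset.sum_congr rfl
  intro x _
  rw [← sum_ofFn_eq_LS]
  apply Finset.sum_congr rfl
  intro u₂ _
  simp

theorem nrm5_add_le {α ι : Type*} [Fintype α] [Fintype ι] {k : ℕ} (l b c : ℕ)
    (f g : Fin k → List (Fin k) → List α → ι → List α → ℝ) :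
    nrm5 l b c (fun j Q u₁ x u₂ => f j Q u₁ x u₂ + g j Q u₁ x u₂) ≤
      nrm5 l b c f + nrm5 l b c g := by
  rw [nrm5_eq_norm, nrm5_eq_norm, nrm5_eq_norm]
  exact norm_add_le (WithLp.toLp 2 (fun p : Fin k × (Fin l → Fin k) × (Fin b → α) × ι × (Fin c → α) =>
      f p.1 (List.ofFn p.2.1) (List.ofFn p.2.2.1) p.2.2.2.1 (List.ofFn p.2.2.2.2)) :
      EuclideanSpace ℝ (Fin k × (Fin l → Fin k) × (Fin b → α) × ι × (Fin c → α)))
    (WithLp.toLp 2 (fun p : Fin k × (Fin l → Fin k) × (Fin b → α) × ι × (Fin c → α) =>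
      g p.1 (List.ofFn p.2.1) (List.ofFn p.2.2.1) p.2.2.2.1 (List.ofFn p.2.2.2.2)))

theorem nrm5_perm {α ι : Type*} [Fintype α] [Fintype ι] {k : ℕ} (l b c : ℕ) (σ : ι ≃ ι)
    (f : Fin k → List (Fin k) → List α → ι → List α → ℝ) :
    nrm5 l b c (fun j Q u₁ x u₂ => f j Q u₁ (σ x) u₂) = nrm5 l b c f := by
  unfold nrm5
  congr 1
  apply Finset.sum_congr rfl
  intro j _
  apply LS_congr
  intro Q _
  apply LS_congr
  intro u₁ _
  exact σ.sum_comp (fun x => LS c (fun u₂ => f j Q u₁ x u₂ ^ 2))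

/-- product form. -/
theorem nrm5_of_eq {α ι : Type*} [Fintype α] [Fintype ι] {k : ℕ} (l b c : ℕ)
    (f : Fin k → List (Fin k) → List α → ι → List α → ℝ) (A B : ℝ) (hA : 0 ≤ A) (hB : 0 ≤ B)
    (h : ∀ j, LS l (fun Q => LS b (fun u₁ => ∑ x, LS c (fun u₂ => f j Q u₁ x u₂ ^ 2))) =
      A ^ 2 * B ^ 2) : nrm5 l b c f = Real.sqrt k * (A * B) := by
  unfold nrm5
  rw [Finset.sum_congr rfl (fun j _ => h j)]
  simp only [Finset.sum_const, Finset.card_univ, Fintype.card_fin, nsmul_eq_mul]
  rw [Real.sqrt_mul (Nat.cast_nonneg k), ← mul_pow, Real.sqrt_sq (mul_nonneg hA hB)]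

theorem LS_zero_sq {α : Type*} [Fintype α] (c : ℕ) :
    LS c (fun (_ : List α) => (0 : ℝ)) = 0 := by
  have := LS_mul_left (β := α) c 0 (fun _ => 0)
  simpa using this

theorem nrm5_inl {α : Type*} [Fintype α] {k : ℕ} (words : α → List (List (Fin k))) (l b c : ℕ) :
    nrm5 l b c (fun (j : Fin k) Q u₁ (x : Fin k) u₂ =>
      if x = j then CQ words Q u₁ * CQ words [] u₂ else 0) =
      Real.sqrt k * (nrm l b (CQ words) * nrm 0 c (CQ words)) := by
  apply nrm5_of_eq _ _ _ _ _ _ (nrm_nonneg _ _ _) (nrm_nonneg _ _ _)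
  intro j
  rw [nrm_sq, nrm_sq, ← LS_mul_right]
  apply LS_congr
  intro Q _
  rw [← LS_mul_right]
  apply LS_congr
  intro u₁ _
  rw [Finset.sum_eq_single j]
  · simp only [LS, if_true]
    rw [← LS_mul_left]
    apply LS_congr
    intro u₂ _
    rw [mul_pow]
  · intro x _ hx
    simp only [if_neg hx]
    norm_num
    exact LS_zero_sq c
  · intro h
    exact absurd (Finset.mem_univ j) h

theorem nrm5_G0 {α : Type*} [Fintype α] {k : ℕ} (words : α → List (List (Fin k))) (l b c : ℕ) :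
    nrm5 l b c (fun (j : Fin k) Q u₁ (x : Fin k × Fin k × Fin k) u₂ =>
      if x.1 = j then CQ words Q u₁ * CQ words [x.2.1, x.2.2] u₂ else 0) =
      Real.sqrt k * (nrm l b (CQ words) * nrm 2 c (CQ words)) := by
  apply nrm5_of_eq _ _ _ _ _ _ (nrm_nonneg _ _ _) (nrm_nonneg _ _ _)
  intro j
  rw [nrm_sq, nrm_sq, ← LS_mul_right]
  apply LS_congr
  intro Q _
  rw [← LS_mul_right]
  apply LS_congr
  intro u₁ _
  rw [Fintype.sum_prod_type, Finset.sum_eq_single j]
  · simp only [LS, if_true]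
    rw [Fintype.sum_prod_type, Finset.mul_sum]
    apply Finset.sum_congr rfl
    intro q _
    rw [Finset.mul_sum]
    apply Finset.sum_congr rfl
    intro s _
    rw [← LS_mul_left]
    apply LS_congr
    intro u₂ _
    rw [mul_pow]
  · intro x _ hx
    simp only [if_neg hx]
    norm_num
    right
    exact LS_zero_sq c
  · intro h
    exact absurd (Finset.mem_univ j) h

theorem nrm5_G1 {α : Type*} [Fintype α] {k : ℕ} (words : α → List (List (Fin k))) (l b c : ℕ) :
    nrm5 l b c (fun (j : Fin k) Q u₁ (x : Fin k × Fin k × Fin k) u₂ =>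
      if x.2.1 = j then CQ words (x.1 :: Q) u₁ * CQ words [x.2.2] u₂ else 0) =
      Real.sqrt k * (nrm (l + 1) b (CQ words) * nrm 1 c (CQ words)) := by
  apply nrm5_of_eq _ _ _ _ _ _ (nrm_nonneg _ _ _) (nrm_nonneg _ _ _)
  intro j
  rw [nrm_sq, nrm_sq]
  have e1 : LS (l + 1) (fun Q => LS b (fun u => CQ words Q u ^ 2)) =
      LS l (fun Q => LS b (fun u => ∑ p, CQ words (p :: Q) u ^ 2)) := by
    simp only [LS]
    rw [← LS_sum]
    apply LS_congr
    intro Q _
    rw [← LS_sum]
  rw [e1, ← LS_mul_right]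
  apply LS_congr
  intro Q _
  rw [← LS_mul_right]
  apply LS_congr
  intro u₁ _
  rw [Fintype.sum_prod_type, Finset.sum_mul]
  apply Finset.sum_congr rfl
  intro p _
  rw [Fintype.sum_prod_type, Finset.sum_eq_single j]
  · simp only [LS, if_true]
    rw [Finset.mul_sum]
    apply Finset.sum_congr rfl
    intro s _
    rw [← LS_mul_left]
    apply LS_congr
    intro u₂ _
    rw [mul_pow]
  · intro x _ hx
    simp only [if_neg hx]
    norm_num
    right
    exact LS_zero_sq c
  · intro h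
    exact absurd (Finset.mem_univ j) h

theorem nrm5_G2 {α : Type*} [Fintype α] {k : ℕ} (words : α → List (List (Fin k))) (l b c : ℕ) :
    nrm5 l b c (fun (j : Fin k) Q u₁ (x : Fin k × Fin k × Fin k) u₂ =>
      if x.2.2 = j then CQ words (x.1 :: x.2.1 :: Q) u₁ * CQ words [] u₂ else 0) =
      Real.sqrt k * (nrm (l + 2) b (CQ words) * nrm 0 c (CQ words)) := by
  apply nrm5_of_eq _ _ _ _ _ _ (nrm_nonneg _ _ _) (nrm_nonneg _ _ _)
  intro j
  rw [nrm_sq, nrm_sq]
  have e1 : LS (l + 2) (fun Q => LS b (fun u => CQ words Q u ^ 2)) =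
      LS l (fun Q => LS b (fun u => ∑ p, ∑ q, CQ words (p :: q :: Q) u ^ 2)) := by
    simp only [LS]
    rw [show (∑ x : Fin k, ∑ y : Fin k, LS l (fun Q => LS b (fun u => CQ words (x :: y :: Q) u ^ 2))) =
      ∑ x : Fin k, LS l (fun Q => ∑ y : Fin k, LS b (fun u => CQ words (x :: y :: Q) u ^ 2)) from
      Finset.sum_congr rfl fun x _ => by rw [← LS_sum]]
    rw [← LS_sum]
    apply LS_congr
    intro Q _
    rw [show (∑ x : Fin k, ∑ y : Fin k, LS b (fun u => CQ words (x :: y :: Q) u ^ 2)) =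
      ∑ x : Fin k, LS b (fun u => ∑ y : Fin k, CQ words (x :: y :: Q) u ^ 2) from
      Finset.sum_congr rfl fun x _ => by rw [← LS_sum]]
    rw [← LS_sum]
  rw [e1, ← LS_mul_right]
  apply LS_congr
  intro Q _
  rw [← LS_mul_right]
  apply LS_congr
  intro u₁ _
  rw [Fintype.sum_prod_type, Finset.sum_mul]
  apply Finset.sum_congr rfl
  intro p _
  rw [Fintype.sum_prod_type, Finset.sum_mul]
  apply Finset.sum_congr rfl
  intro q _
  rw [Finset.sum_eq_single j]
  · simp only [LS, if_true]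
    rw [← LS_mul_left]
    apply LS_congr
    intro u₂ _
    rw [mul_pow]
  · intro x _ hx
    simp only [if_neg hx]
    norm_num
    exact LS_zero_sq c
  · intro h
    exact absurd (Finset.mem_univ j) h

theorem Hx_inl {α : Type*} {k : ℕ} (words : α → List (List (Fin k))) (j' j : Fin k)
    (Q : List (Fin k)) (u₁ u₂ : List α) :
    Hx words (wordsIX (Sum.inl j')) j Q u₁ u₂ =
      if j' = j then CQ words Q u₁ * CQ words [] u₂ else 0 := by
  simp [Hx, wordsIX]

theorem Hx_inr {α : Type*} {k : ℕ} (words : α → List (List (Fin k))) (x : Fin k × Fin k × Fin k)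
    (j : Fin k) (Q : List (Fin k)) (u₁ u₂ : List α) :
    Hx words (wordsIX (Sum.inr x)) j Q u₁ u₂ =
      (((if x.1 = j then CQ words Q u₁ * CQ words [x.2.1, x.2.2] u₂ else 0) +
        (if x.2.1 = j then CQ words (x.1 :: Q) u₁ * CQ words [x.2.2] u₂ else 0)) +
        (if x.2.2 = j then CQ words (x.1 :: x.2.1 :: Q) u₁ * CQ words [] u₂ else 0)) +
      (((if x.2.2 = j then CQ words Q u₁ * CQ words [x.2.1, x.1] u₂ else 0) +
        (if x.2.1 = j then CQ words (x.2.2 :: Q) u₁ * CQ words [x.1] u₂ else 0)) +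
        (if x.1 = j then CQ words (x.2.2 :: x.2.1 :: Q) u₁ * CQ words [] u₂ else 0)) := by
  obtain ⟨p, q, s⟩ := x
  simp [Hx, wordsIX, Fin.sum_univ_succ, add_assoc]

/-- reversal of a triple. -/
def rev3 (k : ℕ) : (Fin k × Fin k × Fin k) ≃ (Fin k × Fin k × Fin k) where
  toFun x := (x.2.2, x.2.1, x.1)
  invFun x := (x.2.2, x.2.1, x.1)
  left_inv _ := rfl
  right_inv _ := rfl

theorem nrm5_inr {α : Type*} [Fintype α] {k : ℕ} (words : α → List (List (Fin k))) (l b c : ℕ) :
    nrm5 l b c (fun (j : Fin k) Q u₁ (x : Fin k × Fin k × Fin k) u₂ =>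
      Hx words (wordsIX (Sum.inr x)) j Q u₁ u₂) ≤
      2 * (Real.sqrt k * (nrm l b (CQ words) * nrm 2 c (CQ words)) +
        Real.sqrt k * (nrm (l + 1) b (CQ words) * nrm 1 c (CQ words)) +
        Real.sqrt k * (nrm (l + 2) b (CQ words) * nrm 0 c (CQ words))) := by
  set A : Fin k → List (Fin k) → List α → (Fin k × Fin k × Fin k) → List α → ℝ :=
    fun j Q u₁ x u₂ =>
      ((if x.1 = j then CQ words Q u₁ * CQ words [x.2.1, x.2.2] u₂ else 0) +
        (if x.2.1 = j then CQ words (x.1 :: Q) u₁ * CQ words [x.2.2] u₂ else 0)) +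
        (if x.2.2 = j then CQ words (x.1 :: x.2.1 :: Q) u₁ * CQ words [] u₂ else 0) with hA
  have h1 : nrm5 l b c (fun (j : Fin k) Q u₁ (x : Fin k × Fin k × Fin k) u₂ =>
      Hx words (wordsIX (Sum.inr x)) j Q u₁ u₂) =
      nrm5 l b c (fun j Q u₁ x u₂ => A j Q u₁ x u₂ + A j Q u₁ (rev3 k x) u₂) := by
    congr 1
    funext j Q u₁ x u₂
    rw [Hx_inr]
    rfl
  have h2 : nrm5 l b c A ≤ Real.sqrt k * (nrm l b (CQ words) * nrm 2 c (CQ words)) +
        Real.sqrt k * (nrm (l + 1) b (CQ words) * nrm 1 c (CQ words)) +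
        Real.sqrt k * (nrm (l + 2) b (CQ words) * nrm 0 c (CQ words)) := by
    rw [← nrm5_G0, ← nrm5_G1, ← nrm5_G2]
    refine (nrm5_add_le l b c _ _).trans ?_
    apply add_le_add_left
    exact nrm5_add_le l b c _ _
  rw [h1]
  refine (nrm5_add_le l b c _ _).trans ?_
  rw [nrm5_perm l b c (rev3 k) A]
  linarith

theorem nrm_T2 {α : Type*} [Fintype α] {k : ℕ} (e : α ≃ IX k) (l b c : ℕ) :
    nrm (l + 1) (b + (c + 1)) (consf fun j Q u =>
      spl b (fun u₁ i u₂ => Hx (fun i => wordsIX (e i)) (wordsIX (e i)) j Q u₁ u₂) u) ≤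
      Real.sqrt k * (2 * (nrm l b (CQ fun i => wordsIX (e i)) * nrm 2 c (CQ fun i => wordsIX (e i)) +
        nrm (l + 1) b (CQ fun i => wordsIX (e i)) * nrm 1 c (CQ fun i => wordsIX (e i)) +
        nrm (l + 2) b (CQ fun i => wordsIX (e i)) * nrm 0 c (CQ fun i => wordsIX (e i))) +
        nrm l b (CQ fun i => wordsIX (e i)) * nrm 0 c (CQ fun i => wordsIX (e i))) := by
  set words : α → List (List (Fin k)) := fun i => wordsIX (e i) with hw
  have hinl : nrm5 l b c (fun (j : Fin k) Q u₁ (x : Fin k) u₂ =>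
      Hx words (wordsIX (Sum.inl x)) j Q u₁ u₂) =
      Real.sqrt k * (nrm l b (CQ words) * nrm 0 c (CQ words)) := by
    rw [← nrm5_inl]
    congr 1
    funext j Q u₁ x u₂
    rw [Hx_inl]
  have hsq : nrm (l + 1) (b + (c + 1)) (consf fun j Q u =>
      spl b (fun u₁ i u₂ => Hx words (wordsIX (e i)) j Q u₁ u₂) u) ^ 2 =
      nrm5 l b c (fun (j : Fin k) Q u₁ (x : Fin k) u₂ =>
        Hx words (wordsIX (Sum.inl x)) j Q u₁ u₂) ^ 2 +
      nrm5 l b c (fun (j : Fin k) Q u₁ (x : Fin k × Fin k × Fin k) u₂ =>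
        Hx words (wordsIX (Sum.inr x)) j Q u₁ u₂) ^ 2 := by
    rw [nrm_consf_sq]
    unfold nrm5
    rw [Real.sq_sqrt (nrm5_arg_nonneg _ _ _ _), Real.sq_sqrt (nrm5_arg_nonneg _ _ _ _),
      ← Finset.sum_add_distrib]
    apply Finset.sum_congr rfl
    intro j _
    rw [← LS_add]
    apply LS_congr
    intro Q _
    rw [← LS_add, LS_spl b c (fun u₁ i u₂ => Hx words (wordsIX (e i)) j Q u₁ u₂) (fun x => x ^ 2)]
    apply LS_congr
    intro u₁ _
    rw [e.sum_comp (fun x => LS c (fun u₂ => Hx words (wordsIX x) j Q u₁ u₂ ^ 2)),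
      Fintype.sum_sum_type]
  have hinr := nrm5_inr words l b c
  set a := nrm5 l b c (fun (j : Fin k) Q u₁ (x : Fin k) u₂ =>
        Hx words (wordsIX (Sum.inl x)) j Q u₁ u₂) with ha
  set a' := nrm5 l b c (fun (j : Fin k) Q u₁ (x : Fin k × Fin k × Fin k) u₂ =>
        Hx words (wordsIX (Sum.inr x)) j Q u₁ u₂) with ha'
  have ha0 : 0 ≤ a := Real.sqrt_nonneg _
  have ha0' : 0 ≤ a' := Real.sqrt_nonneg _
  have h1 : nrm (l + 1) (b + (c + 1)) (consf fun j Q u =>
      spl b (fun u₁ i u₂ => Hx words (wordsIX (e i)) j Q u₁ u₂) u) ≤ a + a' := by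
    apply abs_le_of_sq_le_sq' _ (by positivity) |>.2
    rw [hsq]
    nlinarith
  refine h1.trans ?_
  rw [hinl]
  linarith

theorem cNorm_rec {α : Type*} [Fintype α] {k : ℕ} (e : α ≃ IX k) (m l : ℕ) :
    cNorm (fun i => wordsIX (e i)) m (l + 1) ≤
      Real.sqrt k * (∑ b ∈ Finset.range l,
        cNorm (fun i => wordsIX (e i)) 0 b * cNorm (fun i => wordsIX (e i)) m (l - 1 - b)) +
      Real.sqrt k * ∑ b ∈ Finset.range m,
        (2 * (cNorm (fun i => wordsIX (e i)) b l * cNorm (fun i => wordsIX (e i)) (m - 1 - b) 2 +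
          cNorm (fun i => wordsIX (e i)) b (l + 1) * cNorm (fun i => wordsIX (e i)) (m - 1 - b) 1 +
          cNorm (fun i => wordsIX (e i)) b (l + 2) * cNorm (fun i => wordsIX (e i)) (m - 1 - b) 0) +
          cNorm (fun i => wordsIX (e i)) b l * cNorm (fun i => wordsIX (e i)) (m - 1 - b) 0) := by
  set words : α → List (List (Fin k)) := fun i => wordsIX (e i) with hw
  simp only [cNorm_eq_nrm]
  have hdec : nrm (l + 1) m (CQ words) =
      nrm (l + 1) m (fun Q' u =>
        (∑ b ∈ Finset.range l, consf (fun j Q u =>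
          spl b (fun Q₁ i Q₂ => if i = j then mom Q₁ * CQ words Q₂ u else 0) Q) Q' u) +
        (∑ b ∈ Finset.range m, consf (fun j Q u =>
          spl b (fun u₁ i u₂ => Hx words (words i) j Q u₁ u₂) u) Q' u)) := by
    apply nrm_congr
    intro Q' u hQ hu
    rcases Q' with _ | ⟨j, Q⟩
    · simp at hQ
    · rw [CQ_cons']
      have hQ' : Q.length = l := by simpa using hQ
      rw [hQ', hu]
      rfl
  rw [hdec]
  refine (nrm_add_le _ _ _ _).trans ?_
  apply add_le_add
  · refine (nrm_sum_le _ _ _ _).trans ?_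
    rw [Finset.mul_sum]
    apply Finset.sum_le_sum
    intro b hb
    have hb' := Finset.mem_range.1 hb
    have hl : l + 1 = b + ((l - 1 - b) + 1) + 1 := by omega
    rw [hl]
    have := nrm_T1 words m b (l - 1 - b)
    exact this.le
  · refine (nrm_sum_le _ _ _ _).trans ?_
    rw [Finset.mul_sum]
    apply Finset.sum_le_sum
    intro b hb
    have hb' := Finset.mem_range.1 hb
    have hm : m = b + ((m - 1 - b) + 1) := by omega
    have := nrm_T2 e l b (m - 1 - b)
    rw [← hm] at this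
    exact this


end NR

theorem CQ_nil_right {α β : Type*} [DecidableEq β] (words : α → List (List β)) (Q : List β) :
    CQ words Q [] = mom Q := NR.CQ_nil_right words Q

theorem cNorm_zero_right {α β : Type*} [Fintype α] [Fintype β] [DecidableEq β]
    (words : α → List (List β)) (m : ℕ) : cNorm words m 0 = if m = 0 then 1 else 0 :=
  NR.cNorm_zero_right words m

theorem cNorm_zero_one {α β : Type*} [Fintype α] [Fintype β] [DecidableEq β]
    (words : α → List (List β)) : cNorm words 0 1 = 0 := NR.cNorm_zero_one words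

theorem cNorm_rec {α : Type*} [Fintype α] {k : ℕ} (e : α ≃ IX k) (m l : ℕ) :
    cNorm (fun i => wordsIX (e i)) m (l + 1) ≤
      Real.sqrt k * (∑ b ∈ Finset.range l,
        cNorm (fun i => wordsIX (e i)) 0 b * cNorm (fun i => wordsIX (e i)) m (l - 1 - b)) +
      Real.sqrt k * ∑ b ∈ Finset.range m,
        (2 * (cNorm (fun i => wordsIX (e i)) b l * cNorm (fun i => wordsIX (e i)) (m - 1 - b) 2 +
          cNorm (fun i => wordsIX (e i)) b (l + 1) * cNorm (fun i => wordsIX (e i)) (m - 1 - b) 1 +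
          cNorm (fun i => wordsIX (e i)) b (l + 2) * cNorm (fun i => wordsIX (e i)) (m - 1 - b) 0) +
          cNorm (fun i => wordsIX (e i)) b l * cNorm (fun i => wordsIX (e i)) (m - 1 - b) 0) :=
  NR.cNorm_rec e m l

end Crest.Agent.FE
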