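import Mathlib

/-!
# Row 89, chunk H2: the final numerical inequality (pure real analysis, no other file needed)

`κ = 10^8`, `k = κ⁴`, `r = κ^12`, `t0 = κ^{-12}`, `T = 73728 κ⁶`.  Cancel `(n/2) log(2πe)`.  Left over:
`(κ⁴/2) (log(1+t0) − log t0) + (κ^12/2) log(1 + 36864 t0) + 1/2 ≤ κ^12/(2(T+1))`.
`−log t0 = 12 log κ`, `log κ ≤ κ`, `log(1+x) ≤ x`: left `≤ κ⁴/2·(1 + 12κ) + 18432 + 1/2 ≤ 7 κ⁵ + …`, right
`≥ κ^12/(2·73729 κ⁶) ≥ κ⁶/147458 ≥ 678 κ⁵`.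
-/

set_option autoImplicit false
namespace Crest.Agent.FE

theorem numeric (κ : ℝ) (hκ : κ = 10 ^ 8) :
    κ ^ 4 * (1 / 2 * Real.log (2 * Real.pi * Real.exp 1 * (1 + (κ ^ 12)⁻¹))) +
      κ ^ 12 * (1 / 2 * Real.log (2 * Real.pi * Real.exp 1 * (1 + 36864 * (κ ^ 12)⁻¹))) ≤
    (κ ^ 4 + κ ^ 12) / 2 * Real.log (2 * Real.pi * Real.exp 1) +
      1 / 2 * (κ ^ 4 * Real.log ((κ ^ 12)⁻¹) + κ ^ 12 / (1 + 73728 * κ ^ 6)) - 1 / 2 := by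
  have hκ0 : (0:ℝ) < κ := by rw [hκ]; norm_num
  have hA : (0:ℝ) < 2 * Real.pi * Real.exp 1 := by positivity
  have h12 : (0:ℝ) < κ ^ 12 := by positivity
  have hinv : (0:ℝ) < (κ ^ 12)⁻¹ := by positivity
  have hB : (0:ℝ) < 1 + (κ ^ 12)⁻¹ := by positivity
  have hC : (0:ℝ) < 1 + 36864 * (κ ^ 12)⁻¹ := by positivity
  rw [Real.log_mul hA.ne' hB.ne', Real.log_mul hA.ne' hC.ne']
  set L := Real.log (2 * Real.pi * Real.exp 1) with hL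
  have h1 : Real.log (1 + (κ ^ 12)⁻¹) ≤ (κ ^ 12)⁻¹ := by
    have := Real.log_le_sub_one_of_pos hB; linarith
  have h2 : Real.log (1 + 36864 * (κ ^ 12)⁻¹) ≤ 36864 * (κ ^ 12)⁻¹ := by
    have := Real.log_le_sub_one_of_pos hC; linarith
  have h3 : -(12 * κ) ≤ Real.log ((κ ^ 12)⁻¹) := by
    rw [Real.log_inv, Real.log_pow]
    have := Real.log_le_sub_one_of_pos hκ0
    push_cast
    nlinarith
  have h4 : κ ^ 12 * (36864 * (κ ^ 12)⁻¹) = 36864 := by field_simp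
  have h5 : κ ^ 12 * Real.log (1 + 36864 * (κ ^ 12)⁻¹) ≤ 36864 := by
    calc _ ≤ κ ^ 12 * (36864 * (κ ^ 12)⁻¹) := by gcongr
      _ = 36864 := h4
  have h6 : κ ^ 4 * Real.log (1 + (κ ^ 12)⁻¹) ≤ 1 := by
    have : (κ ^ 12)⁻¹ ≤ (κ^4)⁻¹ := by
      apply inv_anti₀ (by positivity)
      rw [hκ]; norm_num
    calc κ ^ 4 * Real.log (1 + (κ ^ 12)⁻¹) ≤ κ ^ 4 * (κ^4)⁻¹ := by
          have := h1.trans this
          gcongr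
      _ = 1 := by field_simp
  have h7 : κ ^ 4 * (-(12 * κ)) ≤ κ ^ 4 * Real.log ((κ ^ 12)⁻¹) := by gcongr
  have h8 : (10:ℝ)^42 ≤ κ ^ 12 / (1 + 73728 * κ ^ 6) - 12 * κ^5 - 36864 - 1 - 1 := by
    have h9 : κ ^ 12 / (1 + 73728 * κ ^ 6) ≥ κ^6 / 73729 := by
      rw [ge_iff_le, div_le_div_iff₀ (by norm_num) (by positivity)]
      have : (1:ℝ) ≤ κ ^ 6 := by rw [hκ]; norm_num
      nlinarith [pow_pos hκ0 6]
    have h10 : κ^6 / 73729 - 12 * κ^5 - 36864 - 1 - 1 ≥ (10:ℝ)^42 := by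
      rw [hκ]; norm_num
    linarith
  nlinarith [h5, h6, h7, h8]

end Crest.Agent.FE
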