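import Crest.Agent.FE.Defs

/-!
# Row 89, chunk B1: creation operators adapted to `X` and the Bessel vectors `e_u`

All abstract Hilbert space algebra.

PROOFS.
* `xrel`: given `FockRel g r Ω` on letters `LT k n`, put
  `X i = Σ_{w ∈ words i} g_w + √t_i g_{own i} + √s g_{path i}` and
  `R i = θ_i^{-1/2} (√t_i r_{own i} + √s r_{path i})`, `θ_i = t_i + s > 0`.  Then
  `R_i^* = θ_i^{-1/2}(√t_i r_{own i}^* + √s r_{path i}^*)` commutes with all `g_{inl j}` (no `inl`
  component in `comm`), so `R_i^* X_j v = X_j R_i^* v + δ_ij θ_i^{-1/2}(t_i + s)⟪Ω,v⟫Ω`.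
* `eVec R Ω u = R_{u_m} ⋯ R_{u_1} Ω` (`foldl`).  `⟪e_{u ++ [i]}, v⟫ = ⟪e_u, R_i^* v⟫` and
  `R_i^* X_P Ω = Σ_t [P_t = i] c_i ⟪Ω, X_{P.drop (t+1)}Ω⟫ X_{P.take t} Ω` (induction on `P`, `R_i^*Ω = 0`).
  `Dfun_append`: `D_{u ++ i :: v}(P) = Σ_t [P_t = i] D_u(P.take t) D_v(P.drop (t+1))` — induction on `u`
  (double sums over `t < t'`).  Then induction on `u` from the right (`List.reverseRecOn`).
* orthonormality: `R_i^* R_j = δ_ij`, `R_i^* Ω = 0`, `‖Ω‖ = 1`.
-/

set_option autoImplicit false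

namespace Crest.Agent.FE

open scoped InnerProductSpace ENNReal

/-- relations between the tuple `X` and its creation operators `R`. -/
structure XRel {α H : Type*} [DecidableEq α] [NormedAddCommGroup H] [InnerProductSpace ℂ H]
    [CompleteSpace H] (X R : α → H →L[ℂ] H) (c : α → ℝ) (Ω : H) : Prop where
  normΩ : ‖Ω‖ = 1
  RΩ : ∀ i, ContinuousLinearMap.adjoint (R i) Ω = 0
  RR : ∀ i j v, ContinuousLinearMap.adjoint (R i) (R j v) = if i = j then v else 0
  comm : ∀ i j v, ContinuousLinearMap.adjoint (R i) (X j v) =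
    X j (ContinuousLinearMap.adjoint (R i) v) + if i = j then ((c i : ℂ) * ⟪Ω, v⟫_ℂ) • Ω else 0

/-- `e_u = R_{u_m} ⋯ R_{u_1} Ω`. -/
def eVec {α H : Type*} [NormedAddCommGroup H] [InnerProductSpace ℂ H]
    (R : α → H →L[ℂ] H) (Ω : H) (u : List α) : H := u.foldl (fun v i => R i v) Ω

/-- the operators `X_i(s)`. -/
noncomputable def Xop {k n : ℕ} {H : Type*} [NormedAddCommGroup H] [InnerProductSpace ℂ H]
    (g : LT k n → H →L[ℂ] H) (words : Fin n → List (List (Fin k))) (t : Fin n → ℝ) (s : ℝ)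
    (i : Fin n) : H →L[ℂ] H :=
  evalWords (fun j => g (Sum.inl j)) (words i) +
    ((Real.sqrt (t i) : ℝ) : ℂ) • g (Sum.inr (Sum.inl i)) +
    ((Real.sqrt s : ℝ) : ℂ) • g (Sum.inr (Sum.inr i))

/-- the adapted creation operators. -/
noncomputable def Rop {k n : ℕ} {H : Type*} [NormedAddCommGroup H] [InnerProductSpace ℂ H]
    (r : LT k n → H →L[ℂ] H) (t : Fin n → ℝ) (s : ℝ) (i : Fin n) : H →L[ℂ] H :=
  (((Real.sqrt (t i + s))⁻¹ : ℝ) : ℂ) • (((Real.sqrt (t i) : ℝ) : ℂ) • r (Sum.inr (Sum.inl i)) +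
    ((Real.sqrt s : ℝ) : ℂ) • r (Sum.inr (Sum.inr i)))

section aux

variable {H : Type*} [NormedAddCommGroup H] [InnerProductSpace ℂ H]

theorem evalWords_comm {β : Type*} {g : β → H →L[ℂ] H} {T : H →L[ℂ] H}
    (hT : ∀ j v, T (g j v) = g j (T v)) (ws : List (List β)) (v : H) :
    T (evalWords g ws v) = evalWords g ws (T v) := by
  have h1 : ∀ (w : List β) (v : H), T ((w.map g).prod v) = (w.map g).prod (T v) := by
    intro w
    induction w with
    | nil => intro v; simp
    | cons j w ih =>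
      intro v
      simp only [List.map_cons, List.prod_cons, mul_apply_eq_comp]
      rw [hT, ih]
  unfold evalWords
  induction ws with
  | nil => simp
  | cons w ws ih =>
    simp only [List.map_cons, List.sum_cons, add_apply, map_add]
    rw [h1, ih]

theorem Rop_adjoint [CompleteSpace H] {k n : ℕ} (r : LT k n → H →L[ℂ] H) (t : Fin n → ℝ) (s : ℝ)
    (i : Fin n) (v : H) :
    ContinuousLinearMap.adjoint (Rop r t s i) v =
      (((Real.sqrt (t i + s))⁻¹ : ℝ) : ℂ) • (((Real.sqrt (t i) : ℝ) : ℂ) •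
        ContinuousLinearMap.adjoint (r (Sum.inr (Sum.inl i))) v +
        ((Real.sqrt s : ℝ) : ℂ) • ContinuousLinearMap.adjoint (r (Sum.inr (Sum.inr i))) v) := by
  unfold Rop
  simp only [map_smulₛₗ, map_add, Complex.conj_ofReal, smul_apply, add_apply]

theorem Rop_apply {k n : ℕ} (r : LT k n → H →L[ℂ] H) (t : Fin n → ℝ) (s : ℝ)
    (i : Fin n) (v : H) :
    Rop r t s i v =
      (((Real.sqrt (t i + s))⁻¹ : ℝ) : ℂ) • (((Real.sqrt (t i) : ℝ) : ℂ) •
        (r (Sum.inr (Sum.inl i))) v +
        ((Real.sqrt s : ℝ) : ℂ) • (r (Sum.inr (Sum.inr i))) v) := by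
  unfold Rop
  simp only [smul_apply, add_apply]

theorem Xop_apply {k n : ℕ} (g : LT k n → H →L[ℂ] H) (words : Fin n → List (List (Fin k)))
    (t : Fin n → ℝ) (s : ℝ) (i : Fin n) (v : H) :
    Xop g words t s i v = evalWords (fun j => g (Sum.inl j)) (words i) v +
    ((Real.sqrt (t i) : ℝ) : ℂ) • g (Sum.inr (Sum.inl i)) v +
    ((Real.sqrt s : ℝ) : ℂ) • g (Sum.inr (Sum.inr i)) v := by
  unfold Xop
  simp only [smul_apply, add_apply]

end aux

theorem xrel {k n : ℕ} {H : Type*} [NormedAddCommGroup H] [InnerProductSpace ℂ H] [CompleteSpace H]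
    {g r : LT k n → H →L[ℂ] H} {Ω : H} (h : FockRel g r Ω) (words : Fin n → List (List (Fin k)))
    (t : Fin n → ℝ) (ht : ∀ i, 0 < t i) (s : ℝ) (hs : 0 ≤ s) :
    XRel (Xop g words t s) (Rop r t s) (fun i => Real.sqrt (t i + s)) Ω := by
  have hc : ∀ i, 0 < Real.sqrt (t i + s) := fun i => Real.sqrt_pos.2 (by linarith [ht i])
  have hc2 : ∀ i, Real.sqrt (t i + s) * Real.sqrt (t i + s) = t i + s := fun i =>
    Real.mul_self_sqrt (by linarith [ht i])
  have ht2 : ∀ i, Real.sqrt (t i) * Real.sqrt (t i) = t i := fun i => Real.mul_self_sqrt (ht i).le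
  have hs2 : Real.sqrt s * Real.sqrt s = s := Real.mul_self_sqrt hs
  refine ⟨h.normΩ, fun i => ?_, fun i j v => ?_, fun i j v => ?_⟩
  · rw [Rop_adjoint, h.rΩ, h.rΩ]; simp
  · rw [Rop_adjoint, Rop_apply]
    simp only [map_smul, map_add, h.rr]
    by_cases hij : i = j
    · subst hij
      simp only [if_true, reduceCtorEq, Sum.inr.injEq, if_false, smul_zero, add_zero, zero_add]
      have e : (((Real.sqrt (t i + s))⁻¹ : ℝ) : ℂ) * (((Real.sqrt (t i) : ℝ) : ℂ) *
          (((((Real.sqrt (t i + s))⁻¹ : ℝ) : ℂ)) * ((Real.sqrt (t i) : ℝ) : ℂ)) +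
          ((Real.sqrt s : ℝ) : ℂ) * (((((Real.sqrt (t i + s))⁻¹ : ℝ) : ℂ)) *
          ((Real.sqrt s : ℝ) : ℂ))) = 1 := by
        norm_cast
        calc _ = ((Real.sqrt (t i + s))⁻¹ * (Real.sqrt (t i + s))⁻¹) *
              (Real.sqrt (t i) * Real.sqrt (t i) + Real.sqrt s * Real.sqrt s) := by ring
          _ = 1 := by
            rw [ht2, hs2, ← mul_inv, hc2, inv_mul_cancel₀]
            have := ht i
            positivity
      calc _ = ((((Real.sqrt (t i + s))⁻¹ : ℝ) : ℂ) * (((Real.sqrt (t i) : ℝ) : ℂ) *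
          (((((Real.sqrt (t i + s))⁻¹ : ℝ) : ℂ)) * ((Real.sqrt (t i) : ℝ) : ℂ)) +
          ((Real.sqrt s : ℝ) : ℂ) * (((((Real.sqrt (t i + s))⁻¹ : ℝ) : ℂ)) *
          ((Real.sqrt s : ℝ) : ℂ)))) • v := by
            simp only [smul_add, add_smul, mul_add, mul_smul]
        _ = v := by rw [e, one_smul]
    · simp only [reduceCtorEq, Sum.inr.injEq, Sum.inl.injEq, hij, if_false, smul_zero, add_zero]
  · rw [Rop_adjoint, Rop_adjoint, Xop_apply, Xop_apply]
    simp only [map_smul, map_add, h.comm]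
    rw [evalWords_comm (T := ContinuousLinearMap.adjoint (r (Sum.inr (Sum.inl i))))
      (fun j v => by rw [h.comm]; simp),
      evalWords_comm (T := ContinuousLinearMap.adjoint (r (Sum.inr (Sum.inr i))))
      (fun j v => by rw [h.comm]; simp)]
    by_cases hij : i = j
    · subst hij
      simp only [if_true, reduceCtorEq, Sum.inr.injEq, if_false, add_zero]
      have e : (((Real.sqrt (t i + s))⁻¹ : ℝ) : ℂ) * (((Real.sqrt (t i) : ℝ) : ℂ) *
          ((Real.sqrt (t i) : ℝ) : ℂ) + ((Real.sqrt s : ℝ) : ℂ) * ((Real.sqrt s : ℝ) : ℂ)) =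
          ((Real.sqrt (t i + s) : ℝ) : ℂ) := by
        norm_cast
        rw [ht2, hs2]
        calc (Real.sqrt (t i + s))⁻¹ * (t i + s)
            = (Real.sqrt (t i + s))⁻¹ * (Real.sqrt (t i + s) * Real.sqrt (t i + s)) := by
              rw [hc2]
          _ = Real.sqrt (t i + s) := by
              rw [← mul_assoc, inv_mul_cancel₀ (hc i).ne', one_mul]
      rw [← e]
      module
    · simp only [reduceCtorEq, Sum.inr.injEq, Sum.inl.injEq, hij, if_false, add_zero]
      module

/-- `√θ_i R_i Ω = X_i Ω − y_i Ω`. -/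
theorem Rop_vac {k n : ℕ} {H : Type*} [NormedAddCommGroup H] [InnerProductSpace ℂ H]
    [CompleteSpace H] {g r : LT k n → H →L[ℂ] H} {Ω : H} (h : FockRel g r Ω)
    (words : Fin n → List (List (Fin k)))
    (t : Fin n → ℝ) (ht : ∀ i, 0 < t i) (s : ℝ) (hs : 0 ≤ s) (i : Fin n) :
    ((Real.sqrt (t i + s) : ℝ) : ℂ) • Rop r t s i Ω =
      Xop g words t s i Ω - evalWords (fun j => g (Sum.inl j)) (words i) Ω := by
  have hc : 0 < Real.sqrt (t i + s) := Real.sqrt_pos.2 (by linarith [ht i])
  have e : ((Real.sqrt (t i + s) : ℝ) : ℂ) * (((Real.sqrt (t i + s))⁻¹ : ℝ) : ℂ) = 1 := by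
    norm_cast
    exact mul_inv_cancel₀ hc.ne'
  rw [Rop_apply, Xop_apply, smul_smul, e, one_smul, h.gΩ, h.gΩ]
  abel

/-! ### combinatorics -/

/-- auxiliary: the first functional is `μ0`. -/
def Dfun2 {α : Type*} [DecidableEq α] (μ0 μ : List α → ℂ) : List α → List α → ℂ
  | [], P => μ0 P
  | i :: u, P => ∑ t : Fin P.length, if P[t] = i then μ0 (P.take t) * Dfun μ u (P.drop (t + 1)) else 0

theorem Dfun2_self {α : Type*} [DecidableEq α] (μ : List α → ℂ) (u P : List α) :
    Dfun2 μ μ u P = Dfun μ u P := by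
  cases u <;> rfl

theorem Dfun2_nil {α : Type*} [DecidableEq α] (μ0 μ : List α → ℂ) (i : α) (u : List α) :
    Dfun2 μ0 μ (i :: u) [] = 0 := by
  unfold Dfun2
  exact Finset.sum_eq_zero fun t _ => t.elim0

theorem Dfun2_cons {α : Type*} [DecidableEq α] (μ0 μ : List α → ℂ) (i : α) (u : List α) (p : α)
    (P : List α) :
    Dfun2 μ0 μ (i :: u) (p :: P) = (if p = i then μ0 [] * Dfun μ u P else 0) +
      Dfun2 (fun Q => μ0 (p :: Q)) μ (i :: u) P := by
  unfold Dfun2
  exact Fin.sum_univ_succ (n := P.length) _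

theorem Dfun2_append {α : Type*} [DecidableEq α] (μ : List α → ℂ) (i : α) (v : List α)
    (P : List α) : ∀ (μ0 : List α → ℂ) (u : List α),
    Dfun2 μ0 μ (u ++ i :: v) P = ∑ t : Fin P.length,
      if P[t] = i then Dfun2 μ0 μ u (P.take t) * Dfun μ v (P.drop (t + 1)) else 0 := by
  induction P with
  | nil =>
    intro μ0 u
    have h1 : (∑ t : Fin ([] : List α).length, if ([] : List α)[t] = i then
        Dfun2 μ0 μ u (([] : List α).take t) * Dfun μ v (([] : List α).drop (t + 1)) else 0) = 0 :=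
      Finset.sum_eq_zero fun t _ => t.elim0
    rw [h1]
    cases u with
    | nil => exact Dfun2_nil μ0 μ i v
    | cons j u => exact Dfun2_nil μ0 μ j (u ++ i :: v)
  | cons p P ih =>
    intro μ0 u
    cases u with
    | nil => rfl
    | cons j u =>
      have hIH1 : Dfun μ (u ++ i :: v) P = ∑ t : Fin P.length,
          if P[t] = i then Dfun μ u (P.take t) * Dfun μ v (P.drop (t + 1)) else 0 := by
        have := ih μ u
        simp only [Dfun2_self] at this
        exact this
      have hIH2 := ih (fun Q => μ0 (p :: Q)) (j :: u)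
      rw [List.cons_append, Dfun2_cons, hIH1]
      rw [List.cons_append] at hIH2
      rw [hIH2]
      have hR : (∑ t : Fin (p :: P).length, if (p :: P)[t] = i then
          Dfun2 μ0 μ (j :: u) ((p :: P).take t) * Dfun μ v ((p :: P).drop (t + 1)) else 0) =
          (if p = i then Dfun2 μ0 μ (j :: u) [] * Dfun μ v P else 0) +
          ∑ t : Fin P.length, if P[t] = i then
            Dfun2 μ0 μ (j :: u) (p :: P.take t) * Dfun μ v (P.drop (t + 1)) else 0 :=
        Fin.sum_univ_succ (n := P.length) _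
      rw [hR, Dfun2_nil]
      simp only [Dfun2_cons, zero_mul, ite_self, zero_add]
      by_cases hp : p = j
      · simp only [hp, if_true, Finset.mul_sum]
        rw [← Finset.sum_add_distrib]
        refine Finset.sum_congr rfl fun t _ => ?_
        by_cases ht : P[t] = i
        · simp only [ht, if_true]; ring
        · simp only [ht, if_false]; ring
      · simp only [hp, if_false, zero_add]

theorem Dfun_append {α : Type*} [DecidableEq α] (μ : List α → ℂ) (u : List α) (i : α)
    (v P : List α) :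
    Dfun μ (u ++ i :: v) P = ∑ t : Fin P.length,
      if P[t] = i then Dfun μ u (P.take t) * Dfun μ v (P.drop (t + 1)) else 0 := by
  have := Dfun2_append μ i v P μ u
  simp only [Dfun2_self] at this
  exact this

/-- the action of `R_i^*` on a word. -/
theorem Radj_word {α H : Type*} [DecidableEq α] [NormedAddCommGroup H] [InnerProductSpace ℂ H]
    [CompleteSpace H] {X R : α → H →L[ℂ] H} {c : α → ℝ} {Ω : H} (h : XRel X R c Ω)
    (i : α) (P : List α) :
    ContinuousLinearMap.adjoint (R i) ((P.map X).prod Ω) = ∑ t : Fin P.length,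
      if P[t] = i then ((c i : ℂ) * ⟪Ω, ((P.drop (t + 1)).map X).prod Ω⟫_ℂ) •
        ((P.take t).map X).prod Ω else 0 := by
  induction P with
  | nil =>
    have h1 : (∑ t : Fin ([] : List α).length, if ([] : List α)[t] = i then
        ((c i : ℂ) * ⟪Ω, ((([] : List α).drop (t + 1)).map X).prod Ω⟫_ℂ) •
        ((([] : List α).take t).map X).prod Ω else 0) = 0 :=
      Finset.sum_eq_zero fun t _ => t.elim0
    rw [h1]
    simpa using h.RΩ i
  | cons p P ih =>
    have hR : (∑ t : Fin (p :: P).length, if (p :: P)[t] = i then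
        ((c i : ℂ) * ⟪Ω, (((p :: P).drop (t + 1)).map X).prod Ω⟫_ℂ) •
        (((p :: P).take t).map X).prod Ω else 0) =
        (if p = i then ((c i : ℂ) * ⟪Ω, (P.map X).prod Ω⟫_ℂ) • (([] : List α).map X).prod Ω
          else 0) +
        ∑ t : Fin P.length, if P[t] = i then
          ((c i : ℂ) * ⟪Ω, ((P.drop (t + 1)).map X).prod Ω⟫_ℂ) •
            ((p :: P.take t).map X).prod Ω else 0 :=
      Fin.sum_univ_succ (n := P.length) _
    rw [hR, List.map_cons, List.prod_cons, mul_apply_eq_comp, h.comm, ih, map_sum, add_comm]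
    congr 1
    · by_cases hp : p = i
      · subst hp; simp
      · rw [if_neg hp, if_neg (Ne.symm hp)]
    · refine Finset.sum_congr rfl fun t _ => ?_
      by_cases ht : P[t] = i
      · simp only [ht, if_true, map_smul, List.map_cons, List.prod_cons, mul_apply_eq_comp]
      · simp only [ht, if_false, map_zero]

theorem eVec_append {α H : Type*} [NormedAddCommGroup H] [InnerProductSpace ℂ H]
    (R : α → H →L[ℂ] H) (Ω : H) (u : List α) (i : α) :
    eVec R Ω (u ++ [i]) = R i (eVec R Ω u) := by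
  unfold eVec
  simp

theorem eVec_inner {α H : Type*} [DecidableEq α] [NormedAddCommGroup H] [InnerProductSpace ℂ H]
    [CompleteSpace H] {X R : α → H →L[ℂ] H} {c : α → ℝ} {Ω : H} (h : XRel X R c Ω)
    (u P : List α) :
    ⟪eVec R Ω u, (P.map X).prod Ω⟫_ℂ =
      ((u.map c).prod : ℝ) * Dfun (fun Q => ⟪Ω, (Q.map X).prod Ω⟫_ℂ) u P := by
  induction u using List.reverseRecOn generalizing P with
  | nil => simp [eVec, Dfun]
  | append_singleton u i ih =>
    rw [eVec_append, ← ContinuousLinearMap.adjoint_inner_right, Radj_word h, inner_sum,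
      Dfun_append, Finset.mul_sum]
    refine Finset.sum_congr rfl fun t _ => ?_
    by_cases ht : P[t] = i
    · simp only [ht, if_true, inner_smul_right, ih, List.map_append, List.map_cons, List.map_nil,
        List.prod_append, List.prod_cons, List.prod_nil, mul_one, Dfun]
      push_cast
      ring
    · simp only [ht, if_false, inner_zero_right, mul_zero]

/-- the case of one letter: `⟪R_i Ω, X_P Ω⟫ = c_i Σ_t [P_t = i] τ(X_{take t}) τ(X_{drop (t+1)})`. -/
theorem R_inner {α H : Type*} [DecidableEq α] [NormedAddCommGroup H] [InnerProductSpace ℂ H]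
    [CompleteSpace H] {X R : α → H →L[ℂ] H} {c : α → ℝ} {Ω : H} (h : XRel X R c Ω)
    (i : α) (P : List α) :
    ⟪R i Ω, (P.map X).prod Ω⟫_ℂ = (c i : ℂ) * ∑ t : Fin P.length,
      if P[t] = i then ⟪Ω, ((P.take t).map X).prod Ω⟫_ℂ * ⟪Ω, ((P.drop (t + 1)).map X).prod Ω⟫_ℂ
      else 0 := by
  rw [← ContinuousLinearMap.adjoint_inner_right, Radj_word h, inner_sum, Finset.mul_sum]
  refine Finset.sum_congr rfl fun t _ => ?_
  by_cases ht : P[t] = i
  · simp only [ht, if_true, inner_smul_right]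
    ring
  · simp only [ht, if_false, inner_zero_right, mul_zero]

theorem eVec_orthonormal {α H : Type*} [DecidableEq α] [NormedAddCommGroup H]
    [InnerProductSpace ℂ H] [CompleteSpace H] {X R : α → H →L[ℂ] H} {c : α → ℝ} {Ω : H}
    (h : XRel X R c Ω) (u v : List α) :
    ⟪eVec R Ω u, eVec R Ω v⟫_ℂ = if u = v then 1 else 0 := by
  have hΩ : ⟪Ω, Ω⟫_ℂ = 1 := by
    rw [inner_self_eq_norm_sq_to_K, h.normΩ]; simp
  induction u using List.reverseRecOn generalizing v with
  | nil =>
    rcases List.eq_nil_or_concat v with rfl | ⟨v', j, rfl⟩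
    · simpa [eVec] using hΩ
    · rw [List.concat_eq_append, eVec_append]
      have : ⟪eVec R Ω [], R j (eVec R Ω v')⟫_ℂ = 0 := by
        rw [← ContinuousLinearMap.adjoint_inner_left]
        simp [eVec, h.RΩ]
      rw [this, if_neg]
      simp
  | append_singleton u i ih =>
    rcases List.eq_nil_or_concat v with rfl | ⟨v', j, rfl⟩
    · rw [eVec_append, ← ContinuousLinearMap.adjoint_inner_right]
      have : ContinuousLinearMap.adjoint (R i) (eVec R Ω []) = 0 := by simp [eVec, h.RΩ]
      rw [this, inner_zero_right, if_neg]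
      simp
    · rw [List.concat_eq_append, eVec_append, eVec_append,
        ← ContinuousLinearMap.adjoint_inner_right, h.RR]
      by_cases hij : i = j
      · subst hij
        rw [if_pos rfl, ih]
        congr 1
        simp
      · rw [if_neg hij, inner_zero_right, if_neg]
        intro hcon
        have := List.append_inj_right' hcon rfl
        exact hij (by simpa using this)

theorem norm_R_vac {α H : Type*} [DecidableEq α] [NormedAddCommGroup H]
    [InnerProductSpace ℂ H] [CompleteSpace H] {X R : α → H →L[ℂ] H} {c : α → ℝ} {Ω : H}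
    (h : XRel X R c Ω) (i : α) : ‖R i Ω‖ = 1 := by
  have h1 : ⟪R i Ω, R i Ω⟫_ℂ = 1 := by
    rw [← ContinuousLinearMap.adjoint_inner_right, h.RR, if_pos rfl, inner_self_eq_norm_sq_to_K,
      h.normΩ]
    simp
  rw [inner_self_eq_norm_sq_to_K] at h1
  have h2 : ‖R i Ω‖ ^ 2 = 1 := Complex.ofReal_injective (by simpa using h1)
  nlinarith [norm_nonneg (R i Ω)]

end Crest.Agent.FE
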